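import Vale.Agent.P091.H413.Sys6
import Vale.Agent.P091.T.H316.Epoch

/-! `LemmaE1` of helper316 (departure form of Lemma E). -/

namespace Vale.Agent.P091.H413

theorem lemmaE1 : T.H316.LemmaE1 := lemmaE_dep

end Vale.Agent.P091.H413
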