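import Vale.Agent.P091.H413.Tree

namespace Vale.Agent.P091.H413

/-- Data of the energy lemma on a binary tree.  Values without prime: at a node, on departure
(after the modifications made at this node); with prime: on arrival (before them).
`α k` mass of the x-class `k`; `A k q` x-letters, `‖A k q‖ ≤ α k`;
`G q` mass of the y-value `q`; `B k q` y-letters, `‖B k q‖ ≤ G q`. -/
structure ESys (K Q : Type) where
  α : K → Node → ℝ
  α' : K → Node → ℝ
  A : K → Q → Node → ℂ
  A' : K → Q → Node → ℂ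
  G : Q → Node → ℝ
  G' : Q → Node → ℝ
  B : K → Q → Node → ℂ
  B' : K → Q → Node → ℂ

variable {K Q : Type} [Fintype K] [Fintype Q]

namespace ESys
variable (s : ESys K Q)

noncomputable def dα (k : K) (v : Node) : ℝ := (s.α' k (true :: v) - s.α' k (false :: v)) / 2
noncomputable def dG (q : Q) (v : Node) : ℝ := (s.G' q (true :: v) - s.G' q (false :: v)) / 2
noncomputable def dA (k : K) (q : Q) (v : Node) : ℂ :=
  (s.A' k q (true :: v) - s.A' k q (false :: v)) / 2
noncomputable def dB (k : K) (q : Q) (v : Node) : ℂ :=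
  (s.B' k q (true :: v) - s.B' k q (false :: v)) / 2

/-- `α_k μ_k = ∑_q A_kq B_kq` -/
noncomputable def z (k : K) (v : Node) : ℂ := ∑ q, s.A k q v * s.B k q v
noncomputable def z' (k : K) (v : Node) : ℂ := ∑ q, s.A' k q v * s.B' k q v

/-- `τ_k = ∑_q σ_kq dB_kq`, `σ = A/α`. -/
noncomputable def τ (k : K) (v : Node) : ℂ := ∑ q, s.A k q v / (s.α k v : ℂ) * s.dB k q v

/-- same-node pairing (martingale transform) -/
noncomputable def gain0 (v : Node) : ℝ := ‖∑ k, ∑ q, s.dA k q v * s.dB k q v‖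

/-- delayed pairing (Haar shift): the x-difference is taken at the child `b :: v`, for the classes
that are present on arrival at the child. -/
noncomputable def gain1 (b : Bool) (v : Node) : ℝ :=
  ‖∑ k, if s.α' k (b :: v) = 0 then 0 else ∑ q, s.dA k q (b :: v) * s.dB k q v‖

/-- The hypotheses on the tree of depth `n`. -/
structure Ok (n : ℕ) : Prop where
  α0 : ∀ k v, v.length < n → 0 ≤ s.α k v
  α0' : ∀ k v, v.length ≤ n → 0 ≤ s.α' k v
  αsum : ∀ v, v.length < n → ∑ k, s.α k v ≤ 1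
  αsum' : ∀ v, v.length ≤ n → ∑ k, s.α' k v ≤ 1
  αm : ∀ k v, v.length < n → s.α k v = (s.α' k (true :: v) + s.α' k (false :: v)) / 2
  A1 : ∀ k q v, v.length < n → ‖s.A k q v‖ ≤ s.α k v
  A1' : ∀ k q v, v.length ≤ n → ‖s.A' k q v‖ ≤ s.α' k v
  Am : ∀ k q v, v.length < n → s.A k q v = (s.A' k q (true :: v) + s.A' k q (false :: v)) / 2
  G0 : ∀ q v, v.length < n → 0 ≤ s.G q v
  G0' : ∀ q v, v.length ≤ n → 0 ≤ s.G' q v
  Gsum : ∀ v, v.length < n → ∑ q, s.G q v ≤ 2
  Gsum' : ∀ v, v.length ≤ n → ∑ q, s.G' q v ≤ 2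
  Gm : ∀ q v, v.length < n → s.G q v = (s.G' q (true :: v) + s.G' q (false :: v)) / 2
  B1 : ∀ k q v, v.length < n → ‖s.B k q v‖ ≤ s.G q v
  B1' : ∀ k q v, v.length ≤ n → ‖s.B' k q v‖ ≤ s.G' q v
  Bm : ∀ k q v, v.length < n → s.B k q v = (s.B' k q (true :: v) + s.B' k q (false :: v)) / 2
  /-- y-modification: removal of mass -/
  Gr : ∀ q v, v.length < n → s.G q v ≤ s.G' q v
  /-- x-modification at a node: either the class is new (activation), or it loses mass. -/
  xr : ∀ k v, v.length < n → s.α' k v = 0 ∨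
    ((∀ q, ‖s.A' k q v - s.A k q v‖ ≤ s.α' k v - s.α k v) ∧ s.α k v ≤ s.α' k v ∧
      ∀ q, ‖s.B' k q v - s.B k q v‖ ≤ s.G' q v - s.G q v)

end ESys

/-- **Lemma E.**  `2 h` bounds the x-energy, `I` the value information, `m` the removed x-mass;
`good k v`: the mean `μ_k` is at most `δ` on departure at `v` and on arrival at its two children;
`b` bounds the energy of the exceptional (bad) pairs. -/
def LemmaE : Prop :=
  ∃ C : ℝ, 0 < C ∧ ∀ (K Q : Type) [Fintype K] [Fintype Q] (s : ESys K Q) (n : ℕ)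
    (good : K → Node → Prop) [∀ k v, Decidable (good k v)] (h I m δ b : ℝ),
    s.Ok n → 0 ≤ h → 0 ≤ I → 0 ≤ m → 0 ≤ δ → 0 ≤ b →
    S n (fun v => ∑ k, s.dα k v ^ 2 / s.α k v) [] ≤ 2 * h →
    S n (fun v => ∑ q, s.dG q v ^ 2 / s.G q v) [] ≤ I →
    S n (fun v => ∑ k, max (s.α' k v - s.α k v) 0) [] ≤ m →
    (∀ k v, v.length < n → good k v → ‖s.z k v‖ ≤ δ * s.α k v ∧
      ∀ c : Bool, ‖s.z' k (c :: v)‖ ≤ δ * s.α' k (c :: v)) →
    S n (fun v => ∑ k, if good k v then 0 else s.α k v * ‖s.τ k v‖ ^ 2) [] ≤ b →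
    (S n s.gain0 [] ≤ C * (δ * h + √((1 + m + h + I) * (1 + m + I + √(I * h))) + √(h * b))) ∧
    (∀ c : Bool, S (n - 1) (s.gain1 c) [] ≤
      C * (δ * h + √((1 + m + h + I) * (1 + m + I + √(I * h))) + √(h * b)))

end Vale.Agent.P091.H413
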