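import Mathlib

/-! One-node algebra for the potential `‖A‖² / α`. -/

namespace Vale.Agent.P091.H413

/-- Data at one node: values at the two children. -/
theorem sig_mul {a : ℝ} {A : ℂ} (h : ‖A‖ ≤ a) : A / a * a = A := by
  rcases eq_or_ne a 0 with h0 | h0
  · subst h0
    have : A = 0 := by simpa using h
    simp [this]
  · have : (a : ℂ) ≠ 0 := by exact_mod_cast h0
    field_simp

theorem norm_sig_le {a : ℝ} {A : ℂ} (h0 : 0 ≤ a) (h : ‖A‖ ≤ a) : ‖A / a‖ ≤ 1 := by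
  rw [norm_div, Complex.norm_real, Real.norm_of_nonneg h0]
  exact div_le_one_of_le₀ h h0

/-- The remainder `r = dA - σ dα`. -/
noncomputable def rem (a0 a1 : ℝ) (A0 A1 : ℂ) : ℂ :=
  (A0 - A1) / 2 - ((A0 + A1) / 2) / (((a0 + a1) / 2 : ℝ) : ℂ) * (((a0 - a1) / 2 : ℝ) : ℂ)

theorem rem_eq0 {a0 a1 : ℝ} {A0 A1 : ℂ} (h0 : ‖A0‖ ≤ a0) (h1 : ‖A1‖ ≤ a1) :
    A0 = ((A0 + A1) / 2) / (((a0 + a1) / 2 : ℝ) : ℂ) * (a0 : ℂ) + rem a0 a1 A0 A1 := by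
  have hs : ‖(A0 + A1) / 2‖ ≤ (a0 + a1) / 2 := by
    rw [norm_div]
    have := norm_add_le A0 A1
    simp only [Complex.norm_ofNat]
    linarith
  have h := sig_mul hs
  unfold rem
  set σ := ((A0 + A1) / 2) / (((a0 + a1) / 2 : ℝ) : ℂ) with hσ
  push_cast at h ⊢
  linear_combination -h

theorem rem_eq1 {a0 a1 : ℝ} {A0 A1 : ℂ} (h0 : ‖A0‖ ≤ a0) (h1 : ‖A1‖ ≤ a1) :
    A1 = ((A0 + A1) / 2) / (((a0 + a1) / 2 : ℝ) : ℂ) * (a1 : ℂ) - rem a0 a1 A0 A1 := by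
  have hs : ‖(A0 + A1) / 2‖ ≤ (a0 + a1) / 2 := by
    rw [norm_div]
    have := norm_add_le A0 A1
    simp only [Complex.norm_ofNat]
    linarith
  have h := sig_mul hs
  unfold rem
  set σ := ((A0 + A1) / 2) / (((a0 + a1) / 2 : ℝ) : ℂ) with hσ
  push_cast at h ⊢
  linear_combination -h

theorem norm_avg_le {a0 a1 : ℝ} {A0 A1 : ℂ} (h0 : ‖A0‖ ≤ a0) (h1 : ‖A1‖ ≤ a1) :
    ‖(A0 + A1) / 2‖ ≤ (a0 + a1) / 2 := by
  rw [norm_div]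
  have := norm_add_le A0 A1
  simp only [Complex.norm_ofNat]
  linarith

theorem norm_hdiff_le {a0 a1 : ℝ} {A0 A1 : ℂ} (h0 : ‖A0‖ ≤ a0) (h1 : ‖A1‖ ≤ a1) :
    ‖(A0 - A1) / 2‖ ≤ (a0 + a1) / 2 := by
  rw [norm_div]
  have := norm_sub_le A0 A1
  simp only [Complex.norm_ofNat]
  linarith

/-- `‖r‖ ≤ 2 a_i`. -/
theorem norm_rem_le0 {a0 a1 : ℝ} {A0 A1 : ℂ} (h0 : ‖A0‖ ≤ a0) (h1 : ‖A1‖ ≤ a1) :
    ‖rem a0 a1 A0 A1‖ ≤ 2 * a0 := by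
  have e := rem_eq0 h0 h1
  have hn0 : 0 ≤ a0 := (norm_nonneg _).trans h0
  have hn1 : 0 ≤ a1 := (norm_nonneg _).trans h1
  have hs := norm_sig_le (by linarith : 0 ≤ (a0 + a1) / 2) (norm_avg_le h0 h1)
  set σ := ((A0 + A1) / 2) / (((a0 + a1) / 2 : ℝ) : ℂ) with hσ
  have : rem a0 a1 A0 A1 = A0 - σ * a0 := by linear_combination -e
  rw [this]
  calc ‖A0 - σ * a0‖ ≤ ‖A0‖ + ‖σ * a0‖ := norm_sub_le _ _
    _ = ‖A0‖ + ‖σ‖ * a0 := by rw [norm_mul, Complex.norm_real, Real.norm_of_nonneg hn0]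
    _ ≤ a0 + 1 * a0 := by gcongr
    _ = 2 * a0 := by ring

theorem norm_rem_le1 {a0 a1 : ℝ} {A0 A1 : ℂ} (h0 : ‖A0‖ ≤ a0) (h1 : ‖A1‖ ≤ a1) :
    ‖rem a0 a1 A0 A1‖ ≤ 2 * a1 := by
  have e := rem_eq1 h0 h1
  have hn0 : 0 ≤ a0 := (norm_nonneg _).trans h0
  have hn1 : 0 ≤ a1 := (norm_nonneg _).trans h1
  have hs := norm_sig_le (by linarith : 0 ≤ (a0 + a1) / 2) (norm_avg_le h0 h1)
  set σ := ((A0 + A1) / 2) / (((a0 + a1) / 2 : ℝ) : ℂ) with hσ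
  have : rem a0 a1 A0 A1 = -(A1 - σ * a1) := by linear_combination e
  rw [this, norm_neg]
  calc ‖A1 - σ * a1‖ ≤ ‖A1‖ + ‖σ * a1‖ := norm_sub_le _ _
    _ = ‖A1‖ + ‖σ‖ * a1 := by rw [norm_mul, Complex.norm_real, Real.norm_of_nonneg hn1]
    _ ≤ a1 + 1 * a1 := by gcongr
    _ = 2 * a1 := by ring

/-- weight `κ = (1/a0 + 1/a1)/2` -/
noncomputable def kap (a0 a1 : ℝ) : ℝ := (1 / a0 + 1 / a1) / 2

theorem normsq_add_real (s r : ℂ) (a : ℝ) :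
    ‖s * a + r‖ ^ 2 = ‖s‖ ^ 2 * a ^ 2 + 2 * a * (s.re * r.re + s.im * r.im) + ‖r‖ ^ 2 := by
  simp only [Complex.sq_norm, Complex.normSq_apply, Complex.add_re, Complex.mul_re,
    Complex.ofReal_re, Complex.ofReal_im, Complex.add_im, Complex.mul_im]
  ring

theorem normsq_sub_real (s r : ℂ) (a : ℝ) :
    ‖s * a - r‖ ^ 2 = ‖s‖ ^ 2 * a ^ 2 - 2 * a * (s.re * r.re + s.im * r.im) + ‖r‖ ^ 2 := by
  simp only [Complex.sq_norm, Complex.normSq_apply, Complex.sub_re, Complex.mul_re,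
    Complex.ofReal_re, Complex.ofReal_im, Complex.sub_im, Complex.mul_im]
  ring

/-- value of `‖A_i‖²/a_i` at child 0. -/
theorem psi_eq0 {a0 a1 : ℝ} {A0 A1 : ℂ} (h0 : ‖A0‖ ≤ a0) (h1 : ‖A1‖ ≤ a1) :
    let σ := ((A0 + A1) / 2) / (((a0 + a1) / 2 : ℝ) : ℂ)
    let r := rem a0 a1 A0 A1
    ‖A0‖ ^ 2 / a0 = ‖σ‖ ^ 2 * a0 + 2 * (σ.re * r.re + σ.im * r.im) + ‖r‖ ^ 2 * (1 / a0) := by
  intro σ r
  have e : A0 = σ * a0 + r := rem_eq0 h0 h1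
  rcases eq_or_ne a0 0 with hz | hz
  · have hr : r = 0 := by
      have h3 : ‖r‖ ≤ 2 * a0 := norm_rem_le0 h0 h1
      have h4 : ‖r‖ ≤ 0 := by rw [hz] at h3; linarith
      exact norm_le_zero_iff.mp h4
    rw [hr, hz]
    simp
  · rw [e, normsq_add_real]
    field_simp

theorem psi_eq1 {a0 a1 : ℝ} {A0 A1 : ℂ} (h0 : ‖A0‖ ≤ a0) (h1 : ‖A1‖ ≤ a1) :
    let σ := ((A0 + A1) / 2) / (((a0 + a1) / 2 : ℝ) : ℂ)
    let r := rem a0 a1 A0 A1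
    ‖A1‖ ^ 2 / a1 = ‖σ‖ ^ 2 * a1 - 2 * (σ.re * r.re + σ.im * r.im) + ‖r‖ ^ 2 * (1 / a1) := by
  intro σ r
  have e : A1 = σ * a1 - r := rem_eq1 h0 h1
  rcases eq_or_ne a1 0 with hz | hz
  · have hr : r = 0 := by
      have h3 : ‖r‖ ≤ 2 * a1 := norm_rem_le1 h0 h1
      have h4 : ‖r‖ ≤ 0 := by rw [hz] at h3; linarith
      exact norm_le_zero_iff.mp h4
    rw [hr, hz]
    simp
  · rw [e, normsq_sub_real]
    field_simp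

theorem psi_eq {a0 a1 : ℝ} {A0 A1 : ℂ} (h0 : ‖A0‖ ≤ a0) (h1 : ‖A1‖ ≤ a1) :
    let σ := ((A0 + A1) / 2) / (((a0 + a1) / 2 : ℝ) : ℂ)
    ‖(A0 + A1) / 2‖ ^ 2 / ((a0 + a1) / 2) = ‖σ‖ ^ 2 * ((a0 + a1) / 2) := by
  intro σ
  have e : (A0 + A1) / 2 = σ * (((a0 + a1) / 2 : ℝ) : ℂ) := (sig_mul (norm_avg_le h0 h1)).symm
  have hn0 : 0 ≤ a0 := (norm_nonneg _).trans h0
  have hn1 : 0 ≤ a1 := (norm_nonneg _).trans h1
  have hn : 0 ≤ (a0 + a1) / 2 := by linarith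
  rcases eq_or_ne ((a0 + a1) / 2) 0 with hz | hz
  · rw [hz]; simp
  · conv_lhs => rw [e]
    rw [norm_mul, Complex.norm_real, Real.norm_of_nonneg hn]
    field_simp

/-- The node inequality: the increment of `G ‖A‖²/a` dominates `G ‖r‖² κ` up to an error. -/
theorem node_psi {a0 a1 g0 g1 : ℝ} {A0 A1 : ℂ} (h0 : ‖A0‖ ≤ a0) (h1 : ‖A1‖ ≤ a1) :
    (g0 + g1) / 2 * (‖rem a0 a1 A0 A1‖ ^ 2 * kap a0 a1) ≤
      (g0 * (‖A0‖ ^ 2 / a0) + g1 * (‖A1‖ ^ 2 / a1)) / 2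
        - (g0 + g1) / 2 * (‖(A0 + A1) / 2‖ ^ 2 / ((a0 + a1) / 2))
      + |(g0 - g1) / 2| * (|(a0 - a1) / 2| + 3 * ‖rem a0 a1 A0 A1‖) := by
  have hn0 : 0 ≤ a0 := (norm_nonneg _).trans h0
  have hn1 : 0 ≤ a1 := (norm_nonneg _).trans h1
  have hs := norm_sig_le (by linarith : 0 ≤ (a0 + a1) / 2) (norm_avg_le h0 h1)
  have q0 := psi_eq0 h0 h1
  have q1 := psi_eq1 h0 h1
  have q := psi_eq h0 h1
  have b0 := norm_rem_le0 h0 h1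
  have b1 := norm_rem_le1 h0 h1
  simp only at q0 q1 q
  rw [q0, q1, q]
  set σ := ((A0 + A1) / 2) / (((a0 + a1) / 2 : ℝ) : ℂ) with hσ
  set r := rem a0 a1 A0 A1 with hr
  have hrn : 0 ≤ ‖r‖ := norm_nonneg _
  -- inner product bound
  have hip : |σ.re * r.re + σ.im * r.im| ≤ ‖r‖ := by
    have h2 : (σ.re * r.re + σ.im * r.im) ^ 2 ≤ ‖r‖ ^ 2 := by
      have e1 : ‖σ‖ ^ 2 = σ.re ^ 2 + σ.im ^ 2 := by
        rw [Complex.sq_norm, Complex.normSq_apply]; ring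
      have e2 : ‖r‖ ^ 2 = r.re ^ 2 + r.im ^ 2 := by
        rw [Complex.sq_norm, Complex.normSq_apply]; ring
      have e3 : ‖σ‖ ^ 2 ≤ 1 := by
        have := norm_nonneg σ
        nlinarith
      have e4 : (σ.re * r.re + σ.im * r.im) ^ 2 ≤ (σ.re ^ 2 + σ.im ^ 2) * (r.re ^ 2 + r.im ^ 2) := by
        nlinarith [sq_nonneg (σ.re * r.im - σ.im * r.re)]
      rw [e2]
      have e5 : 0 ≤ r.re ^ 2 + r.im ^ 2 := by positivity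
      nlinarith
    exact abs_le_of_sq_le_sq h2 hrn
  -- bound of ‖r‖²/a_i by 2‖r‖
  have c0 : ‖r‖ ^ 2 * (1 / a0) ≤ 2 * ‖r‖ ∧ 0 ≤ ‖r‖ ^ 2 * (1 / a0) := by
    constructor
    · rcases eq_or_lt_of_le hn0 with h | h
      · rw [← h]; simp
      · rw [mul_one_div, div_le_iff₀ h]; nlinarith
    · positivity
  have c1 : ‖r‖ ^ 2 * (1 / a1) ≤ 2 * ‖r‖ ∧ 0 ≤ ‖r‖ ^ 2 * (1 / a1) := by
    constructor
    · rcases eq_or_lt_of_le hn1 with h | h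
      · rw [← h]; simp
      · rw [mul_one_div, div_le_iff₀ h]; nlinarith
    · positivity
  set u0 := ‖r‖ ^ 2 * (1 / a0) with hu0
  set u1 := ‖r‖ ^ 2 * (1 / a1) with hu1
  have hk : ‖r‖ ^ 2 * kap a0 a1 = (u0 + u1) / 2 := by
    rw [hu0, hu1]; unfold kap; ring
  rw [hk]
  set ip := σ.re * r.re + σ.im * r.im with hipd
  set s2 := ‖σ‖ ^ 2 with hs2
  have hs2le : s2 ≤ 1 := by
    have := norm_nonneg σ
    nlinarith
  have hs2n : 0 ≤ s2 := by positivity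
  -- difference term
  have hdiff : |s2 * ((a0 - a1) / 2) + 2 * ip + (u0 - u1) / 2| ≤ |(a0 - a1) / 2| + 3 * ‖r‖ := by
    have t1 : |s2 * ((a0 - a1) / 2)| ≤ |(a0 - a1) / 2| := by
      rw [abs_mul, abs_of_nonneg hs2n]
      exact mul_le_of_le_one_left (abs_nonneg _) hs2le
    have t2 : |2 * ip| ≤ 2 * ‖r‖ := by
      rw [abs_mul, abs_of_pos (by norm_num : (0:ℝ) < 2)]
      linarith
    have t3 : |(u0 - u1) / 2| ≤ ‖r‖ := by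
      rw [abs_le]; constructor <;> linarith [c0.1, c0.2, c1.1, c1.2]
    calc _ ≤ |s2 * ((a0 - a1) / 2) + 2 * ip| + |(u0 - u1) / 2| := abs_add_le _ _
      _ ≤ |s2 * ((a0 - a1) / 2)| + |2 * ip| + |(u0 - u1) / 2| := by
        gcongr; exact abs_add_le _ _
      _ ≤ _ := by linarith
  have hprod : -(|(g0 - g1) / 2| * (|(a0 - a1) / 2| + 3 * ‖r‖)) ≤
      (g0 - g1) / 2 * (s2 * ((a0 - a1) / 2) + 2 * ip + (u0 - u1) / 2) := by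
    have := neg_abs_le ((g0 - g1) / 2 * (s2 * ((a0 - a1) / 2) + 2 * ip + (u0 - u1) / 2))
    rw [abs_mul] at this
    have h2 := mul_le_mul_of_nonneg_left hdiff (abs_nonneg ((g0 - g1) / 2))
    linarith
  have ident : (g0 * (s2 * a0 + 2 * ip + u0) + g1 * (s2 * a1 - 2 * ip + u1)) / 2
      - (g0 + g1) / 2 * (s2 * ((a0 + a1) / 2))
      = (g0 + g1) / 2 * ((u0 + u1) / 2)
        + (g0 - g1) / 2 * (s2 * ((a0 - a1) / 2) + 2 * ip + (u0 - u1) / 2) := by ring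
  rw [ident]
  linarith

/-- `1/a ≤ κ`. -/
theorem inv_le_kap {a0 a1 : ℝ} (h0 : 0 < a0) (h1 : 0 < a1) : 1 / ((a0 + a1) / 2) ≤ kap a0 a1 := by
  unfold kap
  rw [div_add_div _ _ h0.ne' h1.ne', div_div, div_le_div_iff₀ (by positivity) (by positivity)]
  nlinarith [sq_nonneg (a0 - a1)]

theorem rem_sq_div_le {a0 a1 : ℝ} {A0 A1 : ℂ} (h0 : ‖A0‖ ≤ a0) (h1 : ‖A1‖ ≤ a1) :
    ‖rem a0 a1 A0 A1‖ ^ 2 / ((a0 + a1) / 2) ≤ ‖rem a0 a1 A0 A1‖ ^ 2 * kap a0 a1 := by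
  have hn0 : 0 ≤ a0 := (norm_nonneg _).trans h0
  have hn1 : 0 ≤ a1 := (norm_nonneg _).trans h1
  have b0 := norm_rem_le0 h0 h1
  have b1 := norm_rem_le1 h0 h1
  rcases eq_or_lt_of_le hn0 with h | h
  · have : ‖rem a0 a1 A0 A1‖ = 0 :=
      le_antisymm (by linarith) (norm_nonneg _)
    rw [this]; simp
  rcases eq_or_lt_of_le hn1 with h' | h'
  · have : ‖rem a0 a1 A0 A1‖ = 0 :=
      le_antisymm (by linarith) (norm_nonneg _)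
    rw [this]; simp
  have := inv_le_kap h h'
  rw [div_eq_mul_one_div]
  gcongr

end Vale.Agent.P091.H413
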