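import Vale.Agent.P091.H413.NodeA

/-! One-node algebra for the potential `α φ_δ(z/α)`, `φ_δ` the Huber function. -/

namespace Vale.Agent.P091.H413

/-- `Pot δ a z = a φ_δ(z/a)`, `φ_δ(z) = ‖z‖²` for `‖z‖ ≤ δ` and `2δ‖z‖ - δ²` beyond. -/
noncomputable def Pot (δ a : ℝ) (z : ℂ) : ℝ :=
  if ‖z‖ ≤ δ * a then ‖z‖ ^ 2 / a else 2 * δ * ‖z‖ - δ ^ 2 * a

/-- real part of `conj w * z` -/
noncomputable def ip (w z : ℂ) : ℝ := w.re * z.re + w.im * z.im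

theorem ip_add (w x y : ℂ) : ip w (x + y) = ip w x + ip w y := by
  unfold ip; simp only [Complex.add_re, Complex.add_im]; ring

theorem ip_sub (w x y : ℂ) : ip w (x - y) = ip w x - ip w y := by
  unfold ip; simp only [Complex.sub_re, Complex.sub_im]; ring

theorem ip_smul (w x : ℂ) (a : ℝ) : ip w ((a : ℂ) * x) = a * ip w x := by
  unfold ip
  simp only [Complex.mul_re, Complex.mul_im, Complex.ofReal_re, Complex.ofReal_im]; ring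

theorem smul_ip (w x : ℂ) (a : ℝ) : ip ((a : ℂ) * w) x = a * ip w x := by
  unfold ip
  simp only [Complex.mul_re, Complex.mul_im, Complex.ofReal_re, Complex.ofReal_im]; ring

theorem ip_self (z : ℂ) : ip z z = ‖z‖ ^ 2 := by
  unfold ip; rw [Complex.sq_norm, Complex.normSq_apply]

theorem ip_abs (w z : ℂ) : |ip w z| ≤ ‖w‖ * ‖z‖ := by
  apply abs_le_of_sq_le_sq _ (by positivity)
  rw [mul_pow]
  have e1 : ‖w‖ ^ 2 = w.re ^ 2 + w.im ^ 2 := by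
    rw [Complex.sq_norm, Complex.normSq_apply]; ring
  have e2 : ‖z‖ ^ 2 = z.re ^ 2 + z.im ^ 2 := by
    rw [Complex.sq_norm, Complex.normSq_apply]; ring
  rw [e1, e2]
  unfold ip
  nlinarith [sq_nonneg (w.re * z.im - w.im * z.re)]

theorem ip_le (w z : ℂ) : ip w z ≤ ‖w‖ * ‖z‖ := (le_abs_self _).trans (ip_abs w z)

theorem neg_ip_le (w z : ℂ) : -(‖w‖ * ‖z‖) ≤ ip w z := (abs_le.mp (ip_abs w z)).1

/-- lower bound by the dual functions -/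
theorem Pot_ge {δ a : ℝ} (hδ : 0 ≤ δ) (ha : 0 ≤ a) {w : ℂ} (hw : ‖w‖ ≤ δ) (z : ℂ) :
    2 * ip w z - ‖w‖ ^ 2 * a ≤ Pot δ a z := by
  have h1 := ip_le w z
  have hw0 := norm_nonneg w
  have hz0 := norm_nonneg z
  unfold Pot
  split_ifs with h
  · rcases eq_or_lt_of_le ha with h0 | h0
    · subst h0
      have : ‖z‖ = 0 := le_antisymm (by simpa using h) hz0
      rw [this] at h1 ⊢
      simp only [mul_zero, sub_zero] at h1 ⊢
      simp only [div_zero]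
      linarith
    · rw [le_div_iff₀ h0]
      nlinarith [sq_nonneg (‖w‖ * a - ‖z‖)]
  · push Not at h
    nlinarith [mul_nonneg (sub_nonneg.mpr hw) (sub_nonneg.mpr h.le),
      mul_nonneg (mul_nonneg (sub_nonneg.mpr hw) (sub_nonneg.mpr hw)) ha]

/-- and the bound is attained -/
theorem Pot_att {δ a : ℝ} (hδ : 0 ≤ δ) (ha : 0 ≤ a) (z : ℂ) :
    ∃ w : ℂ, ‖w‖ ≤ δ ∧ Pot δ a z = 2 * ip w z - ‖w‖ ^ 2 * a := by
  have hz0 := norm_nonneg z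
  unfold Pot
  split_ifs with h
  · rcases eq_or_lt_of_le ha with h0 | h0
    · subst h0
      exact ⟨0, by simpa using hδ, by simp [ip]⟩
    · refine ⟨((1 / a : ℝ) : ℂ) * z, ?_, ?_⟩
      · rw [norm_mul, Complex.norm_real, Real.norm_of_nonneg (by positivity)]
        rw [one_div, inv_mul_le_iff₀ h0]
        linarith
      · rw [smul_ip, ip_self, norm_mul, Complex.norm_real, Real.norm_of_nonneg (by positivity)]
        field_simp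
        ring
  · push Not at h
    have hz : 0 < ‖z‖ := lt_of_le_of_lt (by positivity) h
    refine ⟨((δ / ‖z‖ : ℝ) : ℂ) * z, ?_, ?_⟩
    · rw [norm_mul, Complex.norm_real, Real.norm_of_nonneg (by positivity)]
      rw [div_mul_cancel₀ _ hz.ne']
    · rw [smul_ip, ip_self, norm_mul, Complex.norm_real, Real.norm_of_nonneg (by positivity),
        div_mul_cancel₀ _ hz.ne']
      field_simp

theorem Pot_nonneg {δ a : ℝ} (hδ : 0 ≤ δ) (ha : 0 ≤ a) (z : ℂ) : 0 ≤ Pot δ a z := by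
  have := Pot_ge hδ ha (w := 0) (by simpa using hδ) z
  simpa [ip] using this

theorem Pot_le {δ a : ℝ} (hδ : 0 ≤ δ) (ha : 0 ≤ a) (z : ℂ) : Pot δ a z ≤ 2 * δ * ‖z‖ := by
  obtain ⟨w, hw, e⟩ := Pot_att hδ ha z
  rw [e]
  have h1 := ip_le w z
  have h2 : ‖w‖ * ‖z‖ ≤ δ * ‖z‖ := by gcongr
  have h3 : 0 ≤ ‖w‖ ^ 2 * a := by positivity
  linarith

theorem Pot_zero (δ : ℝ) {a : ℝ} (hδ : 0 ≤ δ) (ha : 0 ≤ a) : Pot δ a 0 = 0 := by
  unfold Pot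
  rw [if_pos (by simp; positivity)]
  simp

/-- effect of a modification: the mass decreases, the numerator moves by `u`. -/
theorem Pot_mod {δ a a' : ℝ} (hδ : 0 ≤ δ) (ha : 0 ≤ a) (haa : a ≤ a') (z z' : ℂ) :
    Pot δ a' z' ≤ Pot δ a z + 2 * δ * ‖z' - z‖ := by
  obtain ⟨w, hw, e⟩ := Pot_att hδ (ha.trans haa) z'
  have h1 := Pot_ge hδ ha hw z
  have h2 := ip_le w (z' - z)
  rw [ip_sub] at h2
  have h3 : ‖w‖ * ‖z' - z‖ ≤ δ * ‖z' - z‖ := by gcongr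
  have h4 : ‖w‖ ^ 2 * a ≤ ‖w‖ ^ 2 * a' := by gcongr
  rw [e]
  linarith

/-- convexity with an error `u` in the mean of the numerators. -/
theorem Pot_node_bad {δ a0 a1 : ℝ} (hδ : 0 ≤ δ) (h0 : 0 ≤ a0) (h1 : 0 ≤ a1) (z z0 z1 : ℂ) :
    0 ≤ (Pot δ a0 z0 + Pot δ a1 z1) / 2 - Pot δ ((a0 + a1) / 2) z
      + 2 * δ * ‖(z0 + z1) / 2 - z‖ := by
  obtain ⟨w, hw, e⟩ := Pot_att hδ (by linarith : 0 ≤ (a0 + a1) / 2) z
  have g0 := Pot_ge hδ h0 hw z0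
  have g1 := Pot_ge hδ h1 hw z1
  have h2 := neg_ip_le w ((z0 + z1) / 2 - z)
  have e2 : ip w ((z0 + z1) / 2 - z) = (ip w z0 + ip w z1) / 2 - ip w z := by
    rw [ip_sub]
    have : (z0 + z1) / 2 = ((1 / 2 : ℝ) : ℂ) * (z0 + z1) := by push_cast; ring
    rw [this, ip_smul, ip_add]; ring
  rw [e2] at h2
  have h3 : ‖w‖ * ‖(z0 + z1) / 2 - z‖ ≤ δ * ‖(z0 + z1) / 2 - z‖ := by gcongr
  rw [e]
  linarith

/-- `‖z‖²/a ≥ a‖b‖² + 2 Re(conj b ε)`, `z = a b + ε`. -/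
theorem sq_div_ge {a : ℝ} (ha : 0 ≤ a) {z b e : ℂ} (hz : z = (a : ℂ) * b + e)
    (h0 : a = 0 → z = 0) : a * ‖b‖ ^ 2 + 2 * ip b e ≤ ‖z‖ ^ 2 / a := by
  rcases eq_or_lt_of_le ha with h | h
  · subst h
    have hz0 := h0 rfl
    rw [hz0] at hz
    have : e = 0 := by simpa using hz.symm
    rw [this, hz0]
    simp [ip]
  · rw [le_div_iff₀ h]
    have e1 : ‖z‖ ^ 2 = a ^ 2 * ‖b‖ ^ 2 + 2 * a * ip b e + ‖e‖ ^ 2 := by
      rw [hz]
      simp only [Complex.sq_norm, Complex.normSq_apply, Complex.add_re, Complex.mul_re,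
        Complex.ofReal_re, Complex.ofReal_im, Complex.add_im, Complex.mul_im, ip]
      ring
    rw [e1]
    nlinarith [sq_nonneg ‖e‖]

/-- The good node: the increment of the potential dominates `a ‖τ‖²`. -/
theorem Pot_node_good {δ a0 a1 : ℝ} (hδ : 0 ≤ δ) (h0 : 0 ≤ a0) (h1 : 0 ≤ a1)
    {μ τ ρ κ z0 z1 : ℂ} (hμ : ‖μ‖ ≤ δ)
    (e0 : z0 = (a0 : ℂ) * (μ + τ) + (ρ + κ)) (e1 : z1 = (a1 : ℂ) * (μ - τ) + (κ - ρ))
    (g0 : ‖z0‖ ≤ δ * a0) (g1 : ‖z1‖ ≤ δ * a1) :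
    (a0 + a1) / 2 * ‖τ‖ ^ 2 ≤
      (Pot δ a0 z0 + Pot δ a1 z1) / 2 - Pot δ ((a0 + a1) / 2) ((((a0 + a1) / 2 : ℝ) : ℂ) * μ)
      + 2 * δ * (|(a0 - a1) / 2| * ‖τ‖) + 2 * δ * ‖κ‖ + 2 * (‖τ‖ * ‖ρ‖) := by
  have ha : 0 ≤ (a0 + a1) / 2 := by linarith
  have p0 : Pot δ a0 z0 = ‖z0‖ ^ 2 / a0 := if_pos g0
  have p1 : Pot δ a1 z1 = ‖z1‖ ^ 2 / a1 := if_pos g1
  have hn : ‖(((a0 + a1) / 2 : ℝ) : ℂ) * μ‖ = (a0 + a1) / 2 * ‖μ‖ := by
    rw [norm_mul, Complex.norm_real, Real.norm_of_nonneg ha]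
  have p : Pot δ ((a0 + a1) / 2) ((((a0 + a1) / 2 : ℝ) : ℂ) * μ) = (a0 + a1) / 2 * ‖μ‖ ^ 2 := by
    unfold Pot
    rw [if_pos (by rw [hn]; nlinarith), hn]
    rcases eq_or_lt_of_le ha with h | h
    · rw [← h]; simp
    · field_simp
  have q0 := sq_div_ge h0 e0 (fun h => by
    rw [h] at g0; exact norm_le_zero_iff.mp (by simpa using g0))
  have q1 := sq_div_ge h1 e1 (fun h => by
    rw [h] at g1; exact norm_le_zero_iff.mp (by simpa using g1))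
  rw [p0, p1, p]
  have i0 : ip (μ + τ) (ρ + κ) + ip (μ - τ) (κ - ρ) = 2 * ip μ κ + 2 * ip τ ρ := by
    unfold ip
    simp only [Complex.add_re, Complex.add_im, Complex.sub_re, Complex.sub_im]; ring
  have n0 : ‖μ + τ‖ ^ 2 = ‖μ‖ ^ 2 + 2 * ip μ τ + ‖τ‖ ^ 2 := by
    simp only [Complex.sq_norm, Complex.normSq_apply, Complex.add_re, Complex.add_im, ip]; ring
  have n1 : ‖μ - τ‖ ^ 2 = ‖μ‖ ^ 2 - 2 * ip μ τ + ‖τ‖ ^ 2 := by
    simp only [Complex.sq_norm, Complex.normSq_apply, Complex.sub_re, Complex.sub_im, ip]; ring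
  rw [n0] at q0
  rw [n1] at q1
  have b1 : -(2 * δ * (|(a0 - a1) / 2| * ‖τ‖)) ≤ 2 * ((a0 - a1) / 2 * ip μ τ) := by
    have h3 := neg_abs_le ((a0 - a1) / 2 * ip μ τ)
    rw [abs_mul] at h3
    have h4 := ip_abs μ τ
    have h5 : ‖μ‖ * ‖τ‖ ≤ δ * ‖τ‖ := by gcongr
    have h6 : |(a0 - a1) / 2| * |ip μ τ| ≤ |(a0 - a1) / 2| * (δ * ‖τ‖) := by
      gcongr; exact h4.trans h5
    linarith
  have b2 : -(δ * ‖κ‖) ≤ ip μ κ := by
    have h3 := neg_ip_le μ κ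
    have h5 : ‖μ‖ * ‖κ‖ ≤ δ * ‖κ‖ := by gcongr
    linarith
  have b3 := neg_ip_le τ ρ
  linarith

end Vale.Agent.P091.H413
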