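import Vale.Agent.P091.H413.NodeM
import Vale.Agent.P091.H413.EDefs

/-! Energies and potentials of the system; node inequalities. -/

namespace Vale.Agent.P091.H413

/-- Cauchy-Schwarz for double sums. -/
theorem sum2_cs {K Q : Type} [Fintype K] [Fintype Q] (F X Y : K → Q → ℝ)
    (hX : ∀ k q, 0 ≤ X k q) (hY : ∀ k q, 0 ≤ Y k q) (h : ∀ k q, F k q ≤ √(X k q) * √(Y k q)) :
    ∑ k, ∑ q, F k q ≤ √(∑ k, ∑ q, X k q) * √(∑ k, ∑ q, Y k q) := by
  calc ∑ k, ∑ q, F k q ≤ ∑ k, √(∑ q, X k q) * √(∑ q, Y k q) := by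
        apply Finset.sum_le_sum
        intro k _
        refine (Finset.sum_le_sum (fun q _ => h k q)).trans ?_
        exact Real.sum_sqrt_mul_sqrt_le _ (fun q => hX k q) (fun q => hY k q)
    _ ≤ _ := Real.sum_sqrt_mul_sqrt_le _ (fun k => Finset.sum_nonneg fun q _ => hX k q)
        (fun k => Finset.sum_nonneg fun q _ => hY k q)

theorem le_sqrt_mul_sqrt {a b c : ℝ} (ha : 0 ≤ a) (h : c ^ 2 ≤ a * b) : c ≤ √a * √b := by
  rw [← Real.sqrt_mul ha]
  exact Real.le_sqrt_of_sq_le h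

/-- `x y ≤ √(x²/a · g) √(a y²/g)` when `x = 0` for `a = 0`, `y = 0` for `g = 0`. -/
theorem mul_le_sqrt_div {x y a g : ℝ} (ha : 0 ≤ a) (hg : 0 ≤ g) (hx : a = 0 → x = 0)
    (hy : g = 0 → y = 0) : x * y ≤ √(x ^ 2 / a * g) * √(a * (y ^ 2 / g)) := by
  apply le_sqrt_mul_sqrt (by positivity)
  rcases eq_or_lt_of_le ha with h | h
  · rw [hx h.symm]; simp
  rcases eq_or_lt_of_le hg with h' | h'
  · rw [hy h'.symm]; simp
  apply le_of_eq
  field_simp

theorem abs_hdiff_le {a b : ℝ} (ha : 0 ≤ a) (hb : 0 ≤ b) : |(a - b) / 2| ≤ (a + b) / 2 := by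
  rw [abs_le]; constructor <;> linarith

variable {K Q : Type} [Fintype K] [Fintype Q]

namespace ESys
variable (s : ESys K Q)

noncomputable def rA (k : K) (q : Q) (v : Node) : ℂ :=
  rem (s.α' k (true :: v)) (s.α' k (false :: v)) (s.A' k q (true :: v)) (s.A' k q (false :: v))
noncomputable def rB (k : K) (q : Q) (v : Node) : ℂ :=
  rem (s.G' q (true :: v)) (s.G' q (false :: v)) (s.B' k q (true :: v)) (s.B' k q (false :: v))
/-- energies at a node -/
noncomputable def e1 (v : Node) : ℝ := ∑ k, s.dα k v ^ 2 / s.α k v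
noncomputable def eI (v : Node) : ℝ := ∑ q, s.dG q v ^ 2 / s.G q v
noncomputable def e2 (v : Node) : ℝ := ∑ k, ∑ q, s.G q v *
  (‖s.rA k q v‖ ^ 2 * kap (s.α' k (true :: v)) (s.α' k (false :: v)))
noncomputable def e3' (v : Node) : ℝ := ∑ k, ∑ q, s.α k v *
  (‖s.rB k q v‖ ^ 2 * kap (s.G' q (true :: v)) (s.G' q (false :: v)))
noncomputable def e3 (v : Node) : ℝ := ∑ k, ∑ q, s.α k v * (‖s.dB k q v‖ ^ 2 / s.G q v)
noncomputable def e4 (v : Node) : ℝ := ∑ k, s.α k v * ‖s.τ k v‖ ^ 2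
/-- losses at a modification -/
noncomputable def lG (v : Node) : ℝ := ∑ q, (s.G' q v - s.G q v)
noncomputable def lα (v : Node) : ℝ := ∑ k, max (s.α' k v - s.α k v) 0
/-- `κ_k = ∑_q r_kq dB_kq`, `ρ_k = ∑_q r_kq B_kq`. -/
noncomputable def κ (k : K) (v : Node) : ℂ := ∑ q, s.rA k q v * s.dB k q v
noncomputable def ρ (k : K) (v : Node) : ℂ := ∑ q, s.rA k q v * s.B k q v

variable {s} {n : ℕ} {v : Node}

section basic
variable (hs : s.Ok n) (hv : v.length < n)
include hs hv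

theorem lt_len (c : Bool) : (c :: v).length ≤ n := by
  have := hs
  simp only [List.length_cons]; omega

theorem a0c (k : K) (c : Bool) : 0 ≤ s.α' k (c :: v) := hs.α0' k _ (lt_len hs hv c)
theorem g0c (q : Q) (c : Bool) : 0 ≤ s.G' q (c :: v) := hs.G0' q _ (lt_len hs hv c)
theorem A1c (k : K) (q : Q) (c : Bool) : ‖s.A' k q (c :: v)‖ ≤ s.α' k (c :: v) :=
  hs.A1' k q _ (lt_len hs hv c)
theorem B1c (k : K) (q : Q) (c : Bool) : ‖s.B' k q (c :: v)‖ ≤ s.G' q (c :: v) :=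
  hs.B1' k q _ (lt_len hs hv c)

theorem abs_dα_le (k : K) : |s.dα k v| ≤ s.α k v := by
  rw [hs.αm k v hv]
  exact abs_hdiff_le (a0c hs hv k true) (a0c hs hv k false)

theorem abs_dG_le (q : Q) : |s.dG q v| ≤ s.G q v := by
  rw [hs.Gm q v hv]
  exact abs_hdiff_le (g0c hs hv q true) (g0c hs hv q false)

theorem norm_dB_le (k : K) (q : Q) : ‖s.dB k q v‖ ≤ s.G q v := by
  rw [hs.Gm q v hv]
  exact norm_hdiff_le (B1c hs hv k q true) (B1c hs hv k q false)

theorem norm_rA_le' (k : K) (q : Q) (c : Bool) : ‖s.rA k q v‖ ≤ 2 * s.α' k (c :: v) := by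
  cases c
  · exact norm_rem_le1 (A1c hs hv k q true) (A1c hs hv k q false)
  · exact norm_rem_le0 (A1c hs hv k q true) (A1c hs hv k q false)

theorem norm_rA_le (k : K) (q : Q) : ‖s.rA k q v‖ ≤ 2 * s.α k v := by
  have h1 := norm_rA_le' hs hv k q true
  have h2 := norm_rA_le' hs hv k q false
  have := hs.αm k v hv
  linarith

theorem norm_rB_le (k : K) (q : Q) : ‖s.rB k q v‖ ≤ 2 * s.G q v := by
  have h1 : ‖s.rB k q v‖ ≤ 2 * s.G' q (true :: v) :=
    norm_rem_le0 (B1c hs hv k q true) (B1c hs hv k q false)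
  have h2 : ‖s.rB k q v‖ ≤ 2 * s.G' q (false :: v) :=
    norm_rem_le1 (B1c hs hv k q true) (B1c hs hv k q false)
  have := hs.Gm q v hv
  linarith

theorem dA_eq (k : K) (q : Q) :
    s.dA k q v = s.A k q v / (s.α k v : ℂ) * (s.dα k v : ℂ) + s.rA k q v := by
  unfold rA rem dA dα
  rw [hs.Am k q v hv, hs.αm k v hv]
  ring

theorem dB_eq (k : K) (q : Q) :
    s.dB k q v = s.B k q v / (s.G q v : ℂ) * (s.dG q v : ℂ) + s.rB k q v := by
  unfold rB rem dB dG
  rw [hs.Bm k q v hv, hs.Gm q v hv]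
  ring

theorem A'_true (k : K) (q : Q) : s.A' k q (true :: v)
    = s.A k q v / (s.α k v : ℂ) * (s.α' k (true :: v) : ℂ) + s.rA k q v := by
  rw [hs.Am k q v hv, hs.αm k v hv]
  exact rem_eq0 (A1c hs hv k q true) (A1c hs hv k q false)

theorem A'_false (k : K) (q : Q) : s.A' k q (false :: v)
    = s.A k q v / (s.α k v : ℂ) * (s.α' k (false :: v) : ℂ) - s.rA k q v := by
  rw [hs.Am k q v hv, hs.αm k v hv]
  exact rem_eq1 (A1c hs hv k q true) (A1c hs hv k q false)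

theorem B'_true (k : K) (q : Q) : s.B' k q (true :: v) = s.B k q v + s.dB k q v := by
  unfold dB; rw [hs.Bm k q v hv]; ring

theorem B'_false (k : K) (q : Q) : s.B' k q (false :: v) = s.B k q v - s.dB k q v := by
  unfold dB; rw [hs.Bm k q v hv]; ring

theorem e1_nonneg : 0 ≤ s.e1 v :=
  Finset.sum_nonneg fun k _ => div_nonneg (sq_nonneg _) (hs.α0 k v hv)
theorem eI_nonneg : 0 ≤ s.eI v :=
  Finset.sum_nonneg fun q _ => div_nonneg (sq_nonneg _) (hs.G0 q v hv)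

theorem kap_nonneg {a b : ℝ} (ha : 0 ≤ a) (hb : 0 ≤ b) : 0 ≤ kap a b := by
  have := hs; have := hv
  unfold kap; positivity

theorem e2_nonneg : 0 ≤ s.e2 v :=
  Finset.sum_nonneg fun k _ => Finset.sum_nonneg fun q _ =>
    mul_nonneg (hs.G0 q v hv) (mul_nonneg (sq_nonneg _)
      (kap_nonneg hs hv (a0c hs hv k true) (a0c hs hv k false)))

theorem e3'_nonneg : 0 ≤ s.e3' v :=
  Finset.sum_nonneg fun k _ => Finset.sum_nonneg fun q _ =>
    mul_nonneg (hs.α0 k v hv) (mul_nonneg (sq_nonneg _)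
      (kap_nonneg hs hv (g0c hs hv q true) (g0c hs hv q false)))

theorem e3_nonneg : 0 ≤ s.e3 v :=
  Finset.sum_nonneg fun k _ => Finset.sum_nonneg fun q _ =>
    mul_nonneg (hs.α0 k v hv) (div_nonneg (sq_nonneg _) (hs.G0 q v hv))

theorem e4_nonneg : 0 ≤ s.e4 v :=
  Finset.sum_nonneg fun k _ => mul_nonneg (hs.α0 k v hv) (sq_nonneg _)

/-- the energy of `r` with the departure weights -/
theorem sum_rA_le : ∑ k, ∑ q, s.G q v * (‖s.rA k q v‖ ^ 2 / s.α k v) ≤ s.e2 v := by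
  apply Finset.sum_le_sum; intro k _
  apply Finset.sum_le_sum; intro q _
  have := rem_sq_div_le (A1c hs hv k q true) (A1c hs hv k q false)
  rw [← hs.αm k v hv] at this
  exact mul_le_mul_of_nonneg_left this (hs.G0 q v hv)

theorem sum_rB_le : ∑ k, ∑ q, s.α k v * (‖s.rB k q v‖ ^ 2 / s.G q v) ≤ s.e3' v := by
  apply Finset.sum_le_sum; intro k _
  apply Finset.sum_le_sum; intro q _
  have := rem_sq_div_le (B1c hs hv k q true) (B1c hs hv k q false)
  rw [← hs.Gm q v hv] at this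
  exact mul_le_mul_of_nonneg_left this (hs.α0 k v hv)

/-- cross term `∑ |dG| |dα|` -/
theorem cross_le : ∑ k, ∑ q, |s.dG q v| * |s.dα k v| ≤ √(2 * s.eI v) * √(s.e1 v) := by
  have h1 : ∑ k, ∑ q, |s.dG q v| * |s.dα k v| ≤
      √(∑ k, ∑ q, s.dG q v ^ 2 / s.G q v * s.α k v) * √(∑ k, ∑ q, s.G q v * (s.dα k v ^ 2 / s.α k v)) := by
    apply sum2_cs
    · intro k q
      exact mul_nonneg (div_nonneg (sq_nonneg _) (hs.G0 q v hv)) (hs.α0 k v hv)
    · intro k q
      exact mul_nonneg (hs.G0 q v hv) (div_nonneg (sq_nonneg _) (hs.α0 k v hv))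
    · intro k q
      have := mul_le_sqrt_div (x := |s.dG q v|) (y := |s.dα k v|) (hs.G0 q v hv) (hs.α0 k v hv)
        (fun h => le_antisymm (by rw [← h]; exact abs_dG_le hs hv q) (abs_nonneg _))
        (fun h => le_antisymm (by rw [← h]; exact abs_dα_le hs hv k) (abs_nonneg _))
      rwa [sq_abs, sq_abs] at this
  refine h1.trans ?_
  have e1 : ∑ k, ∑ q, s.dG q v ^ 2 / s.G q v * s.α k v ≤ s.eI v := by
    have : ∑ k, ∑ q, s.dG q v ^ 2 / s.G q v * s.α k v = s.eI v * ∑ k, s.α k v := by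
      rw [Finset.mul_sum]
      apply Finset.sum_congr rfl; intro k _
      rw [eI, Finset.sum_mul]
    rw [this]
    exact mul_le_of_le_one_right (eI_nonneg hs hv) (hs.αsum v hv)
  have e2 : ∑ k, ∑ q, s.G q v * (s.dα k v ^ 2 / s.α k v) ≤ 2 * s.e1 v := by
    have : ∑ k, ∑ q, s.G q v * (s.dα k v ^ 2 / s.α k v) = (∑ q, s.G q v) * s.e1 v := by
      rw [ESys.e1, Finset.mul_sum]
      apply Finset.sum_congr rfl; intro k _
      rw [Finset.sum_mul]
    rw [this]
    exact mul_le_mul_of_nonneg_right (hs.Gsum v hv) (e1_nonneg hs hv)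
  calc _ ≤ √(s.eI v) * √(2 * s.e1 v) := by gcongr
    _ = √(2 * s.eI v) * √(s.e1 v) := by
      rw [Real.sqrt_mul (by norm_num : (0:ℝ) ≤ 2), Real.sqrt_mul (by norm_num : (0:ℝ) ≤ 2)]
      ring

theorem cross_rA : ∑ k, ∑ q, |s.dG q v| * ‖s.rA k q v‖ ≤ √(s.eI v) * √(s.e2 v) := by
  have h1 : ∑ k, ∑ q, |s.dG q v| * ‖s.rA k q v‖ ≤
      √(∑ k, ∑ q, s.dG q v ^ 2 / s.G q v * s.α k v) *
        √(∑ k, ∑ q, s.G q v * (‖s.rA k q v‖ ^ 2 / s.α k v)) := by
    apply sum2_cs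
    · intro k q
      exact mul_nonneg (div_nonneg (sq_nonneg _) (hs.G0 q v hv)) (hs.α0 k v hv)
    · intro k q
      exact mul_nonneg (hs.G0 q v hv) (div_nonneg (sq_nonneg _) (hs.α0 k v hv))
    · intro k q
      have := mul_le_sqrt_div (x := |s.dG q v|) (y := ‖s.rA k q v‖) (hs.G0 q v hv) (hs.α0 k v hv)
        (fun h => le_antisymm (by rw [← h]; exact abs_dG_le hs hv q) (abs_nonneg _))
        (fun h => le_antisymm (by have := norm_rA_le hs hv k q; rw [h] at this; simpa using this)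
          (norm_nonneg _))
      rwa [sq_abs] at this
  refine h1.trans ?_
  have e1 : ∑ k, ∑ q, s.dG q v ^ 2 / s.G q v * s.α k v ≤ s.eI v := by
    have : ∑ k, ∑ q, s.dG q v ^ 2 / s.G q v * s.α k v = s.eI v * ∑ k, s.α k v := by
      rw [Finset.mul_sum]
      apply Finset.sum_congr rfl; intro k _
      rw [eI, Finset.sum_mul]
    rw [this]
    exact mul_le_of_le_one_right (eI_nonneg hs hv) (hs.αsum v hv)
  have e2 := sum_rA_le hs hv
  gcongr

theorem cross_rB : ∑ k, ∑ q, |s.dα k v| * ‖s.rB k q v‖ ≤ √(2 * s.e1 v) * √(s.e3' v) := by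
  have h1 : ∑ k, ∑ q, |s.dα k v| * ‖s.rB k q v‖ ≤
      √(∑ k, ∑ q, s.dα k v ^ 2 / s.α k v * s.G q v) *
        √(∑ k, ∑ q, s.α k v * (‖s.rB k q v‖ ^ 2 / s.G q v)) := by
    apply sum2_cs
    · intro k q
      exact mul_nonneg (div_nonneg (sq_nonneg _) (hs.α0 k v hv)) (hs.G0 q v hv)
    · intro k q
      exact mul_nonneg (hs.α0 k v hv) (div_nonneg (sq_nonneg _) (hs.G0 q v hv))
    · intro k q
      have := mul_le_sqrt_div (x := |s.dα k v|) (y := ‖s.rB k q v‖) (hs.α0 k v hv) (hs.G0 q v hv)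
        (fun h => le_antisymm (by rw [← h]; exact abs_dα_le hs hv k) (abs_nonneg _))
        (fun h => le_antisymm (by have := norm_rB_le hs hv k q; rw [h] at this; simpa using this)
          (norm_nonneg _))
      rwa [sq_abs] at this
  refine h1.trans ?_
  have e1 : ∑ k, ∑ q, s.dα k v ^ 2 / s.α k v * s.G q v ≤ 2 * s.e1 v := by
    have : ∑ k, ∑ q, s.dα k v ^ 2 / s.α k v * s.G q v = (∑ q, s.G q v) * s.e1 v := by
      rw [ESys.e1, Finset.mul_sum]
      apply Finset.sum_congr rfl; intro k _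
      rw [← Finset.mul_sum, mul_comm]
    rw [this]
    exact mul_le_mul_of_nonneg_right (hs.Gsum v hv) (e1_nonneg hs hv)
  have e2 := sum_rB_le hs hv
  gcongr

end basic

end ESys

end Vale.Agent.P091.H413
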