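import Vale.Agent.P091.H413.Sys

/-! Tree-level bounds for the energies `e2`, `e3`. -/

namespace Vale.Agent.P091.H413

variable {K Q : Type} [Fintype K] [Fintype Q]

namespace ESys
variable (s : ESys K Q)

noncomputable def Φ2 (v : Node) : ℝ := ∑ k, ∑ q, s.G q v * (‖s.A k q v‖ ^ 2 / s.α k v)
noncomputable def Φ2' (v : Node) : ℝ := ∑ k, ∑ q, s.G' q v * (‖s.A' k q v‖ ^ 2 / s.α' k v)
noncomputable def Φ3 (v : Node) : ℝ := ∑ k, ∑ q, s.α k v * (‖s.B k q v‖ ^ 2 / s.G q v)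
noncomputable def Φ3' (v : Node) : ℝ := ∑ k, ∑ q, s.α' k v * (‖s.B' k q v‖ ^ 2 / s.G' q v)

variable {s} {n : ℕ} {v : Node}

/-- `‖A‖²/a ≤ a`. -/
theorem sq_div_le_self {a : ℝ} {A : ℂ} (h : ‖A‖ ≤ a) : ‖A‖ ^ 2 / a ≤ a := by
  have h0 : 0 ≤ a := (norm_nonneg _).trans h
  apply div_le_of_le_mul₀ h0 h0
  nlinarith [norm_nonneg A]

/-- `‖A'‖²/a' ≤ ‖A‖²/a + (a' - a)`. -/
theorem sq_div_mod {a a' : ℝ} {A A' : ℂ} (ha : 0 ≤ a) (haa : a ≤ a') (hA : ‖A‖ ≤ a)
    (hd : ‖A' - A‖ ≤ a' - a) : ‖A'‖ ^ 2 / a' ≤ ‖A‖ ^ 2 / a + (a' - a) := by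
  have h1 : ‖A'‖ ≤ ‖A‖ + (a' - a) := by
    have := norm_add_le A (A' - A)
    rw [add_sub_cancel] at this
    linarith
  have hn := norm_nonneg A
  have hn' := norm_nonneg A'
  rcases eq_or_lt_of_le ha with h | h
  · subst h
    have : ‖A‖ = 0 := le_antisymm hA hn
    rw [this] at h1 ⊢
    simp only [sub_zero, zero_add, ne_eq, OfNat.ofNat_ne_zero, not_false_eq_true, zero_pow,
      zero_div] at h1 ⊢
    apply div_le_of_le_mul₀ haa haa
    nlinarith
  · have h' : 0 < a' := lt_of_lt_of_le h haa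
    rw [div_le_iff₀ h']
    have h2 : ‖A'‖ ^ 2 ≤ (‖A‖ + (a' - a)) ^ 2 := by gcongr
    have h3 : (‖A‖ ^ 2 / a + (a' - a)) * a' = ‖A‖ ^ 2 * (a' / a) + (a' - a) * a' := by
      field_simp
    rw [h3]
    have h4 : ‖A‖ ^ 2 * (a' / a) = ‖A‖ ^ 2 + ‖A‖ ^ 2 / a * (a' - a) := by
      field_simp; ring
    rw [h4]
    have h5 : 2 * ‖A‖ ≤ ‖A‖ ^ 2 / a + a := by
      rw [← sub_nonneg]
      have : ‖A‖ ^ 2 / a + a - 2 * ‖A‖ = (‖A‖ - a) ^ 2 / a := by field_simp; ring
      rw [this]; positivity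
    nlinarith [mul_nonneg (sub_nonneg.mpr haa) (sub_nonneg.mpr h5)]

section basic
variable (hs : s.Ok n) (hv : v.length < n)
include hs

theorem Φ2_nonneg (hv : v.length < n) : 0 ≤ s.Φ2 v :=
  Finset.sum_nonneg fun k _ => Finset.sum_nonneg fun q _ =>
    mul_nonneg (hs.G0 q v hv) (div_nonneg (sq_nonneg _) (hs.α0 k v hv))
theorem Φ3_nonneg (hv : v.length < n) : 0 ≤ s.Φ3 v :=
  Finset.sum_nonneg fun k _ => Finset.sum_nonneg fun q _ =>
    mul_nonneg (hs.α0 k v hv) (div_nonneg (sq_nonneg _) (hs.G0 q v hv))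

theorem Φ2'_le (hv : v.length ≤ n) : s.Φ2' v ≤ 2 := by
  have h1 : s.Φ2' v ≤ ∑ k, ∑ q, s.G' q v * s.α' k v := by
    apply Finset.sum_le_sum; intro k _
    apply Finset.sum_le_sum; intro q _
    exact mul_le_mul_of_nonneg_left (sq_div_le_self (hs.A1' k q v hv)) (hs.G0' q v hv)
  have h2 : ∑ k, ∑ q, s.G' q v * s.α' k v = (∑ q, s.G' q v) * ∑ k, s.α' k v := by
    rw [Finset.mul_sum]
    apply Finset.sum_congr rfl; intro k _
    rw [Finset.sum_mul]
  rw [h2] at h1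
  have h3 := hs.Gsum' v hv
  have h4 := hs.αsum' v hv
  have h5 : 0 ≤ ∑ k, s.α' k v := Finset.sum_nonneg fun k _ => hs.α0' k v hv
  have h6 : (∑ q, s.G' q v) * ∑ k, s.α' k v ≤ 2 * 1 := by gcongr
  linarith

theorem Φ3'_le (hv : v.length ≤ n) : s.Φ3' v ≤ 2 := by
  have h1 : s.Φ3' v ≤ ∑ k, ∑ q, s.α' k v * s.G' q v := by
    apply Finset.sum_le_sum; intro k _
    apply Finset.sum_le_sum; intro q _
    exact mul_le_mul_of_nonneg_left (sq_div_le_self (hs.B1' k q v hv)) (hs.α0' k v hv)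
  have h2 : ∑ k, ∑ q, s.α' k v * s.G' q v = (∑ q, s.G' q v) * ∑ k, s.α' k v := by
    rw [Finset.mul_sum]
    apply Finset.sum_congr rfl; intro k _
    rw [← Finset.mul_sum, mul_comm]
  rw [h2] at h1
  have h3 := hs.Gsum' v hv
  have h4 := hs.αsum' v hv
  have h5 : 0 ≤ ∑ k, s.α' k v := Finset.sum_nonneg fun k _ => hs.α0' k v hv
  have h6 : (∑ q, s.G' q v) * ∑ k, s.α' k v ≤ 2 * 1 := by gcongr
  linarith

theorem lG_nonneg (hv : v.length < n) : 0 ≤ s.lG v :=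
  Finset.sum_nonneg fun q _ => sub_nonneg.mpr (hs.Gr q v hv)

omit hs [Fintype Q] in
theorem lα_nonneg (s : ESys K Q) (v : Node) : 0 ≤ s.lα v :=
  Finset.sum_nonneg fun _ _ => le_max_right _ _

/-- loss of `Φ2` at a modification -/
theorem Φ2_loss (hv : v.length < n) : s.Φ2' v - s.Φ2 v ≤ s.lG v + 2 * s.lα v := by
  have key : ∀ k, ∑ q, s.G' q v * (‖s.A' k q v‖ ^ 2 / s.α' k v)
      - ∑ q, s.G q v * (‖s.A k q v‖ ^ 2 / s.α k v)
      ≤ s.α' k v * s.lG v + 2 * max (s.α' k v - s.α k v) 0 := by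
    intro k
    rcases hs.xr k v hv with h | ⟨hA, hα, -⟩
    · have h1 : ∑ q, s.G' q v * (‖s.A' k q v‖ ^ 2 / s.α' k v) = 0 := by
        rw [h]; simp
      have h2 : 0 ≤ ∑ q, s.G q v * (‖s.A k q v‖ ^ 2 / s.α k v) :=
        Finset.sum_nonneg fun q _ =>
          mul_nonneg (hs.G0 q v hv) (div_nonneg (sq_nonneg _) (hs.α0 k v hv))
      have h3 : 0 ≤ max (s.α' k v - s.α k v) 0 := le_max_right _ _
      rw [h] at h3
      rw [h1, h]
      linarith
    · rw [← Finset.sum_sub_distrib]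
      have h1 : ∑ q, (s.G' q v * (‖s.A' k q v‖ ^ 2 / s.α' k v)
          - s.G q v * (‖s.A k q v‖ ^ 2 / s.α k v))
          ≤ ∑ q, (s.α' k v * (s.G' q v - s.G q v) + s.G q v * (s.α' k v - s.α k v)) := by
        apply Finset.sum_le_sum; intro q _
        have a1 := sq_div_le_self (hs.A1' k q v hv.le)
        have a2 := sq_div_mod (hs.α0 k v hv) hα (hs.A1 k q v hv) (hA q)
        have a3 := hs.Gr q v hv
        have a4 := hs.G0 q v hv
        have b1 : (s.G' q v - s.G q v) * (‖s.A' k q v‖ ^ 2 / s.α' k v)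
            ≤ (s.G' q v - s.G q v) * s.α' k v :=
          mul_le_mul_of_nonneg_left a1 (sub_nonneg.mpr a3)
        have b2 : s.G q v * (‖s.A' k q v‖ ^ 2 / s.α' k v)
            ≤ s.G q v * (‖s.A k q v‖ ^ 2 / s.α k v + (s.α' k v - s.α k v)) :=
          mul_le_mul_of_nonneg_left a2 a4
        linarith
      refine h1.trans ?_
      rw [Finset.sum_add_distrib, ← Finset.mul_sum, ← Finset.sum_mul]
      have h2 : (∑ q, s.G q v) * (s.α' k v - s.α k v) ≤ 2 * (s.α' k v - s.α k v) :=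
        mul_le_mul_of_nonneg_right (hs.Gsum v hv) (sub_nonneg.mpr hα)
      have h3 : s.α' k v - s.α k v ≤ max (s.α' k v - s.α k v) 0 := le_max_left _ _
      have e : ∑ q, (s.G' q v - s.G q v) = s.lG v := rfl
      rw [e]
      linarith
  unfold Φ2' Φ2
  rw [← Finset.sum_sub_distrib]
  refine (Finset.sum_le_sum (fun k _ => key k)).trans ?_
  rw [Finset.sum_add_distrib, ← Finset.sum_mul, ← Finset.mul_sum]
  have h4 : (∑ k, s.α' k v) * s.lG v ≤ 1 * s.lG v :=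
    mul_le_mul_of_nonneg_right (hs.αsum' v hv.le) (lG_nonneg hs hv)
  have e : ∑ k, max (s.α' k v - s.α k v) 0 = s.lα v := rfl
  rw [e]
  linarith

/-- loss of `Φ3` at a modification -/
theorem Φ3_loss (hv : v.length < n) : s.Φ3' v - s.Φ3 v ≤ s.lG v + 2 * s.lα v := by
  have key : ∀ k, ∑ q, s.α' k v * (‖s.B' k q v‖ ^ 2 / s.G' q v)
      - ∑ q, s.α k v * (‖s.B k q v‖ ^ 2 / s.G q v)
      ≤ s.α' k v * s.lG v + 2 * max (s.α' k v - s.α k v) 0 := by
    intro k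
    rcases hs.xr k v hv with h | ⟨-, hα, hB⟩
    · have h2 : 0 ≤ ∑ q, s.α k v * (‖s.B k q v‖ ^ 2 / s.G q v) :=
        Finset.sum_nonneg fun q _ =>
          mul_nonneg (hs.α0 k v hv) (div_nonneg (sq_nonneg _) (hs.G0 q v hv))
      have h3 : 0 ≤ max (s.α' k v - s.α k v) 0 := le_max_right _ _
      rw [h] at h3 ⊢
      simp only [zero_mul, Finset.sum_const_zero, zero_sub, zero_add] at h3 ⊢
      linarith
    · rw [← Finset.sum_sub_distrib]
      have h1 : ∑ q, (s.α' k v * (‖s.B' k q v‖ ^ 2 / s.G' q v)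
          - s.α k v * (‖s.B k q v‖ ^ 2 / s.G q v))
          ≤ ∑ q, (s.α' k v * (s.G' q v - s.G q v) + s.G q v * (s.α' k v - s.α k v)) := by
        apply Finset.sum_le_sum; intro q _
        have a1 := sq_div_le_self (hs.B1 k q v hv)
        have a2 := sq_div_mod (hs.G0 q v hv) (hs.Gr q v hv) (hs.B1 k q v hv) (hB q)
        have a3 := hs.Gr q v hv
        have a4 := hs.α0 k v hv
        have b1 : s.α' k v * (‖s.B' k q v‖ ^ 2 / s.G' q v)
            ≤ s.α' k v * (‖s.B k q v‖ ^ 2 / s.G q v + (s.G' q v - s.G q v)) :=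
          mul_le_mul_of_nonneg_left a2 (hs.α0' k v hv.le)
        have b2 : (s.α' k v - s.α k v) * (‖s.B k q v‖ ^ 2 / s.G q v)
            ≤ (s.α' k v - s.α k v) * s.G q v :=
          mul_le_mul_of_nonneg_left a1 (sub_nonneg.mpr hα)
        linarith
      refine h1.trans ?_
      rw [Finset.sum_add_distrib, ← Finset.mul_sum, ← Finset.sum_mul]
      have h2 : (∑ q, s.G q v) * (s.α' k v - s.α k v) ≤ 2 * (s.α' k v - s.α k v) :=
        mul_le_mul_of_nonneg_right (hs.Gsum v hv) (sub_nonneg.mpr hα)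
      have h3 : s.α' k v - s.α k v ≤ max (s.α' k v - s.α k v) 0 := le_max_left _ _
      have e : ∑ q, (s.G' q v - s.G q v) = s.lG v := rfl
      rw [e]
      linarith
  unfold Φ3' Φ3
  rw [← Finset.sum_sub_distrib]
  refine (Finset.sum_le_sum (fun k _ => key k)).trans ?_
  rw [Finset.sum_add_distrib, ← Finset.sum_mul, ← Finset.mul_sum]
  have h4 : (∑ k, s.α' k v) * s.lG v ≤ 1 * s.lG v :=
    mul_le_mul_of_nonneg_right (hs.αsum' v hv.le) (lG_nonneg hs hv)
  have e : ∑ k, max (s.α' k v - s.α k v) 0 = s.lα v := rfl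
  rw [e]
  linarith

/-- node inequality for `e2` -/
theorem e2_node (hv : v.length < n) : s.e2 v ≤ (s.Φ2' (true :: v) + s.Φ2' (false :: v)) / 2
    - s.Φ2 v + ((∑ k, ∑ q, |s.dG q v| * |s.dα k v|)
      + 3 * ∑ k, ∑ q, |s.dG q v| * ‖s.rA k q v‖) := by
  have h : s.e2 v ≤ ∑ k, ∑ q,
      ((s.G' q (true :: v) * (‖s.A' k q (true :: v)‖ ^ 2 / s.α' k (true :: v))
        + s.G' q (false :: v) * (‖s.A' k q (false :: v)‖ ^ 2 / s.α' k (false :: v))) / 2
        - s.G q v * (‖s.A k q v‖ ^ 2 / s.α k v)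
        + |s.dG q v| * (|s.dα k v| + 3 * ‖s.rA k q v‖)) := by
    apply Finset.sum_le_sum; intro k _
    apply Finset.sum_le_sum; intro q _
    have := node_psi (g0 := s.G' q (true :: v)) (g1 := s.G' q (false :: v))
      (A1c hs hv k q true) (A1c hs hv k q false)
    rw [← hs.Gm q v hv, ← hs.αm k v hv, ← hs.Am k q v hv] at this
    exact this
  refine h.trans (le_of_eq ?_)
  unfold Φ2 Φ2'
  rw [Finset.mul_sum, ← Finset.sum_add_distrib, ← Finset.sum_add_distrib, Finset.sum_div,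
    ← Finset.sum_sub_distrib, ← Finset.sum_add_distrib]
  apply Finset.sum_congr rfl; intro k _
  rw [Finset.mul_sum, ← Finset.sum_add_distrib, ← Finset.sum_add_distrib, Finset.sum_div,
    ← Finset.sum_sub_distrib, ← Finset.sum_add_distrib]
  apply Finset.sum_congr rfl; intro q _
  ring

/-- node inequality for `e3'` -/
theorem e3_node (hv : v.length < n) : s.e3' v ≤ (s.Φ3' (true :: v) + s.Φ3' (false :: v)) / 2
    - s.Φ3 v + ((∑ k, ∑ q, |s.dG q v| * |s.dα k v|)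
      + 3 * ∑ k, ∑ q, |s.dα k v| * ‖s.rB k q v‖) := by
  have h : s.e3' v ≤ ∑ k, ∑ q,
      ((s.α' k (true :: v) * (‖s.B' k q (true :: v)‖ ^ 2 / s.G' q (true :: v))
        + s.α' k (false :: v) * (‖s.B' k q (false :: v)‖ ^ 2 / s.G' q (false :: v))) / 2
        - s.α k v * (‖s.B k q v‖ ^ 2 / s.G q v)
        + |s.dα k v| * (|s.dG q v| + 3 * ‖s.rB k q v‖)) := by
    apply Finset.sum_le_sum; intro k _
    apply Finset.sum_le_sum; intro q _
    have := node_psi (g0 := s.α' k (true :: v)) (g1 := s.α' k (false :: v))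
      (B1c hs hv k q true) (B1c hs hv k q false)
    rw [← hs.Gm q v hv, ← hs.αm k v hv, ← hs.Bm k q v hv] at this
    exact this
  refine h.trans (le_of_eq ?_)
  unfold Φ3 Φ3'
  rw [Finset.mul_sum, ← Finset.sum_add_distrib, ← Finset.sum_add_distrib, Finset.sum_div,
    ← Finset.sum_sub_distrib, ← Finset.sum_add_distrib]
  apply Finset.sum_congr rfl; intro k _
  rw [Finset.mul_sum, ← Finset.sum_add_distrib, ← Finset.sum_add_distrib, Finset.sum_div,
    ← Finset.sum_sub_distrib, ← Finset.sum_add_distrib]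
  apply Finset.sum_congr rfl; intro q _
  ring

end basic

section tree
variable (hs : s.Ok n)
include hs

theorem lt_of_lt (w : Node) (hw : w.length < n + ([] : Node).length) : w.length < n := by
  have := hs; simpa using hw

/-- total removed y-mass -/
theorem S_lG : S n s.lG [] ≤ 2 := by
  have h1 := S_tele n (f := s.lG) (g := fun _ => 0) (Φ := fun w => -∑ q, s.G' q w) [] (by
    intro w hw
    have hw' := lt_of_lt hs w hw
    have : ∑ q, s.G q w = (∑ q, s.G' q (true :: w) + ∑ q, s.G' q (false :: w)) / 2 := by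
      rw [← Finset.sum_add_distrib, Finset.sum_div]
      exact Finset.sum_congr rfl fun q _ => hs.Gm q w hw'
    unfold lG
    rw [Finset.sum_sub_distrib, this]
    apply le_of_eq; ring)
  have h2 : Lf n (fun w => -∑ q, s.G' q w) [] ≤ 0 := by
    apply Lf_le
    intro w hw
    have : 0 ≤ ∑ q, s.G' q w := Finset.sum_nonneg fun q _ => hs.G0' q w (by simpa using hw)
    linarith
  have h3 : S n (fun _ => (0:ℝ)) [] = 0 := by
    have := S_smul n 0 (fun _ => 0) ([] : Node)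
    simpa using this
  have h4 := hs.Gsum' [] (by simp)
  linarith

theorem S_e1_nonneg : 0 ≤ S n s.e1 [] := S_nonneg n _ fun w hw => e1_nonneg hs (lt_of_lt hs w hw)
theorem S_eI_nonneg : 0 ≤ S n s.eI [] := S_nonneg n _ fun w hw => eI_nonneg hs (lt_of_lt hs w hw)
theorem S_e2_nonneg : 0 ≤ S n s.e2 [] := S_nonneg n _ fun w hw => e2_nonneg hs (lt_of_lt hs w hw)
theorem S_e3'_nonneg : 0 ≤ S n s.e3' [] :=
  S_nonneg n _ fun w hw => e3'_nonneg hs (lt_of_lt hs w hw)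
theorem S_e3_nonneg : 0 ≤ S n s.e3 [] := S_nonneg n _ fun w hw => e3_nonneg hs (lt_of_lt hs w hw)
theorem S_e4_nonneg : 0 ≤ S n s.e4 [] := S_nonneg n _ fun w hw => e4_nonneg hs (lt_of_lt hs w hw)

theorem S_cross : S n (fun v => ∑ k, ∑ q, |s.dG q v| * |s.dα k v|) []
    ≤ √(2 * S n s.eI []) * √(S n s.e1 []) := by
  have h := S_cs n (f := fun v => ∑ k, ∑ q, |s.dG q v| * |s.dα k v|)
    (X := fun v => 2 * s.eI v) (Y := s.e1) []
    (fun w hw => by have := eI_nonneg hs (lt_of_lt hs w hw); positivity)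
    (fun w hw => e1_nonneg hs (lt_of_lt hs w hw))
    (fun w _ => Finset.sum_nonneg fun k _ => Finset.sum_nonneg fun q _ => by positivity)
    (fun w hw => cross_le hs (lt_of_lt hs w hw))
  rwa [S_smul] at h

theorem S_cross_rA : S n (fun v => ∑ k, ∑ q, |s.dG q v| * ‖s.rA k q v‖) []
    ≤ √(S n s.eI []) * √(S n s.e2 []) :=
  S_cs n [] (fun w hw => eI_nonneg hs (lt_of_lt hs w hw))
    (fun w hw => e2_nonneg hs (lt_of_lt hs w hw))
    (fun w _ => Finset.sum_nonneg fun k _ => Finset.sum_nonneg fun q _ => by positivity)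
    (fun w hw => cross_rA hs (lt_of_lt hs w hw))

theorem S_cross_rB : S n (fun v => ∑ k, ∑ q, |s.dα k v| * ‖s.rB k q v‖) []
    ≤ √(2 * S n s.e1 []) * √(S n s.e3' []) := by
  have h := S_cs n (f := fun v => ∑ k, ∑ q, |s.dα k v| * ‖s.rB k q v‖)
    (X := fun v => 2 * s.e1 v) (Y := s.e3') []
    (fun w hw => by have := e1_nonneg hs (lt_of_lt hs w hw); positivity)
    (fun w hw => e3'_nonneg hs (lt_of_lt hs w hw))
    (fun w _ => Finset.sum_nonneg fun k _ => Finset.sum_nonneg fun q _ => by positivity)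
    (fun w hw => cross_rB hs (lt_of_lt hs w hw))
  rwa [S_smul] at h

omit hs in
theorem S_loss (s : ESys K Q) (n : ℕ) (c : ℝ) :
    S n (fun v => c * s.lG v + 2 * c * s.lα v) [] = c * S n s.lG [] + 2 * c * S n s.lα [] := by
  rw [S_add, S_smul, S_smul]

theorem quad_bound {x c d : ℝ} (hc : x ^ 2 ≤ c + d * x) : x ^ 2 ≤ 2 * c + d ^ 2 := by
  have := hs
  nlinarith [sq_nonneg (x - d)]

/-- **e2** -/
theorem S_e2 {h I m : ℝ} (hI : 0 ≤ I) (h1 : S n s.e1 [] ≤ 2 * h)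
    (hI' : S n s.eI [] ≤ I) (hm : S n s.lα [] ≤ m) :
    S n s.e2 [] ≤ 8 + 4 * m + 4 * √(I * h) + 9 * I := by
  rcases Nat.eq_zero_or_pos n with hn | hn
  · subst hn
    have hm0 : 0 ≤ m := by simpa [S] using hm
    simp only [S]
    have := Real.sqrt_nonneg (I * h)
    linarith
  have h2 := S_tele2 n (f := s.e2) (Φ := s.Φ2) (Φ' := s.Φ2') (c := 2)
    (g := fun v => (∑ k, ∑ q, |s.dG q v| * |s.dα k v|)
      + 3 * ∑ k, ∑ q, |s.dG q v| * ‖s.rA k q v‖)
    (ℓ := fun v => 1 * s.lG v + 2 * 1 * s.lα v) (by norm_num) []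
    (fun w hw => e2_node hs (lt_of_lt hs w hw))
    (fun w _ hw => by have := Φ2_loss hs (lt_of_lt hs w hw); linarith)
    (fun w hw => by
      have := lG_nonneg hs (lt_of_lt hs w hw); have := lα_nonneg s w; linarith)
    (Φ2_nonneg hs (by simpa using hn))
    (fun w hw => Φ2'_le hs (by simpa using hw))
  rw [S_loss, S_add, S_smul] at h2
  have h3 := S_cross hs
  have h4 := S_cross_rA hs
  have h5 := S_lG hs
  have e1n := S_e1_nonneg hs
  have eIn := S_eI_nonneg hs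
  have e2n := S_e2_nonneg hs
  have h6 : √(2 * S n s.eI []) * √(S n s.e1 []) ≤ 2 * √(I * h) := by
    calc √(2 * S n s.eI []) * √(S n s.e1 []) ≤ √(2 * I) * √(2 * h) := by gcongr
      _ = √(4 * (I * h)) := by rw [← Real.sqrt_mul (by positivity)]; ring_nf
      _ = 2 * √(I * h) := by
        rw [Real.sqrt_mul (by norm_num), show (4:ℝ) = 2 ^ 2 by norm_num,
          Real.sqrt_sq (by norm_num)]
  have h7 : √(S n s.eI []) * √(S n s.e2 []) ≤ √I * √(S n s.e2 []) := by gcongr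
  have h8 : √(S n s.e2 []) ^ 2 ≤ (4 + 2 * m + 2 * √(I * h)) + (3 * √I) * √(S n s.e2 []) := by
    rw [Real.sq_sqrt e2n]
    linarith
  have h9 := quad_bound hs h8
  rw [Real.sq_sqrt e2n, mul_pow, Real.sq_sqrt hI] at h9
  linarith

/-- **e3'** -/
theorem S_e3' {h I m : ℝ} (hh : 0 ≤ h) (hI : 0 ≤ I) (h1 : S n s.e1 [] ≤ 2 * h)
    (hI' : S n s.eI [] ≤ I) (hm : S n s.lα [] ≤ m) :
    S n s.e3' [] ≤ 8 + 4 * m + 4 * √(I * h) + 36 * h := by
  rcases Nat.eq_zero_or_pos n with hn | hn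
  · subst hn
    have hm0 : 0 ≤ m := by simpa [S] using hm
    simp only [S]
    have := Real.sqrt_nonneg (I * h)
    linarith
  have h2 := S_tele2 n (f := s.e3') (Φ := s.Φ3) (Φ' := s.Φ3') (c := 2)
    (g := fun v => (∑ k, ∑ q, |s.dG q v| * |s.dα k v|)
      + 3 * ∑ k, ∑ q, |s.dα k v| * ‖s.rB k q v‖)
    (ℓ := fun v => 1 * s.lG v + 2 * 1 * s.lα v) (by norm_num) []
    (fun w hw => e3_node hs (lt_of_lt hs w hw))
    (fun w _ hw => by have := Φ3_loss hs (lt_of_lt hs w hw); linarith)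
    (fun w hw => by
      have := lG_nonneg hs (lt_of_lt hs w hw); have := lα_nonneg s w; linarith)
    (Φ3_nonneg hs (by simpa using hn))
    (fun w hw => Φ3'_le hs (by simpa using hw))
  rw [S_loss, S_add, S_smul] at h2
  have h3 := S_cross hs
  have h4 := S_cross_rB hs
  have h5 := S_lG hs
  have e1n := S_e1_nonneg hs
  have eIn := S_eI_nonneg hs
  have e2n := S_e3'_nonneg hs
  have h6 : √(2 * S n s.eI []) * √(S n s.e1 []) ≤ 2 * √(I * h) := by
    calc √(2 * S n s.eI []) * √(S n s.e1 []) ≤ √(2 * I) * √(2 * h) := by gcongr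
      _ = √(4 * (I * h)) := by rw [← Real.sqrt_mul (by positivity)]; ring_nf
      _ = 2 * √(I * h) := by
        rw [Real.sqrt_mul (by norm_num), show (4:ℝ) = 2 ^ 2 by norm_num,
          Real.sqrt_sq (by norm_num)]
  have h7 : √(2 * S n s.e1 []) * √(S n s.e3' []) ≤ √(4 * h) * √(S n s.e3' []) :=
    mul_le_mul_of_nonneg_right (Real.sqrt_le_sqrt (by linarith)) (Real.sqrt_nonneg _)
  have h8 : √(S n s.e3' []) ^ 2 ≤ (4 + 2 * m + 2 * √(I * h)) + (3 * √(4 * h)) * √(S n s.e3' []) := by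
    rw [Real.sq_sqrt e2n]
    linarith
  have h9 := quad_bound hs h8
  rw [Real.sq_sqrt e2n, mul_pow, Real.sq_sqrt (by positivity)] at h9
  linarith

/-- `e3 ≤ 2 e3' + 2 eI` at a node. -/
theorem e3_le (hv : v.length < n) : s.e3 v ≤ 2 * s.e3' v + 2 * s.eI v := by
  have h1 : s.e3 v ≤ ∑ k, ∑ q, (2 * (s.α k v * (‖s.rB k q v‖ ^ 2 / s.G q v))
      + 2 * (s.α k v * (s.dG q v ^ 2 / s.G q v))) := by
    apply Finset.sum_le_sum; intro k _
    apply Finset.sum_le_sum; intro q _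
    have hG := hs.G0 q v hv
    have hσ := norm_sig_le hG (hs.B1 k q v hv)
    have h2 : ‖s.dB k q v‖ ≤ |s.dG q v| + ‖s.rB k q v‖ := by
      rw [dB_eq hs hv]
      refine (norm_add_le _ _).trans ?_
      rw [norm_mul, Complex.norm_real, Real.norm_eq_abs]
      have := mul_le_of_le_one_left (abs_nonneg (s.dG q v)) hσ
      linarith
    have h3 : ‖s.dB k q v‖ ^ 2 ≤ 2 * ‖s.rB k q v‖ ^ 2 + 2 * s.dG q v ^ 2 := by
      have h4 : ‖s.dB k q v‖ ^ 2 ≤ (|s.dG q v| + ‖s.rB k q v‖) ^ 2 := by gcongr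
      have h5 := sq_abs (s.dG q v)
      nlinarith [sq_nonneg (|s.dG q v| - ‖s.rB k q v‖)]
    have h4 : ‖s.dB k q v‖ ^ 2 / s.G q v ≤ (2 * ‖s.rB k q v‖ ^ 2 + 2 * s.dG q v ^ 2) / s.G q v := by
      gcongr
    have h5 : (2 * ‖s.rB k q v‖ ^ 2 + 2 * s.dG q v ^ 2) / s.G q v
        = 2 * (‖s.rB k q v‖ ^ 2 / s.G q v) + 2 * (s.dG q v ^ 2 / s.G q v) := by ring
    rw [h5] at h4
    have := mul_le_mul_of_nonneg_left h4 (hs.α0 k v hv)
    linarith
  refine h1.trans ?_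
  have h2 : ∑ k, ∑ q, (2 * (s.α k v * (‖s.rB k q v‖ ^ 2 / s.G q v))
      + 2 * (s.α k v * (s.dG q v ^ 2 / s.G q v)))
      = 2 * (∑ k, ∑ q, s.α k v * (‖s.rB k q v‖ ^ 2 / s.G q v)) + 2 * ((∑ k, s.α k v) * s.eI v) := by
    rw [Finset.sum_mul, Finset.mul_sum, Finset.mul_sum, ← Finset.sum_add_distrib]
    apply Finset.sum_congr rfl; intro k _
    rw [eI, Finset.mul_sum, Finset.mul_sum, Finset.mul_sum, ← Finset.sum_add_distrib]
  rw [h2]
  have h3 := sum_rB_le hs hv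
  have h4 : (∑ k, s.α k v) * s.eI v ≤ 1 * s.eI v :=
    mul_le_mul_of_nonneg_right (hs.αsum v hv) (eI_nonneg hs hv)
  linarith

theorem S_e3 : S n s.e3 [] ≤ 2 * S n s.e3' [] + 2 * S n s.eI [] := by
  have h := S_mono n (f := s.e3) (g := fun v => 2 * s.e3' v + 2 * s.eI v) []
    (fun w hw => e3_le hs (lt_of_lt hs w hw))
  rwa [S_add, S_smul, S_smul] at h

end tree

end ESys

end Vale.Agent.P091.H413
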