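import Vale.Agent.P091.H413.Sys2

/-! Tree-level bounds for the energy `e4`, and the gains. -/

namespace Vale.Agent.P091.H413

variable {K Q : Type} [Fintype K] [Fintype Q]

namespace ESys
variable (s : ESys K Q)

noncomputable def μ (k : K) (v : Node) : ℂ := ∑ q, s.A k q v / (s.α k v : ℂ) * s.B k q v
noncomputable def Φ4 (δ : ℝ) (v : Node) : ℝ := ∑ k, Pot δ (s.α k v) (s.z k v)
noncomputable def Φ4' (δ : ℝ) (v : Node) : ℝ := ∑ k, Pot δ (s.α' k v) (s.z' k v)

variable {s} {n : ℕ} {v : Node} {δ : ℝ}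

section basic
variable (hs : s.Ok n) (hv : v.length < n)
include hs hv

theorem z_eq (k : K) : s.z k v = (s.α k v : ℂ) * s.μ k v := by
  unfold z μ
  rw [Finset.mul_sum]
  apply Finset.sum_congr rfl; intro q _
  have := sig_mul (hs.A1 k q v hv)
  linear_combination (-s.B k q v) * this

theorem z'_true (k : K) : s.z' k (true :: v)
    = (s.α' k (true :: v) : ℂ) * (s.μ k v + s.τ k v) + (s.ρ k v + s.κ k v) := by
  unfold z' μ τ ρ κ
  rw [← Finset.sum_add_distrib, ← Finset.sum_add_distrib, Finset.mul_sum, ← Finset.sum_add_distrib]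
  apply Finset.sum_congr rfl; intro q _
  rw [A'_true hs hv, B'_true hs hv]
  ring

theorem z'_false (k : K) : s.z' k (false :: v)
    = (s.α' k (false :: v) : ℂ) * (s.μ k v - s.τ k v) + (s.κ k v - s.ρ k v) := by
  unfold z' μ τ ρ κ
  rw [← Finset.sum_sub_distrib, ← Finset.sum_sub_distrib, Finset.mul_sum, ← Finset.sum_add_distrib]
  apply Finset.sum_congr rfl; intro q _
  rw [A'_false hs hv, B'_false hs hv]
  ring

theorem norm_τ_le (k : K) : ‖s.τ k v‖ ≤ 2 := by
  unfold τ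
  refine (norm_sum_le _ _).trans ?_
  refine le_trans (Finset.sum_le_sum (fun q _ => ?_)) (hs.Gsum v hv)
  rw [norm_mul]
  have h1 := norm_sig_le (hs.α0 k v hv) (hs.A1 k q v hv)
  have h2 := norm_dB_le hs hv k q
  have h3 := norm_nonneg (s.dB k q v)
  nlinarith

theorem sum_norm_dB_le (k : K) : ∑ q, ‖s.dB k q v‖ ≤ 2 :=
  le_trans (Finset.sum_le_sum (fun q _ => norm_dB_le hs hv k q)) (hs.Gsum v hv)

theorem e4_node (hδ : 0 ≤ δ) (good : K → Node → Prop) [∀ k v, Decidable (good k v)]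
    (hg : ∀ k, good k v → ‖s.z k v‖ ≤ δ * s.α k v ∧
      ∀ c : Bool, ‖s.z' k (c :: v)‖ ≤ δ * s.α' k (c :: v)) :
    s.e4 v ≤ (s.Φ4' δ (true :: v) + s.Φ4' δ (false :: v)) / 2 - s.Φ4 δ v
      + ((∑ k, if good k v then 0 else s.α k v * ‖s.τ k v‖ ^ 2)
        + (2 * δ * (∑ k, |s.dα k v| * ‖s.τ k v‖)
        + (2 * δ * (∑ k, ‖s.κ k v‖) + 2 * ∑ k, ‖s.τ k v‖ * ‖s.ρ k v‖))) := by
  have key : ∀ k, s.α k v * ‖s.τ k v‖ ^ 2 ≤
      (Pot δ (s.α' k (true :: v)) (s.z' k (true :: v))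
        + Pot δ (s.α' k (false :: v)) (s.z' k (false :: v))) / 2 - Pot δ (s.α k v) (s.z k v)
      + ((if good k v then 0 else s.α k v * ‖s.τ k v‖ ^ 2)
        + (2 * δ * (|s.dα k v| * ‖s.τ k v‖)
        + (2 * δ * ‖s.κ k v‖ + 2 * (‖s.τ k v‖ * ‖s.ρ k v‖)))) := by
    intro k
    have a0 := a0c hs hv k true
    have a1 := a0c hs hv k false
    by_cases hgk : good k v
    · obtain ⟨g, gc⟩ := hg k hgk
      rw [if_pos hgk]
      have hz := z_eq hs hv k
      have hα := hs.αm k v hv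
      rcases eq_or_lt_of_le (hs.α0 k v hv) with h | h
      · -- zero mass
        have t0 : s.α' k (true :: v) = 0 := by linarith
        have t1 : s.α' k (false :: v) = 0 := by linarith
        have z0 : s.z' k (true :: v) = 0 := by
          have := gc true; rw [t0] at this; exact norm_le_zero_iff.mp (by simpa using this)
        have z1 : s.z' k (false :: v) = 0 := by
          have := gc false; rw [t1] at this; exact norm_le_zero_iff.mp (by simpa using this)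
        have z2 : s.z k v = 0 := by
          rw [← h] at g; exact norm_le_zero_iff.mp (by simpa using g)
        rw [z0, z1, z2, t0, t1, ← h, Pot_zero δ hδ le_rfl]
        have : 0 ≤ 2 * δ * (|s.dα k v| * ‖s.τ k v‖)
          + (2 * δ * ‖s.κ k v‖ + 2 * (‖s.τ k v‖ * ‖s.ρ k v‖)) := by positivity
        linarith
      · have hμ : ‖s.μ k v‖ ≤ δ := by
          rw [hz, norm_mul, Complex.norm_real, Real.norm_of_nonneg h.le, mul_comm δ] at g
          exact le_of_mul_le_mul_left g h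
        have := Pot_node_good hδ a0 a1 hμ (z'_true hs hv k) (z'_false hs hv k) (gc true) (gc false)
        rw [← hα, ← hz] at this
        have e : |(s.α' k (true :: v) - s.α' k (false :: v)) / 2| = |s.dα k v| := rfl
        rw [e] at this
        linarith
    · rw [if_neg hgk]
      have := Pot_node_bad hδ a0 a1 (s.z k v) (s.z' k (true :: v)) (s.z' k (false :: v))
      rw [← hs.αm k v hv] at this
      have e : (s.z' k (true :: v) + s.z' k (false :: v)) / 2 - s.z k v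
          = (s.dα k v : ℂ) * s.τ k v + s.κ k v := by
        rw [z'_true hs hv, z'_false hs hv, z_eq hs hv, hs.αm k v hv]
        unfold dα
        push_cast
        ring
      have e2 : ‖(s.z' k (true :: v) + s.z' k (false :: v)) / 2 - s.z k v‖
          ≤ |s.dα k v| * ‖s.τ k v‖ + ‖s.κ k v‖ := by
        rw [e]
        refine (norm_add_le _ _).trans ?_
        rw [norm_mul, Complex.norm_real, Real.norm_eq_abs]
      have e3 : 2 * δ * ‖(s.z' k (true :: v) + s.z' k (false :: v)) / 2 - s.z k v‖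
          ≤ 2 * δ * (|s.dα k v| * ‖s.τ k v‖ + ‖s.κ k v‖) := by gcongr
      have e4 : 0 ≤ 2 * (‖s.τ k v‖ * ‖s.ρ k v‖) := by positivity
      linarith
  unfold e4
  refine (Finset.sum_le_sum (fun k _ => key k)).trans (le_of_eq ?_)
  unfold Φ4 Φ4'
  rw [← Finset.sum_add_distrib, Finset.sum_div, ← Finset.sum_sub_distrib, Finset.mul_sum,
    Finset.mul_sum, Finset.mul_sum, ← Finset.sum_add_distrib, ← Finset.sum_add_distrib,
    ← Finset.sum_add_distrib, ← Finset.sum_add_distrib]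

/-- loss of `Φ4` -/
theorem Φ4_loss (hδ : 0 ≤ δ) : s.Φ4' δ v - s.Φ4 δ v ≤ 2 * δ * s.lG v + 2 * (2 * δ) * s.lα v := by
  have key : ∀ k, Pot δ (s.α' k v) (s.z' k v) - Pot δ (s.α k v) (s.z k v)
      ≤ 2 * δ * (s.α' k v * s.lG v + 2 * max (s.α' k v - s.α k v) 0) := by
    intro k
    rcases hs.xr k v hv with h | ⟨hA, hα, hB⟩
    · have hz : s.z' k v = 0 := by
        unfold z'
        apply Finset.sum_eq_zero; intro q _
        have := hs.A1' k q v hv.le
        rw [h] at this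
        rw [norm_le_zero_iff.mp this, zero_mul]
      rw [hz, h, Pot_zero δ hδ le_rfl]
      have h1 := Pot_nonneg hδ (hs.α0 k v hv) (s.z k v)
      have h2 : 0 ≤ 2 * δ * (0 * s.lG v + 2 * max (0 - s.α k v) 0) := by
        have : 0 ≤ max (0 - s.α k v) 0 := le_max_right _ _
        rw [zero_mul, zero_add]
        positivity
      linarith
    · have h1 := Pot_mod hδ (hs.α0 k v hv) hα (s.z k v) (s.z' k v)
      have h2 : ‖s.z' k v - s.z k v‖ ≤ s.α' k v * s.lG v + 2 * (s.α' k v - s.α k v) := by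
        unfold z z'
        rw [← Finset.sum_sub_distrib]
        refine (norm_sum_le _ _).trans ?_
        have h3 : ∑ q, ‖s.A' k q v * s.B' k q v - s.A k q v * s.B k q v‖
            ≤ ∑ q, (s.α' k v * (s.G' q v - s.G q v) + s.G q v * (s.α' k v - s.α k v)) := by
          apply Finset.sum_le_sum; intro q _
          have e : s.A' k q v * s.B' k q v - s.A k q v * s.B k q v
              = s.A' k q v * (s.B' k q v - s.B k q v) + (s.A' k q v - s.A k q v) * s.B k q v := by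
            ring
          rw [e]
          refine (norm_add_le _ _).trans ?_
          rw [norm_mul, norm_mul]
          have a1 := hs.A1' k q v hv.le
          have a2 := hB q
          have a3 := hA q
          have a4 := hs.B1 k q v hv
          have a5 : 0 ≤ s.α' k v := hs.α0' k v hv.le
          have b1 : ‖s.A' k q v‖ * ‖s.B' k q v - s.B k q v‖ ≤ s.α' k v * (s.G' q v - s.G q v) := by
            gcongr
          have b2 : ‖s.A' k q v - s.A k q v‖ * ‖s.B k q v‖ ≤ (s.α' k v - s.α k v) * s.G q v := by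
            apply mul_le_mul a3 a4 (norm_nonneg _) (by linarith)
          linarith
        refine h3.trans ?_
        rw [Finset.sum_add_distrib, ← Finset.mul_sum, ← Finset.sum_mul]
        have h4 : (∑ q, s.G q v) * (s.α' k v - s.α k v) ≤ 2 * (s.α' k v - s.α k v) :=
          mul_le_mul_of_nonneg_right (hs.Gsum v hv) (sub_nonneg.mpr hα)
        have e : ∑ q, (s.G' q v - s.G q v) = s.lG v := rfl
        rw [e]
        linarith
      have h3 : s.α' k v - s.α k v ≤ max (s.α' k v - s.α k v) 0 := le_max_left _ _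
      have h4 : 2 * δ * ‖s.z' k v - s.z k v‖
          ≤ 2 * δ * (s.α' k v * s.lG v + 2 * max (s.α' k v - s.α k v) 0) := by
        apply mul_le_mul_of_nonneg_left _ (by positivity)
        linarith
      linarith
  unfold Φ4' Φ4
  rw [← Finset.sum_sub_distrib]
  refine (Finset.sum_le_sum (fun k _ => key k)).trans ?_
  rw [← Finset.mul_sum, Finset.sum_add_distrib, ← Finset.sum_mul, ← Finset.mul_sum]
  have h4 : (∑ k, s.α' k v) * s.lG v ≤ 1 * s.lG v :=
    mul_le_mul_of_nonneg_right (hs.αsum' v hv.le) (lG_nonneg hs hv)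
  have e : ∑ k, max (s.α' k v - s.α k v) 0 = s.lα v := rfl
  rw [e]
  have h5 : 2 * δ * ((∑ k, s.α' k v) * s.lG v + 2 * s.lα v)
      ≤ 2 * δ * (1 * s.lG v + 2 * s.lα v) := by
    apply mul_le_mul_of_nonneg_left _ (by positivity)
    linarith
  linarith

theorem Φ4_nonneg (hδ : 0 ≤ δ) : 0 ≤ s.Φ4 δ v :=
  Finset.sum_nonneg fun k _ => Pot_nonneg hδ (hs.α0 k v hv) _

/-- node Cauchy-Schwarz inequalities -/
theorem sum_dατ : ∑ k, |s.dα k v| * ‖s.τ k v‖ ≤ √(s.e1 v) * √(s.e4 v) := by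
  have h : ∀ k, |s.dα k v| * ‖s.τ k v‖
      ≤ √(s.dα k v ^ 2 / s.α k v) * √(s.α k v * ‖s.τ k v‖ ^ 2) := by
    intro k
    have hα := hs.α0 k v hv
    apply le_sqrt_mul_sqrt (by positivity)
    rcases eq_or_lt_of_le hα with h | h
    · have : |s.dα k v| = 0 :=
        le_antisymm (by rw [h]; exact abs_dα_le hs hv k) (abs_nonneg _)
      rw [this, ← h]; simp
    · rw [mul_pow, sq_abs]
      apply le_of_eq
      field_simp
  refine (Finset.sum_le_sum (fun k _ => h k)).trans ?_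
  exact Real.sum_sqrt_mul_sqrt_le _
    (fun k => div_nonneg (sq_nonneg _) (hs.α0 k v hv))
    (fun k => mul_nonneg (hs.α0 k v hv) (sq_nonneg _))

theorem sum_κ : ∑ k, ‖s.κ k v‖ ≤ √(s.e2 v) * √(s.e3 v) := by
  have h0 : ∑ k, ‖s.κ k v‖ ≤ ∑ k, ∑ q, ‖s.rA k q v‖ * ‖s.dB k q v‖ := by
    apply Finset.sum_le_sum; intro k _
    unfold κ
    refine (norm_sum_le _ _).trans (le_of_eq ?_)
    exact Finset.sum_congr rfl fun q _ => norm_mul _ _
  refine h0.trans ?_
  have h1 := sum2_cs (fun k q => ‖s.rA k q v‖ * ‖s.dB k q v‖)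
    (fun k q => s.G q v * (‖s.rA k q v‖ ^ 2 / s.α k v))
    (fun k q => s.α k v * (‖s.dB k q v‖ ^ 2 / s.G q v))
    (fun k q => mul_nonneg (hs.G0 q v hv) (div_nonneg (sq_nonneg _) (hs.α0 k v hv)))
    (fun k q => mul_nonneg (hs.α0 k v hv) (div_nonneg (sq_nonneg _) (hs.G0 q v hv)))
    (fun k q => by
      have := mul_le_sqrt_div (x := ‖s.rA k q v‖) (y := ‖s.dB k q v‖) (hs.α0 k v hv) (hs.G0 q v hv)
        (fun h => le_antisymm (by have := norm_rA_le hs hv k q; rw [h] at this; simpa using this)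
          (norm_nonneg _))
        (fun h => le_antisymm (by rw [← h]; exact norm_dB_le hs hv k q) (norm_nonneg _))
      rwa [mul_comm (‖s.rA k q v‖ ^ 2 / s.α k v)] at this)
  refine h1.trans ?_
  have h2 := sum_rA_le hs hv
  exact mul_le_mul_of_nonneg_right (Real.sqrt_le_sqrt h2) (Real.sqrt_nonneg _)

theorem sum_τρ : ∑ k, ‖s.τ k v‖ * ‖s.ρ k v‖ ≤ √(s.e4 v) * √(2 * s.e2 v) := by
  have hρ : ∀ k, ‖s.ρ k v‖ ^ 2 ≤ 2 * ∑ q, s.G q v * ‖s.rA k q v‖ ^ 2 := by
    intro k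
    have h1 : ‖s.ρ k v‖ ≤ √(∑ q, s.G q v * ‖s.rA k q v‖ ^ 2) * √(∑ q, s.G q v) := by
      unfold ρ
      refine (norm_sum_le _ _).trans ?_
      refine le_trans (Finset.sum_le_sum (fun q _ => ?_))
        (Real.sum_sqrt_mul_sqrt_le _ (fun q => mul_nonneg (hs.G0 q v hv) (sq_nonneg _))
          (fun q => hs.G0 q v hv))
      rw [norm_mul]
      have hG := hs.G0 q v hv
      have h2 := hs.B1 k q v hv
      apply le_sqrt_mul_sqrt (by positivity)
      have h3 : ‖s.rA k q v‖ * ‖s.B k q v‖ ≤ ‖s.rA k q v‖ * s.G q v := by gcongr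
      have h4 : (‖s.rA k q v‖ * ‖s.B k q v‖) ^ 2 ≤ (‖s.rA k q v‖ * s.G q v) ^ 2 := by gcongr
      refine h4.trans (le_of_eq ?_)
      ring
    have h2 : 0 ≤ ∑ q, s.G q v * ‖s.rA k q v‖ ^ 2 :=
      Finset.sum_nonneg fun q _ => mul_nonneg (hs.G0 q v hv) (sq_nonneg _)
    have h3 : 0 ≤ ∑ q, s.G q v := Finset.sum_nonneg fun q _ => hs.G0 q v hv
    calc ‖s.ρ k v‖ ^ 2 ≤ (√(∑ q, s.G q v * ‖s.rA k q v‖ ^ 2) * √(∑ q, s.G q v)) ^ 2 := by gcongr
      _ = (∑ q, s.G q v * ‖s.rA k q v‖ ^ 2) * (∑ q, s.G q v) := by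
        rw [mul_pow, Real.sq_sqrt h2, Real.sq_sqrt h3]
      _ ≤ (∑ q, s.G q v * ‖s.rA k q v‖ ^ 2) * 2 := by
        gcongr; exact hs.Gsum v hv
      _ = _ := by ring
  have hz : ∀ k, s.α k v = 0 → s.ρ k v = 0 := by
    intro k h
    unfold ρ
    apply Finset.sum_eq_zero; intro q _
    have := norm_rA_le hs hv k q
    rw [h] at this
    have e : s.rA k q v = 0 := norm_le_zero_iff.mp (by simpa using this)
    rw [e, zero_mul]
  have h : ∀ k, ‖s.τ k v‖ * ‖s.ρ k v‖
      ≤ √(s.α k v * ‖s.τ k v‖ ^ 2) * √(‖s.ρ k v‖ ^ 2 / s.α k v) := by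
    intro k
    have hα := hs.α0 k v hv
    apply le_sqrt_mul_sqrt (by positivity)
    rcases eq_or_lt_of_le hα with h | h
    · rw [hz k h.symm]; simp
    · rw [mul_pow]
      apply le_of_eq
      field_simp
  refine (Finset.sum_le_sum (fun k _ => h k)).trans ?_
  refine (Real.sum_sqrt_mul_sqrt_le _
    (fun k => mul_nonneg (hs.α0 k v hv) (sq_nonneg _))
    (fun k => div_nonneg (sq_nonneg _) (hs.α0 k v hv))).trans ?_
  have h5 : ∑ k, ‖s.ρ k v‖ ^ 2 / s.α k v ≤ 2 * s.e2 v := by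
    have h6 := sum_rA_le hs hv
    have h7 : ∑ k, ‖s.ρ k v‖ ^ 2 / s.α k v
        ≤ ∑ k, 2 * ∑ q, s.G q v * (‖s.rA k q v‖ ^ 2 / s.α k v) := by
      apply Finset.sum_le_sum; intro k _
      have h8 : ‖s.ρ k v‖ ^ 2 / s.α k v ≤ (2 * ∑ q, s.G q v * ‖s.rA k q v‖ ^ 2) / s.α k v :=
        div_le_div_of_nonneg_right (hρ k) (hs.α0 k v hv)
      refine h8.trans (le_of_eq ?_)
      rw [mul_div_assoc, Finset.sum_div]
      congr 1
      exact Finset.sum_congr rfl fun q _ => mul_div_assoc _ _ _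
    rw [← Finset.mul_sum] at h7
    linarith
  exact mul_le_mul_of_nonneg_left (Real.sqrt_le_sqrt h5) (Real.sqrt_nonneg _)

theorem gain0_node : s.gain0 v ≤ (∑ k, |s.dα k v| * ‖s.τ k v‖) + ∑ k, ‖s.κ k v‖ := by
  unfold gain0
  rw [← Finset.sum_add_distrib]
  refine (norm_sum_le _ _).trans (Finset.sum_le_sum fun k _ => ?_)
  have e : ∑ q, s.dA k q v * s.dB k q v = (s.dα k v : ℂ) * s.τ k v + s.κ k v := by
    unfold τ κ
    rw [Finset.mul_sum, ← Finset.sum_add_distrib]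
    apply Finset.sum_congr rfl; intro q _
    rw [dA_eq hs hv]; ring
  rw [e]
  refine (norm_add_le _ _).trans ?_
  rw [norm_mul, Complex.norm_real, Real.norm_eq_abs]

end basic

theorem Φ4'_le (hs : s.Ok n) (hδ : 0 ≤ δ) (hv : v.length ≤ n) : s.Φ4' δ v ≤ 4 * δ := by
  have h1 : s.Φ4' δ v ≤ ∑ k, 2 * δ * (s.α' k v * 2) := by
    apply Finset.sum_le_sum; intro k _
    refine (Pot_le hδ (hs.α0' k v hv) _).trans ?_
    apply mul_le_mul_of_nonneg_left _ (by positivity)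
    unfold z'
    refine (norm_sum_le _ _).trans ?_
    have h2 : ∑ q, ‖s.A' k q v * s.B' k q v‖ ≤ ∑ q, s.α' k v * s.G' q v := by
      apply Finset.sum_le_sum; intro q _
      rw [norm_mul]
      exact mul_le_mul (hs.A1' k q v hv) (hs.B1' k q v hv) (norm_nonneg _) (hs.α0' k v hv)
    refine h2.trans ?_
    rw [← Finset.mul_sum]
    exact mul_le_mul_of_nonneg_left (hs.Gsum' v hv) (hs.α0' k v hv)
  refine h1.trans ?_
  rw [← Finset.mul_sum, ← Finset.sum_mul]
  have h2 := hs.αsum' v hv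
  have h3 : 2 * δ * ((∑ k, s.α' k v) * 2) ≤ 2 * δ * (1 * 2) := by gcongr
  linarith

section tree
variable (hs : s.Ok n)
include hs

theorem S_dατ : S n (fun v => ∑ k, |s.dα k v| * ‖s.τ k v‖) [] ≤ √(S n s.e1 []) * √(S n s.e4 []) :=
  S_cs n [] (fun w hw => e1_nonneg hs (lt_of_lt hs w hw))
    (fun w hw => e4_nonneg hs (lt_of_lt hs w hw))
    (fun w _ => Finset.sum_nonneg fun k _ => by positivity)
    (fun w hw => sum_dατ hs (lt_of_lt hs w hw))

theorem S_κ : S n (fun v => ∑ k, ‖s.κ k v‖) [] ≤ √(S n s.e2 []) * √(S n s.e3 []) :=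
  S_cs n [] (fun w hw => e2_nonneg hs (lt_of_lt hs w hw))
    (fun w hw => e3_nonneg hs (lt_of_lt hs w hw))
    (fun w _ => Finset.sum_nonneg fun k _ => by positivity)
    (fun w hw => sum_κ hs (lt_of_lt hs w hw))

theorem S_τρ : S n (fun v => ∑ k, ‖s.τ k v‖ * ‖s.ρ k v‖) []
    ≤ √(S n s.e4 []) * √(2 * S n s.e2 []) := by
  have h := S_cs n (f := fun v => ∑ k, ‖s.τ k v‖ * ‖s.ρ k v‖) (X := s.e4)
    (Y := fun v => 2 * s.e2 v) []
    (fun w hw => e4_nonneg hs (lt_of_lt hs w hw))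
    (fun w hw => by have := e2_nonneg hs (lt_of_lt hs w hw); positivity)
    (fun w _ => Finset.sum_nonneg fun k _ => by positivity)
    (fun w hw => sum_τρ hs (lt_of_lt hs w hw))
  rwa [S_smul] at h

/-- **e4** -/
theorem S_e4 {h m b : ℝ} (hδ : 0 ≤ δ) (hh : 0 ≤ h) (hb : 0 ≤ b) (h1 : S n s.e1 [] ≤ 2 * h)
    (hm : S n s.lα [] ≤ m) (good : K → Node → Prop) [∀ k v, Decidable (good k v)]
    (hg : ∀ k v, v.length < n → good k v → ‖s.z k v‖ ≤ δ * s.α k v ∧
      ∀ c : Bool, ‖s.z' k (c :: v)‖ ≤ δ * s.α' k (c :: v))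
    (hbad : S n (fun v => ∑ k, if good k v then 0 else s.α k v * ‖s.τ k v‖ ^ 2) [] ≤ b) :
    S n s.e4 [] ≤ 2 * b + 16 * δ + 8 * δ * m + 4 * δ * (√(S n s.e2 []) * √(S n s.e3 []))
      + 16 * δ ^ 2 * h + 16 * S n s.e2 [] := by
  have e2n := S_e2_nonneg hs
  have e4n := S_e4_nonneg hs
  rcases Nat.eq_zero_or_pos n with hn | hn
  · subst hn
    have hm0 : 0 ≤ m := by simpa [S] using hm
    have : S 0 s.e4 [] = 0 := rfl
    rw [this]
    positivity
  have h2 := S_tele2 n (f := s.e4) (Φ := s.Φ4 δ) (Φ' := s.Φ4' δ) (c := 4 * δ)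
    (g := fun v => ((∑ k, if good k v then 0 else s.α k v * ‖s.τ k v‖ ^ 2)
        + (2 * δ * (∑ k, |s.dα k v| * ‖s.τ k v‖)
        + (2 * δ * (∑ k, ‖s.κ k v‖) + 2 * ∑ k, ‖s.τ k v‖ * ‖s.ρ k v‖))))
    (ℓ := fun v => 2 * δ * s.lG v + 2 * (2 * δ) * s.lα v) (by positivity) []
    (fun w hw => e4_node hs (lt_of_lt hs w hw) hδ good (fun k => hg k w (lt_of_lt hs w hw)))
    (fun w _ hw => Φ4_loss hs (lt_of_lt hs w hw) hδ)
    (fun w hw => by
      have := lG_nonneg hs (lt_of_lt hs w hw); have := lα_nonneg s w; positivity)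
    (Φ4_nonneg hs (by simpa using hn) hδ)
    (fun w hw => Φ4'_le hs hδ (by simpa using hw))
  rw [S_loss, S_add, S_add, S_add, S_smul, S_smul, S_smul] at h2
  have h3 := S_dατ hs
  have h4 := S_κ hs
  have h5 := S_τρ hs
  have h6 := S_lG hs
  have h7 : √(S n s.e1 []) * √(S n s.e4 []) ≤ √(2 * h) * √(S n s.e4 []) := by gcongr
  set E := S n s.e4 [] with hE
  set E2 := S n s.e2 [] with hE2
  set W := √E2 * √(S n s.e3 []) with hW
  have i1 : 2 * δ * S n s.lG [] ≤ 2 * δ * 2 := by gcongr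
  have i2 : 2 * (2 * δ) * S n s.lα [] ≤ 2 * (2 * δ) * m := by gcongr
  have i3 : 2 * δ * S n (fun v => ∑ k, |s.dα k v| * ‖s.τ k v‖) []
      ≤ 2 * δ * (√(2 * h) * √E) := by
    apply mul_le_mul_of_nonneg_left (h3.trans h7) (by positivity)
  have i4 : 2 * δ * S n (fun v => ∑ k, ‖s.κ k v‖) [] ≤ 2 * δ * W := by gcongr
  have i5 : √E ^ 2 ≤ (b + 8 * δ + 4 * δ * m + 2 * δ * W)
      + (2 * δ * √(2 * h) + 2 * √(2 * E2)) * √E := by
    rw [Real.sq_sqrt e4n]
    linarith
  have i6 := quad_bound hs i5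
  rw [Real.sq_sqrt e4n] at i6
  have i7 : (2 * δ * √(2 * h) + 2 * √(2 * E2)) ^ 2 ≤ 16 * δ ^ 2 * h + 16 * E2 := by
    have j1 : √(2 * h) ^ 2 = 2 * h := Real.sq_sqrt (by positivity)
    have j2 : √(2 * E2) ^ 2 = 2 * E2 := Real.sq_sqrt (by positivity)
    nlinarith [sq_nonneg (2 * δ * √(2 * h) - 2 * √(2 * E2))]
  linarith

theorem S_gain0 : S n s.gain0 [] ≤ √(S n s.e1 []) * √(S n s.e4 [])
    + √(S n s.e2 []) * √(S n s.e3 []) := by
  have h := S_mono n (f := s.gain0)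
    (g := fun v => (∑ k, |s.dα k v| * ‖s.τ k v‖) + ∑ k, ‖s.κ k v‖) []
    (fun w hw => gain0_node hs (lt_of_lt hs w hw))
  rw [S_add] at h
  have h1 := S_dατ hs
  have h2 := S_κ hs
  linarith

end tree

end ESys

end Vale.Agent.P091.H413
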