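import Vale.Agent.P091.H413.Sys3

/-! The delayed pairing `gain1`, and the proof of Lemma E. -/

namespace Vale.Agent.P091.H413

variable {K Q : Type} [Fintype K] [Fintype Q]

/-- one more level only increases the sum -/
theorem S_le_succ (n : ℕ) {f : Node → ℝ} (v : Node)
    (h : ∀ w : Node, w.length < n + 1 + v.length → 0 ≤ f w) : S n f v ≤ S (n + 1) f v := by
  induction n generalizing v with
  | zero =>
    have := h v (by omega)
    simpa [S] using this
  | succ n ih =>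
    have h1 := ih (true :: v) (fun w hw => h w (by simp only [List.length_cons] at hw; omega))
    have h2 := ih (false :: v) (fun w hw => h w (by simp only [List.length_cons] at hw; omega))
    have e1 : S (n + 1) f v = f v + (S n f (true :: v) + S n f (false :: v)) / 2 := rfl
    have e2 : S (n + 1 + 1) f v
      = f v + (S (n + 1) f (true :: v) + S (n + 1) f (false :: v)) / 2 := rfl
    rw [e1, e2]
    linarith

namespace ESys

variable {s : ESys K Q} {n : ℕ} {v : Node}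

section node
variable (hs : s.Ok n) (hv : v.length < n) (c : Bool) (hw : (c :: v).length < n)
include hs hv hw

theorem α'_le_two (k : K) : s.α' k (c :: v) ≤ 2 * s.α k v := by
  have := hw
  have h1 := hs.αm k v hv
  have h2 := a0c hs hv k true
  have h3 := a0c hs hv k false
  cases c <;> linarith

/-- for a class present on arrival, `α(w) ≤ α'(w)` -/
theorem α_le_α' (k : K) (h : s.α' k (c :: v) ≠ 0) : s.α k (c :: v) ≤ s.α' k (c :: v) := by
  have := hv
  rcases hs.xr k _ hw with h' | ⟨-, h', -⟩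
  · exact absurd h' h
  · exact h'

theorem part1 (k : K) (h : s.α' k (c :: v) ≠ 0) :
    ‖(s.dα k (c :: v) : ℂ) * ∑ q, s.A k q (c :: v) / (s.α k (c :: v) : ℂ) * s.dB k q v‖
      ≤ |s.dα k (c :: v)| * ‖s.τ k v‖ + ‖s.κ k v‖
        + 4 * max (s.α' k (c :: v) - s.α k (c :: v)) 0 := by
  set w := c :: v with hwd
  set x := ∑ q, s.A k q w / (s.α k w : ℂ) * s.dB k q v with hx
  obtain ⟨hA, hα, -⟩ := (hs.xr k w hw).resolve_left h
  have hα0 := hs.α0 k w hw
  have hα0' := hs.α0' k w hw.le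
  have hD := abs_dα_le hs hw k
  have hmax : s.α' k w - s.α k w ≤ max (s.α' k w - s.α k w) 0 := le_max_left _ _
  have hτ := norm_τ_le hs hv k
  have hτ0 := norm_nonneg (s.τ k v)
  have hκ0 := norm_nonneg (s.κ k v)
  rw [norm_mul, Complex.norm_real, Real.norm_eq_abs]
  rcases eq_or_lt_of_le hα0 with h0 | h0
  · have hD0 : |s.dα k w| = 0 := le_antisymm (by rw [h0]; exact hD) (abs_nonneg _)
    rw [hD0]
    have : 0 ≤ max (s.α' k w - s.α k w) 0 := le_max_right _ _
    simp only [zero_mul, zero_add]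
    positivity
  -- α x
  have e1 : (s.α k w : ℂ) * x = ∑ q, s.A k q w * s.dB k q v := by
    rw [hx, Finset.mul_sum]
    apply Finset.sum_congr rfl; intro q _
    have := sig_mul (hs.A1 k q w hw)
    linear_combination (s.dB k q v) * this
  have e2 : ∑ q, s.A k q w * s.dB k q v
      = ∑ q, s.A' k q w * s.dB k q v - ∑ q, (s.A' k q w - s.A k q w) * s.dB k q v := by
    rw [← Finset.sum_sub_distrib]
    apply Finset.sum_congr rfl; intro q _
    ring
  have e3 : ‖∑ q, s.A' k q w * s.dB k q v‖ ≤ s.α' k w * ‖s.τ k v‖ + ‖s.κ k v‖ := by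
    have hτd : s.τ k v = ∑ q, s.A k q v / (s.α k v : ℂ) * s.dB k q v := rfl
    have hκd : s.κ k v = ∑ q, s.rA k q v * s.dB k q v := rfl
    cases c
    · have : ∑ q, s.A' k q w * s.dB k q v = (s.α' k w : ℂ) * s.τ k v - s.κ k v := by
        rw [hτd, hκd, Finset.mul_sum, ← Finset.sum_sub_distrib]
        apply Finset.sum_congr rfl; intro q _
        rw [hwd, A'_false hs hv]; ring
      rw [this]
      refine (norm_sub_le _ _).trans ?_
      rw [norm_mul, Complex.norm_real, Real.norm_of_nonneg hα0']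
    · have : ∑ q, s.A' k q w * s.dB k q v = (s.α' k w : ℂ) * s.τ k v + s.κ k v := by
        rw [hτd, hκd, Finset.mul_sum, ← Finset.sum_add_distrib]
        apply Finset.sum_congr rfl; intro q _
        rw [hwd, A'_true hs hv]; ring
      rw [this]
      refine (norm_add_le _ _).trans ?_
      rw [norm_mul, Complex.norm_real, Real.norm_of_nonneg hα0']
  have e4 : ‖∑ q, (s.A' k q w - s.A k q w) * s.dB k q v‖ ≤ (s.α' k w - s.α k w) * 2 := by
    refine (norm_sum_le _ _).trans ?_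
    have h5 : ∑ q, ‖(s.A' k q w - s.A k q w) * s.dB k q v‖
        ≤ ∑ q, (s.α' k w - s.α k w) * ‖s.dB k q v‖ := by
      apply Finset.sum_le_sum; intro q _
      rw [norm_mul]
      exact mul_le_mul_of_nonneg_right (hA q) (norm_nonneg _)
    refine h5.trans ?_
    rw [← Finset.mul_sum]
    exact mul_le_mul_of_nonneg_left (sum_norm_dB_le hs hv k) (sub_nonneg.mpr hα)
  have e5 : s.α k w * ‖x‖ ≤ s.α' k w * ‖s.τ k v‖ + ‖s.κ k v‖ + 2 * (s.α' k w - s.α k w) := by
    have h6 : ‖(s.α k w : ℂ) * x‖ = s.α k w * ‖x‖ := by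
      rw [norm_mul, Complex.norm_real, Real.norm_of_nonneg hα0]
    rw [← h6, e1, e2]
    refine (norm_sub_le _ _).trans ?_
    linarith
  set t := |s.dα k w| / s.α k w with ht
  have ht0 : 0 ≤ t := by positivity
  have ht1 : t ≤ 1 := div_le_one_of_le₀ hD hα0
  have htα : t * s.α k w = |s.dα k w| := by rw [ht]; field_simp
  have e6 : |s.dα k w| * ‖x‖ = t * (s.α k w * ‖x‖) := by rw [← htα]; ring
  have e7 : t * (s.α k w * ‖x‖)
      ≤ t * (s.α' k w * ‖s.τ k v‖ + ‖s.κ k v‖ + 2 * (s.α' k w - s.α k w)) :=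
    mul_le_mul_of_nonneg_left e5 ht0
  have hd : 0 ≤ s.α' k w - s.α k w := sub_nonneg.mpr hα
  have e8 : t * (s.α' k w * ‖s.τ k v‖) = |s.dα k w| * ‖s.τ k v‖
      + t * ((s.α' k w - s.α k w) * ‖s.τ k v‖) := by
    rw [← htα]; ring
  have e9 : t * ((s.α' k w - s.α k w) * ‖s.τ k v‖) ≤ 1 * ((s.α' k w - s.α k w) * 2) := by
    gcongr
  have e10 : t * ‖s.κ k v‖ ≤ 1 * ‖s.κ k v‖ := by gcongr
  have e11 : t * (2 * (s.α' k w - s.α k w)) ≤ 1 * (2 * (s.α' k w - s.α k w)) := by gcongr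
  rw [e6]
  have e12 : t * (s.α' k w * ‖s.τ k v‖ + ‖s.κ k v‖ + 2 * (s.α' k w - s.α k w))
      = t * (s.α' k w * ‖s.τ k v‖) + t * ‖s.κ k v‖ + t * (2 * (s.α' k w - s.α k w)) := by ring
  linarith

theorem part2 (k : K) (q : Q) (h : s.α' k (c :: v) ≠ 0) :
    ‖s.rA k q (c :: v)‖ * ‖s.dB k q v‖
      ≤ √(s.G q (c :: v) * (‖s.rA k q (c :: v)‖ ^ 2 / s.α k (c :: v)))
          * √(8 * (s.α k v * (‖s.dB k q v‖ ^ 2 / s.G q v)))
        + 2 * s.α k (c :: v) * (4 * (s.dG q v ^ 2 / s.G q v)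
          + 4 * (s.G' q (c :: v) - s.G q (c :: v))) := by
  set w := c :: v with hwd
  have hα := α_le_α' hs hv c hw k h
  have hα2 := α'_le_two hs hv c hw k
  have hαw := hs.α0 k w hw
  have hαv := hs.α0 k v hv
  have hGw := hs.G0 q w hw
  have hGv := hs.G0 q v hv
  have hGr := hs.Gr q w hw
  have hr := norm_rA_le hs hw k q
  have hdB := norm_dB_le hs hv k q
  have hr0 := norm_nonneg (s.rA k q w)
  have hdB0 := norm_nonneg (s.dB k q v)
  have hII : 0 ≤ s.dG q v ^ 2 / s.G q v := by positivity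
  by_cases hc : s.G q v ≤ 4 * s.G q w
  · have h1 : ‖s.rA k q w‖ * ‖s.dB k q v‖
        ≤ √(s.G q w * (‖s.rA k q w‖ ^ 2 / s.α k w))
          * √(8 * (s.α k v * (‖s.dB k q v‖ ^ 2 / s.G q v))) := by
      apply le_sqrt_mul_sqrt (by positivity)
      rcases eq_or_lt_of_le hαw with h0 | h0
      · have : ‖s.rA k q w‖ = 0 := le_antisymm (by rw [← h0] at hr; simpa using hr) hr0
        rw [this]; simp
      rcases eq_or_lt_of_le hGv with h1 | h1
      · have : ‖s.dB k q v‖ = 0 := le_antisymm (by rw [← h1] at hdB; exact hdB) hdB0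
        rw [this]; simp
      have e : s.G q w * (‖s.rA k q w‖ ^ 2 / s.α k w) * (8 * (s.α k v * (‖s.dB k q v‖ ^ 2 / s.G q v)))
          = (‖s.rA k q w‖ ^ 2 * ‖s.dB k q v‖ ^ 2) * ((4 * s.G q w / s.G q v)
            * (2 * s.α k v / s.α k w)) := by
        field_simp; ring
      rw [e, mul_pow]
      have h2 : 1 ≤ 4 * s.G q w / s.G q v := by rw [one_le_div h1]; exact hc
      have h3 : 1 ≤ 2 * s.α k v / s.α k w := by rw [one_le_div h0]; linarith
      have h4 : 1 ≤ (4 * s.G q w / s.G q v) * (2 * s.α k v / s.α k w) := by nlinarith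
      have h5 : 0 ≤ ‖s.rA k q w‖ ^ 2 * ‖s.dB k q v‖ ^ 2 := by positivity
      nlinarith
    have h2 : 0 ≤ 2 * s.α k w * (4 * (s.dG q v ^ 2 / s.G q v) + 4 * (s.G' q w - s.G q w)) := by
      have : 0 ≤ s.G' q w - s.G q w := sub_nonneg.mpr hGr
      positivity
    linarith
  · push Not at hc
    have h1 : ‖s.rA k q w‖ * ‖s.dB k q v‖ ≤ 2 * s.α k w * s.G q v := by gcongr
    have h2 : s.G q v ≤ 4 * (s.dG q v ^ 2 / s.G q v) + 4 * (s.G' q w - s.G q w) := by
      have hpos : 0 < s.G q v := by linarith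
      by_cases hd : s.G' q w ≤ s.G q v / 2
      · have h3 : s.G q v / 2 ≤ |s.dG q v| := by
          have hm := hs.Gm q v hv
          unfold dG
          cases c
          · rw [le_abs]; left; rw [hwd] at hd; linarith
          · rw [le_abs]; right; rw [hwd] at hd; linarith
        have h4 : s.G q v ≤ 4 * (s.dG q v ^ 2 / s.G q v) := by
          rw [mul_div_assoc', le_div_iff₀ hpos, ← sq_abs]
          nlinarith
        linarith
      · push Not at hd
        linarith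
    have h3 : 2 * s.α k w * s.G q v
        ≤ 2 * s.α k w * (4 * (s.dG q v ^ 2 / s.G q v) + 4 * (s.G' q w - s.G q w)) := by
      gcongr
    have h4 : 0 ≤ √(s.G q w * (‖s.rA k q w‖ ^ 2 / s.α k w))
          * √(8 * (s.α k v * (‖s.dB k q v‖ ^ 2 / s.G q v))) := by positivity
    linarith

theorem gain1_node : s.gain1 c v ≤ √(s.e1 (c :: v)) * √(2 * s.e4 v) + √(s.e2 v) * √(s.e3 v)
    + 4 * s.lα (c :: v) + √(s.e2 (c :: v)) * √(8 * s.e3 v) + 8 * s.eI v + 8 * s.lG (c :: v) := by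
  set w := c :: v with hwd
  -- split of every term
  have key : ∀ k, ‖if s.α' k w = 0 then (0 : ℂ) else ∑ q, s.dA k q w * s.dB k q v‖
      ≤ (√(s.dα k w ^ 2 / s.α k w) * √(2 * (s.α k v * ‖s.τ k v‖ ^ 2)) + ‖s.κ k v‖
          + 4 * max (s.α' k w - s.α k w) 0)
        + ∑ q, (√(s.G q w * (‖s.rA k q w‖ ^ 2 / s.α k w))
          * √(8 * (s.α k v * (‖s.dB k q v‖ ^ 2 / s.G q v)))
        + 2 * s.α k w * (4 * (s.dG q v ^ 2 / s.G q v) + 4 * (s.G' q w - s.G q w))) := by
    intro k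
    have hαv := hs.α0 k v hv
    have hαw := hs.α0 k w hw
    by_cases h : s.α' k w = 0
    · rw [if_pos h, norm_zero]
      have h1 : 0 ≤ max (s.α' k w - s.α k w) 0 := le_max_right _ _
      have h2 : 0 ≤ ∑ q, (√(s.G q w * (‖s.rA k q w‖ ^ 2 / s.α k w))
          * √(8 * (s.α k v * (‖s.dB k q v‖ ^ 2 / s.G q v)))
        + 2 * s.α k w * (4 * (s.dG q v ^ 2 / s.G q v) + 4 * (s.G' q w - s.G q w))) := by
        apply Finset.sum_nonneg; intro q _
        have h3 : 0 ≤ s.dG q v ^ 2 / s.G q v := div_nonneg (sq_nonneg _) (hs.G0 q v hv)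
        have h4 : 0 ≤ s.G' q w - s.G q w := sub_nonneg.mpr (hs.Gr q w hw)
        positivity
      positivity
    · rw [if_neg h]
      have e : ∑ q, s.dA k q w * s.dB k q v
          = (s.dα k w : ℂ) * (∑ q, s.A k q w / (s.α k w : ℂ) * s.dB k q v)
            + ∑ q, s.rA k q w * s.dB k q v := by
        rw [Finset.mul_sum, ← Finset.sum_add_distrib]
        apply Finset.sum_congr rfl; intro q _
        rw [dA_eq hs hw]; ring
      rw [e]
      refine (norm_add_le _ _).trans ?_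
      have h1 := part1 hs hv c hw k h
      rw [← hwd] at h1
      have h2 : ‖∑ q, s.rA k q w * s.dB k q v‖ ≤
          ∑ q, (√(s.G q w * (‖s.rA k q w‖ ^ 2 / s.α k w))
          * √(8 * (s.α k v * (‖s.dB k q v‖ ^ 2 / s.G q v)))
        + 2 * s.α k w * (4 * (s.dG q v ^ 2 / s.G q v) + 4 * (s.G' q w - s.G q w))) := by
        refine (norm_sum_le _ _).trans (Finset.sum_le_sum fun q _ => ?_)
        rw [norm_mul]
        exact part2 hs hv c hw k q h
      have h3 : |s.dα k w| * ‖s.τ k v‖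
          ≤ √(s.dα k w ^ 2 / s.α k w) * √(2 * (s.α k v * ‖s.τ k v‖ ^ 2)) := by
        apply le_sqrt_mul_sqrt (by positivity)
        rcases eq_or_lt_of_le hαw with h0 | h0
        · have hD0 : |s.dα k w| = 0 :=
            le_antisymm (by rw [h0]; exact abs_dα_le hs hw k) (abs_nonneg _)
          rw [hD0]
          have : 0 ≤ s.dα k w ^ 2 / s.α k w * (2 * (s.α k v * ‖s.τ k v‖ ^ 2)) := by positivity
          simpa using this
        · rw [mul_pow, sq_abs]
          have h5 : s.dα k w ^ 2 / s.α k w * (2 * (s.α k v * ‖s.τ k v‖ ^ 2))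
              = (s.dα k w ^ 2 * ‖s.τ k v‖ ^ 2) * (2 * s.α k v / s.α k w) := by ring
          rw [h5]
          have h6 : 1 ≤ 2 * s.α k v / s.α k w := by
            rw [one_le_div h0]
            have h7 := α_le_α' hs hv c hw k h
            have h8 := α'_le_two hs hv c hw k
            rw [← hwd] at h7 h8
            linarith
          have h7 : 0 ≤ s.dα k w ^ 2 * ‖s.τ k v‖ ^ 2 := by positivity
          nlinarith
      linarith
  unfold gain1
  refine (norm_sum_le _ _).trans ((Finset.sum_le_sum fun k _ => key k).trans ?_)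
  rw [Finset.sum_add_distrib, Finset.sum_add_distrib, Finset.sum_add_distrib]
  have t1 : ∑ k, √(s.dα k w ^ 2 / s.α k w) * √(2 * (s.α k v * ‖s.τ k v‖ ^ 2))
      ≤ √(s.e1 w) * √(2 * s.e4 v) := by
    have := Real.sum_sqrt_mul_sqrt_le Finset.univ
      (f := fun k => s.dα k w ^ 2 / s.α k w) (g := fun k => 2 * (s.α k v * ‖s.τ k v‖ ^ 2))
      (fun k => div_nonneg (sq_nonneg _) (hs.α0 k w hw))
      (fun k => by have := hs.α0 k v hv; positivity)
    rw [← Finset.mul_sum] at this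
    exact this
  have t2 := sum_κ hs hv
  have t3 : ∑ k, 4 * max (s.α' k w - s.α k w) 0 = 4 * s.lα w := by
    rw [← Finset.mul_sum]; rfl
  have t4 : ∑ k, ∑ q, (√(s.G q w * (‖s.rA k q w‖ ^ 2 / s.α k w))
          * √(8 * (s.α k v * (‖s.dB k q v‖ ^ 2 / s.G q v)))
        + 2 * s.α k w * (4 * (s.dG q v ^ 2 / s.G q v) + 4 * (s.G' q w - s.G q w)))
      = (∑ k, ∑ q, √(s.G q w * (‖s.rA k q w‖ ^ 2 / s.α k w))
          * √(8 * (s.α k v * (‖s.dB k q v‖ ^ 2 / s.G q v))))
        + (∑ k, s.α k w) * (8 * s.eI v + 8 * s.lG w) := by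
    rw [Finset.sum_mul, ← Finset.sum_add_distrib]
    apply Finset.sum_congr rfl; intro k _
    rw [Finset.sum_add_distrib, ← Finset.mul_sum]
    have : ∑ q, (4 * (s.dG q v ^ 2 / s.G q v) + 4 * (s.G' q w - s.G q w))
        = 4 * s.eI v + 4 * s.lG w := by
      rw [Finset.sum_add_distrib, ← Finset.mul_sum, ← Finset.mul_sum]; rfl
    rw [this]; ring
  have t5 : ∑ k, ∑ q, √(s.G q w * (‖s.rA k q w‖ ^ 2 / s.α k w))
          * √(8 * (s.α k v * (‖s.dB k q v‖ ^ 2 / s.G q v))) ≤ √(s.e2 w) * √(8 * s.e3 v) := by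
    have h1 := sum2_cs (fun k q => √(s.G q w * (‖s.rA k q w‖ ^ 2 / s.α k w))
          * √(8 * (s.α k v * (‖s.dB k q v‖ ^ 2 / s.G q v))))
      (fun k q => s.G q w * (‖s.rA k q w‖ ^ 2 / s.α k w))
      (fun k q => 8 * (s.α k v * (‖s.dB k q v‖ ^ 2 / s.G q v)))
      (fun k q => mul_nonneg (hs.G0 q w hw) (div_nonneg (sq_nonneg _) (hs.α0 k w hw)))
      (fun k q => by
        have h1 := hs.α0 k v hv
        have h2 := hs.G0 q v hv
        positivity)
      (fun k q => le_rfl)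
    have h2 := sum_rA_le hs hw
    have h3 : ∑ k, ∑ q, 8 * (s.α k v * (‖s.dB k q v‖ ^ 2 / s.G q v)) = 8 * s.e3 v := by
      unfold e3
      rw [Finset.mul_sum]
      exact Finset.sum_congr rfl fun k _ => (Finset.mul_sum _ _ _).symm
    rw [h3] at h1
    exact h1.trans (mul_le_mul_of_nonneg_right (Real.sqrt_le_sqrt h2) (Real.sqrt_nonneg _))
  have t6 : (∑ k, s.α k w) * (8 * s.eI v + 8 * s.lG w) ≤ 1 * (8 * s.eI v + 8 * s.lG w) := by
    apply mul_le_mul_of_nonneg_right (hs.αsum w hw)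
    have h1 := eI_nonneg hs hv
    have h2 := lG_nonneg hs hw
    positivity
  rw [t4, t3]
  linarith

end node

section tree
variable (hs : s.Ok n)
include hs

theorem S_gain1 (c : Bool) : S (n - 1) (s.gain1 c) [] ≤
    2 * (√(2 * S n s.e1 []) * √(S n s.e4 [])) + 5 * (√(S n s.e2 []) * √(S n s.e3 []))
    + 8 * S n s.lα [] + 8 * S n s.eI [] + 32 := by
  have e1n := S_e1_nonneg hs
  have e2n := S_e2_nonneg hs
  have e3n := S_e3_nonneg hs
  have e4n := S_e4_nonneg hs
  have eIn := S_eI_nonneg hs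
  have lαn : 0 ≤ S n s.lα [] := S_nonneg n _ fun w _ => lα_nonneg s w
  rcases n with _ | m
  · have : S (0 - 1) (s.gain1 c) [] = 0 := rfl
    rw [this]
    positivity
  have hlen : ∀ w : Node, w.length < m + ([] : Node).length → w.length < m + 1 :=
    fun w hw => by simp only [List.length_nil, add_zero] at hw; omega
  have hlen' : ∀ w : Node, w.length < m + ([] : Node).length → (c :: w).length < m + 1 :=
    fun w hw => by simp only [List.length_nil, add_zero] at hw; simp only [List.length_cons]; omega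
  have h1 := S_mono m (f := s.gain1 c)
    (g := fun v => √(s.e1 (c :: v)) * √(2 * s.e4 v) + (√(s.e2 v) * √(s.e3 v)
    + (4 * s.lα (c :: v) + (√(s.e2 (c :: v)) * √(8 * s.e3 v) + (8 * s.eI v
      + 8 * s.lG (c :: v)))))) []
    (fun w hw => by
      have := gain1_node hs (hlen w hw) c (hlen' w hw)
      linarith)
  rw [S_add, S_add, S_add, S_add, S_add, S_smul m 4, S_smul m 8, S_smul m 8] at h1
  have c0 : ∀ F : Node → ℝ, (∀ w : Node, w.length < m + 1 → 0 ≤ F w) →
      S m (fun v => F (c :: v)) [] ≤ 2 * S (m + 1) F [] := by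
    intro F hF
    exact S_child_le m [] (fun w hw => hF w (by simpa using hw)) c
  have c1 : ∀ F : Node → ℝ, (∀ w : Node, w.length < m + 1 → 0 ≤ F w) →
      S m F [] ≤ S (m + 1) F [] := by
    intro F hF
    exact S_le_succ m [] (fun w hw => hF w (by simpa using hw))
  have c2 : ∀ F : Node → ℝ, (∀ w : Node, w.length < m + 1 → 0 ≤ F w) →
      0 ≤ S m (fun v => F (c :: v)) [] := by
    intro F hF
    exact S_nonneg m [] (fun w hw => hF _ (hlen' w hw))
  have c3 : ∀ F : Node → ℝ, (∀ w : Node, w.length < m + 1 → 0 ≤ F w) → 0 ≤ S m F [] := by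
    intro F hF
    exact S_nonneg m [] (fun w hw => hF _ (hlen w hw))
  have n1 : ∀ w : Node, w.length < m + 1 → 0 ≤ s.e1 w := fun w hw => e1_nonneg hs hw
  have n2 : ∀ w : Node, w.length < m + 1 → 0 ≤ s.e2 w := fun w hw => e2_nonneg hs hw
  have n3 : ∀ w : Node, w.length < m + 1 → 0 ≤ s.e3 w := fun w hw => e3_nonneg hs hw
  have n4 : ∀ w : Node, w.length < m + 1 → 0 ≤ s.e4 w := fun w hw => e4_nonneg hs hw
  have nI : ∀ w : Node, w.length < m + 1 → 0 ≤ s.eI w := fun w hw => eI_nonneg hs hw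
  have nG : ∀ w : Node, w.length < m + 1 → 0 ≤ s.lG w := fun w hw => lG_nonneg hs hw
  have nα : ∀ w : Node, w.length < m + 1 → 0 ≤ s.lα w := fun w _ => lα_nonneg s w
  have p1 : S m (fun v => √(s.e1 (c :: v)) * √(2 * s.e4 v)) []
      ≤ 2 * (√(2 * S (m + 1) s.e1 []) * √(S (m + 1) s.e4 [])) / √2 * √2 / √2 * √2 := by
    have h2 := S_cs m (f := fun v => √(s.e1 (c :: v)) * √(2 * s.e4 v))
      (X := fun v => s.e1 (c :: v)) (Y := fun v => 2 * s.e4 v) []
      (fun w hw => n1 _ (hlen' w hw))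
      (fun w hw => by have := n4 _ (hlen w hw); positivity)
      (fun w _ => by positivity) (fun w _ => le_rfl)
    rw [S_smul] at h2
    have h3 : √(S m (fun v => s.e1 (c :: v)) []) * √(2 * S m s.e4 [])
        ≤ √(2 * S (m + 1) s.e1 []) * √(2 * S (m + 1) s.e4 []) := by
      have := c0 _ n1
      have := c1 _ n4
      gcongr
    have h4 : √(2 * S (m + 1) s.e4 []) = √2 * √(S (m + 1) s.e4 []) :=
      Real.sqrt_mul (by norm_num) _
    have h5 : √2 ≤ 2 := by
      rw [Real.sqrt_le_left (by norm_num)]; norm_num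
    have h6 : (0:ℝ) < √2 := by positivity
    have h7 : 2 * (√(2 * S (m + 1) s.e1 []) * √(S (m + 1) s.e4 [])) / √2 * √2 / √2 * √2
        = 2 * (√(2 * S (m + 1) s.e1 []) * √(S (m + 1) s.e4 [])) := by
      field_simp
    rw [h7]
    rw [h4] at h3
    have h8 : 0 ≤ √(2 * S (m + 1) s.e1 []) * √(S (m + 1) s.e4 []) := by positivity
    nlinarith
  have p1' : 2 * (√(2 * S (m + 1) s.e1 []) * √(S (m + 1) s.e4 [])) / √2 * √2 / √2 * √2
        = 2 * (√(2 * S (m + 1) s.e1 []) * √(S (m + 1) s.e4 [])) := by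
    have h6 : (0:ℝ) < √2 := by positivity
    field_simp
  rw [p1'] at p1
  have p2 : S m (fun v => √(s.e2 v) * √(s.e3 v)) []
      ≤ √(S (m + 1) s.e2 []) * √(S (m + 1) s.e3 []) := by
    have h2 := S_cs m (f := fun v => √(s.e2 v) * √(s.e3 v))
      (X := s.e2) (Y := s.e3) []
      (fun w hw => n2 _ (hlen w hw))
      (fun w hw => n3 _ (hlen w hw))
      (fun w _ => by positivity) (fun w _ => le_rfl)
    refine h2.trans ?_
    have := c1 _ n2
    have := c1 _ n3
    gcongr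
  have p3 : S m (fun v => √(s.e2 (c :: v)) * √(8 * s.e3 v)) []
      ≤ 4 * (√(S (m + 1) s.e2 []) * √(S (m + 1) s.e3 [])) := by
    have h2 := S_cs m (f := fun v => √(s.e2 (c :: v)) * √(8 * s.e3 v))
      (X := fun v => s.e2 (c :: v)) (Y := fun v => 8 * s.e3 v) []
      (fun w hw => n2 _ (hlen' w hw))
      (fun w hw => by have := n3 _ (hlen w hw); positivity)
      (fun w _ => by positivity) (fun w _ => le_rfl)
    rw [S_smul] at h2
    have h3 : √(S m (fun v => s.e2 (c :: v)) []) * √(8 * S m s.e3 [])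
        ≤ √(2 * S (m + 1) s.e2 []) * √(8 * S (m + 1) s.e3 []) := by
      have := c0 _ n2
      have := c1 _ n3
      gcongr
    have h4 : √(2 * S (m + 1) s.e2 []) * √(8 * S (m + 1) s.e3 [])
        = 4 * (√(S (m + 1) s.e2 []) * √(S (m + 1) s.e3 [])) := by
      rw [← Real.sqrt_mul (by positivity), ← Real.sqrt_mul (by positivity)]
      have : 2 * S (m + 1) s.e2 [] * (8 * S (m + 1) s.e3 [])
          = 4 ^ 2 * (S (m + 1) s.e2 [] * S (m + 1) s.e3 []) := by ring
      rw [this, Real.sqrt_mul (by norm_num), Real.sqrt_sq (by norm_num)]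
    linarith
  have p4 := c0 _ nα
  have p5 := c1 _ nI
  have p6 := c0 _ nG
  have p7 := S_lG hs
  have e : m + 1 - 1 = m := rfl
  rw [e]
  linarith

end tree

end ESys

/-- final arithmetic -/
theorem final_arith {h I m δ b E1 E2 E3 E4 EI L3 : ℝ} (hh : 0 ≤ h) (hI : 0 ≤ I) (hm : 0 ≤ m)
    (hδ : 0 ≤ δ) (hb : 0 ≤ b) (hE1n : 0 ≤ E1) (hE2n : 0 ≤ E2) (hE3n : 0 ≤ E3)
    (hE1 : E1 ≤ 2 * h) (hEI : EI ≤ I)
    (hE2 : E2 ≤ 8 + 4 * m + 4 * √(I * h) + 9 * I)
    (hL3 : L3 ≤ 8 + 4 * m + 4 * √(I * h) + 36 * h) (hE3 : E3 ≤ 2 * L3 + 2 * EI)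
    (hE4 : E4 ≤ 2 * b + 16 * δ + 8 * δ * m + 4 * δ * (√E2 * √E3) + 16 * δ ^ 2 * h + 16 * E2) :
    let W := √((1 + m + h + I) * (1 + m + I + √(I * h)))
    √E2 * √E3 ≤ 27 * W ∧ √(2 * E1) * √E4 ≤ 4 * √(h * b) + 26 * (δ * h) + 42 * W ∧
      1 + m + I ≤ W := by
  intro W
  set R := √(I * h) with hR
  have hR0 : 0 ≤ R := Real.sqrt_nonneg _
  have hRR : R ^ 2 = I * h := Real.sq_sqrt (by positivity)
  have hRle : 2 * R ≤ I + h := by
    have h1 : R ≤ (I + h) / 2 := by
      apply le_of_sq_le_sq _ (by positivity)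
      rw [hRR]; nlinarith [sq_nonneg (I - h)]
    linarith
  set X := 1 + m + h + I with hX
  set Y := 1 + m + I + R with hY
  have hX0 : 0 ≤ X := by positivity
  have hY0 : 0 ≤ Y := by positivity
  have hW0 : 0 ≤ W := Real.sqrt_nonneg _
  have hWW : W ^ 2 = X * Y := Real.sq_sqrt (by positivity)
  have hE2Y : E2 ≤ 9 * Y := by linarith
  have hE3X : E3 ≤ 76 * X := by linarith
  have w1 : √E2 * √E3 ≤ 27 * W := by
    rw [← Real.sqrt_mul hE2n]
    apply Real.sqrt_le_iff.mpr ⟨by positivity, ?_⟩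
    rw [mul_pow, hWW]
    have : E2 * E3 ≤ (9 * Y) * (76 * X) := by gcongr
    have h5 : 0 ≤ X * Y := mul_nonneg hX0 hY0
    have h6 : (9 * Y) * (76 * X) = 684 * (X * Y) := by ring
    linarith
  have w3 : 1 + m + I ≤ W := by
    apply Real.le_sqrt_of_sq_le
    have h1 : 1 + m + I ≤ X := by linarith
    have h2 : 1 + m + I ≤ Y := by linarith
    have h3 : 0 ≤ 1 + m + I := by positivity
    nlinarith
  refine ⟨w1, ?_, w3⟩
  have hbb : √(h * b) ^ 2 = h * b := Real.sq_sqrt (by positivity)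
  have hb0 : 0 ≤ √(h * b) := Real.sqrt_nonneg _
  have hhY : h * Y ≤ W ^ 2 := by
    rw [hWW]
    have : h ≤ X := by linarith
    gcongr
  -- bound of h * E4
  have q1 : h * E4 ≤ h * (2 * b + 16 * δ + 8 * δ * m + 4 * δ * (27 * W) + 16 * δ ^ 2 * h
      + 16 * (9 * Y)) := by
    apply mul_le_mul_of_nonneg_left _ hh
    have : 4 * δ * (√E2 * √E3) ≤ 4 * δ * (27 * W) := by gcongr
    linarith
  have q2 : δ * h * (16 + 8 * m) ≤ δ * h * (16 * W) := by
    apply mul_le_mul_of_nonneg_left _ (by positivity)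
    linarith
  have q3 : h * E4 ≤ 2 * (h * b) + 124 * (δ * h * W) + 16 * (δ * h) ^ 2 + 144 * W ^ 2 := by
    have e : h * (2 * b + 16 * δ + 8 * δ * m + 4 * δ * (27 * W) + 16 * δ ^ 2 * h + 16 * (9 * Y))
        = 2 * (h * b) + δ * h * (16 + 8 * m) + 108 * (δ * h * W) + 16 * (δ * h) ^ 2
          + 144 * (h * Y) := by ring
    rw [e] at q1
    linarith
  have q4 : h * E4 ≤ 2 * (h * b) + 78 * (δ * h) ^ 2 + 206 * W ^ 2 := by
    nlinarith [sq_nonneg (δ * h - W)]
  rcases le_or_gt E4 0 with h4 | h4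
  · have : √E4 = 0 := Real.sqrt_eq_zero'.mpr h4
    rw [this, mul_zero]
    positivity
  · rw [← Real.sqrt_mul (by positivity)]
    apply Real.sqrt_le_iff.mpr ⟨by positivity, ?_⟩
    have q5 : 2 * E1 * E4 ≤ 4 * (h * E4) := by
      have : E1 * E4 ≤ 2 * h * E4 := mul_le_mul_of_nonneg_right hE1 h4.le
      linarith
    have q6 : 2 * E1 * E4 ≤ 8 * (h * b) + 312 * (δ * h) ^ 2 + 824 * W ^ 2 := by linarith
    have q7 : (4 * √(h * b)) ^ 2 + (26 * (δ * h)) ^ 2 + (42 * W) ^ 2
        ≤ (4 * √(h * b) + 26 * (δ * h) + 42 * W) ^ 2 := by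
      have r1 : 0 ≤ √(h * b) * (δ * h) := by positivity
      have r2 : 0 ≤ √(h * b) * W := by positivity
      have r3 : 0 ≤ δ * h * W := by positivity
      have e : (4 * √(h * b) + 26 * (δ * h) + 42 * W) ^ 2 = (4 * √(h * b)) ^ 2
        + (26 * (δ * h)) ^ 2 + (42 * W) ^ 2 + 208 * (√(h * b) * (δ * h))
        + 336 * (√(h * b) * W) + 2184 * (δ * h * W) := by ring
      rw [e]
      linarith
    have q8 : (4 * √(h * b)) ^ 2 = 16 * (h * b) := by rw [mul_pow, hbb]; ring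
    have r4 : 0 ≤ h * b := by positivity
    have r5 : 0 ≤ (δ * h) ^ 2 := by positivity
    have r6 : 0 ≤ W ^ 2 := by positivity
    have r7 : (26 * (δ * h)) ^ 2 = 676 * (δ * h) ^ 2 := by ring
    have r8 : (42 * W) ^ 2 = 1764 * W ^ 2 := by ring
    linarith

/-- **Lemma E.** -/
theorem lemmaE : LemmaE := by
  refine ⟨260, by norm_num, ?_⟩
  intro K Q _ _ s n good _ h I m δ b hs hh hI hm hδ hb h1 h2 h3 hg hbad
  have h1' : S n s.e1 [] ≤ 2 * h := h1
  have h2' : S n s.eI [] ≤ I := h2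
  have h3' : S n s.lα [] ≤ m := h3
  have E2 := ESys.S_e2 hs hI h1' h2' h3'
  have E3' := ESys.S_e3' hs hh hI h1' h2' h3'
  have E3 := ESys.S_e3 hs
  have E4 := ESys.S_e4 hs hδ hh hb h1' h3' good hg hbad
  obtain ⟨w1, w2, w3⟩ := final_arith hh hI hm hδ hb (ESys.S_e1_nonneg hs) (ESys.S_e2_nonneg hs)
    (ESys.S_e3_nonneg hs) h1' h2' E2 E3' E3 E4
  have g0 := ESys.S_gain0 hs
  have e1n := ESys.S_e1_nonneg hs
  have r1 : 0 ≤ √(h * b) := Real.sqrt_nonneg _
  have r2 : 0 ≤ δ * h := by positivity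
  constructor
  · have h5 : √(S n s.e1 []) ≤ √(2 * S n s.e1 []) := Real.sqrt_le_sqrt (by linarith)
    have h6 : √(S n s.e1 []) * √(S n s.e4 []) ≤ √(2 * S n s.e1 []) * √(S n s.e4 []) :=
      mul_le_mul_of_nonneg_right h5 (Real.sqrt_nonneg _)
    linarith
  · intro c
    have g1 := ESys.S_gain1 hs c
    linarith

end Vale.Agent.P091.H413
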