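import Vale.Agent.P091.H413.Sys4

/-! Lemma E with a condition at the node only: `good k v` asks `‖μ_k‖ ≤ δ` and `‖τ_k‖ ≤ δ` at `v`
(nothing at the children). -/

namespace Vale.Agent.P091.H413

/-- The good node, threshold `δ` at least `‖μ‖ + ‖τ‖`. -/
theorem Pot_node_good2 {δ a0 a1 : ℝ} (hδ : 0 ≤ δ) (h0 : 0 ≤ a0) (h1 : 0 ≤ a1)
    {μ τ ρ κ z0 z1 : ℂ} (hμ : ‖μ‖ + ‖τ‖ ≤ δ)
    (e0 : z0 = (a0 : ℂ) * (μ + τ) + (ρ + κ)) (e1 : z1 = (a1 : ℂ) * (μ - τ) + (κ - ρ)) :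
    (a0 + a1) / 2 * ‖τ‖ ^ 2 ≤
      (Pot δ a0 z0 + Pot δ a1 z1) / 2 - Pot δ ((a0 + a1) / 2) ((((a0 + a1) / 2 : ℝ) : ℂ) * μ)
      + 2 * δ * (|(a0 - a1) / 2| * ‖τ‖) + 2 * δ * ‖κ‖ + 2 * (‖τ‖ * ‖ρ‖) := by
  have ha : 0 ≤ (a0 + a1) / 2 := by linarith
  have nτ := norm_nonneg τ
  have nμ := norm_nonneg μ
  have hμδ : ‖μ‖ ≤ δ := by linarith
  have w0 : ‖μ + τ‖ ≤ δ := (norm_add_le _ _).trans hμ
  have w1 : ‖μ - τ‖ ≤ δ := (norm_sub_le _ _).trans hμ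
  have q0 := Pot_ge hδ h0 w0 z0
  have q1 := Pot_ge hδ h1 w1 z1
  have i0 : ip (μ + τ) z0 = a0 * ‖μ + τ‖ ^ 2 + ip (μ + τ) (ρ + κ) := by
    rw [e0, ip_add, ip_smul, ip_self]
  have i1 : ip (μ - τ) z1 = a1 * ‖μ - τ‖ ^ 2 + ip (μ - τ) (κ - ρ) := by
    rw [e1, ip_add, ip_smul, ip_self]
  have hn : ‖(((a0 + a1) / 2 : ℝ) : ℂ) * μ‖ = (a0 + a1) / 2 * ‖μ‖ := by
    rw [norm_mul, Complex.norm_real, Real.norm_of_nonneg ha]
  have p : Pot δ ((a0 + a1) / 2) ((((a0 + a1) / 2 : ℝ) : ℂ) * μ) = (a0 + a1) / 2 * ‖μ‖ ^ 2 := by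
    unfold Pot
    rw [if_pos (by rw [hn]; nlinarith), hn]
    rcases eq_or_lt_of_le ha with h | h
    · rw [← h]; simp
    · field_simp
  rw [p]
  rw [i0] at q0
  rw [i1] at q1
  have i2 : ip (μ + τ) (ρ + κ) + ip (μ - τ) (κ - ρ) = 2 * ip μ κ + 2 * ip τ ρ := by
    unfold ip
    simp only [Complex.add_re, Complex.add_im, Complex.sub_re, Complex.sub_im]; ring
  have n0 : ‖μ + τ‖ ^ 2 = ‖μ‖ ^ 2 + 2 * ip μ τ + ‖τ‖ ^ 2 := by
    simp only [Complex.sq_norm, Complex.normSq_apply, Complex.add_re, Complex.add_im, ip]; ring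
  have n1 : ‖μ - τ‖ ^ 2 = ‖μ‖ ^ 2 - 2 * ip μ τ + ‖τ‖ ^ 2 := by
    simp only [Complex.sq_norm, Complex.normSq_apply, Complex.sub_re, Complex.sub_im, ip]; ring
  rw [n0] at q0
  rw [n1] at q1
  have b1 : -(2 * δ * (|(a0 - a1) / 2| * ‖τ‖)) ≤ 2 * ((a0 - a1) / 2 * ip μ τ) := by
    have h3 := neg_abs_le ((a0 - a1) / 2 * ip μ τ)
    rw [abs_mul] at h3
    have h4 := ip_abs μ τ
    have h5 : ‖μ‖ * ‖τ‖ ≤ δ * ‖τ‖ := by gcongr
    have h6 : |(a0 - a1) / 2| * |ip μ τ| ≤ |(a0 - a1) / 2| * (δ * ‖τ‖) := by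
      gcongr; exact h4.trans h5
    linarith
  have b2 : -(δ * ‖κ‖) ≤ ip μ κ := by
    have h3 := neg_ip_le μ κ
    have h5 : ‖μ‖ * ‖κ‖ ≤ δ * ‖κ‖ := by gcongr
    linarith
  have b3 := neg_ip_le τ ρ
  linarith

variable {K Q : Type} [Fintype K] [Fintype Q]

namespace ESys
variable {s : ESys K Q} {n : ℕ} {v : Node} {δ : ℝ}

theorem e4_node2 (hs : s.Ok n) (hv : v.length < n) (hδ : 0 ≤ δ) (good : K → Node → Prop)
    [∀ k v, Decidable (good k v)]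
    (hg : ∀ k, good k v → ‖s.z k v‖ + s.α k v * ‖s.τ k v‖ ≤ δ * s.α k v) :
    s.e4 v ≤ (s.Φ4' δ (true :: v) + s.Φ4' δ (false :: v)) / 2 - s.Φ4 δ v
      + ((∑ k, if good k v then 0 else s.α k v * ‖s.τ k v‖ ^ 2)
        + (2 * δ * (∑ k, |s.dα k v| * ‖s.τ k v‖)
        + (2 * δ * (∑ k, ‖s.κ k v‖) + 2 * ∑ k, ‖s.τ k v‖ * ‖s.ρ k v‖))) := by
  have key : ∀ k, s.α k v * ‖s.τ k v‖ ^ 2 ≤
      (Pot δ (s.α' k (true :: v)) (s.z' k (true :: v))
        + Pot δ (s.α' k (false :: v)) (s.z' k (false :: v))) / 2 - Pot δ (s.α k v) (s.z k v)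
      + ((if good k v then 0 else s.α k v * ‖s.τ k v‖ ^ 2)
        + (2 * δ * (|s.dα k v| * ‖s.τ k v‖)
        + (2 * δ * ‖s.κ k v‖ + 2 * (‖s.τ k v‖ * ‖s.ρ k v‖)))) := by
    intro k
    have a0 := a0c hs hv k true
    have a1 := a0c hs hv k false
    have bad : 0 ≤ (Pot δ (s.α' k (true :: v)) (s.z' k (true :: v))
        + Pot δ (s.α' k (false :: v)) (s.z' k (false :: v))) / 2 - Pot δ (s.α k v) (s.z k v)
        + 2 * δ * (|s.dα k v| * ‖s.τ k v‖ + ‖s.κ k v‖) := by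
      have := Pot_node_bad hδ a0 a1 (s.z k v) (s.z' k (true :: v)) (s.z' k (false :: v))
      rw [← hs.αm k v hv] at this
      have e : (s.z' k (true :: v) + s.z' k (false :: v)) / 2 - s.z k v
          = (s.dα k v : ℂ) * s.τ k v + s.κ k v := by
        rw [z'_true hs hv, z'_false hs hv, z_eq hs hv, hs.αm k v hv]
        unfold dα
        push_cast
        ring
      have e2 : ‖(s.z' k (true :: v) + s.z' k (false :: v)) / 2 - s.z k v‖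
          ≤ |s.dα k v| * ‖s.τ k v‖ + ‖s.κ k v‖ := by
        rw [e]
        refine (norm_add_le _ _).trans ?_
        rw [norm_mul, Complex.norm_real, Real.norm_eq_abs]
      have e3 : 2 * δ * ‖(s.z' k (true :: v) + s.z' k (false :: v)) / 2 - s.z k v‖
          ≤ 2 * δ * (|s.dα k v| * ‖s.τ k v‖ + ‖s.κ k v‖) := by gcongr
      linarith
    have e4 : 0 ≤ 2 * (‖s.τ k v‖ * ‖s.ρ k v‖) := by positivity
    by_cases hgk : good k v
    · have g := hg k hgk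
      rw [if_pos hgk]
      have hz := z_eq hs hv k
      have hα := hs.αm k v hv
      rcases eq_or_lt_of_le (hs.α0 k v hv) with h | h
      · rw [← h] at bad ⊢
        linarith
      · have hμ : ‖s.μ k v‖ + ‖s.τ k v‖ ≤ δ := by
          rw [hz, norm_mul, Complex.norm_real, Real.norm_of_nonneg h.le, mul_comm δ,
            ← mul_add] at g
          exact le_of_mul_le_mul_left g h
        have := Pot_node_good2 hδ a0 a1 hμ (z'_true hs hv k) (z'_false hs hv k)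
        rw [← hα, ← hz] at this
        have e : |(s.α' k (true :: v) - s.α' k (false :: v)) / 2| = |s.dα k v| := rfl
        rw [e] at this
        linarith
    · rw [if_neg hgk]
      linarith
  unfold e4
  refine (Finset.sum_le_sum (fun k _ => key k)).trans (le_of_eq ?_)
  unfold Φ4 Φ4'
  rw [← Finset.sum_add_distrib, Finset.sum_div, ← Finset.sum_sub_distrib, Finset.mul_sum,
    Finset.mul_sum, Finset.mul_sum, ← Finset.sum_add_distrib, ← Finset.sum_add_distrib,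
    ← Finset.sum_add_distrib, ← Finset.sum_add_distrib]

/-- **e4**, condition at the node only -/
theorem S_e4_2 (hs : s.Ok n) {h m b : ℝ} (hδ : 0 ≤ δ) (hh : 0 ≤ h) (hb : 0 ≤ b)
    (h1 : S n s.e1 [] ≤ 2 * h)
    (hm : S n s.lα [] ≤ m) (good : K → Node → Prop) [∀ k v, Decidable (good k v)]
    (hg : ∀ k v, v.length < n → good k v → ‖s.z k v‖ + s.α k v * ‖s.τ k v‖ ≤ δ * s.α k v)
    (hbad : S n (fun v => ∑ k, if good k v then 0 else s.α k v * ‖s.τ k v‖ ^ 2) [] ≤ b) :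
    S n s.e4 [] ≤ 2 * b + 16 * δ + 8 * δ * m + 4 * δ * (√(S n s.e2 []) * √(S n s.e3 []))
      + 16 * δ ^ 2 * h + 16 * S n s.e2 [] := by
  have e2n := S_e2_nonneg hs
  have e4n := S_e4_nonneg hs
  rcases Nat.eq_zero_or_pos n with hn | hn
  · subst hn
    have hm0 : 0 ≤ m := by simpa [S] using hm
    have : S 0 s.e4 [] = 0 := rfl
    rw [this]
    positivity
  have h2 := S_tele2 n (f := s.e4) (Φ := s.Φ4 δ) (Φ' := s.Φ4' δ) (c := 4 * δ)
    (g := fun v => ((∑ k, if good k v then 0 else s.α k v * ‖s.τ k v‖ ^ 2)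
        + (2 * δ * (∑ k, |s.dα k v| * ‖s.τ k v‖)
        + (2 * δ * (∑ k, ‖s.κ k v‖) + 2 * ∑ k, ‖s.τ k v‖ * ‖s.ρ k v‖))))
    (ℓ := fun v => 2 * δ * s.lG v + 2 * (2 * δ) * s.lα v) (by positivity) []
    (fun w hw => e4_node2 hs (lt_of_lt hs w hw) hδ good (fun k => hg k w (lt_of_lt hs w hw)))
    (fun w _ hw => Φ4_loss hs (lt_of_lt hs w hw) hδ)
    (fun w hw => by
      have := lG_nonneg hs (lt_of_lt hs w hw); have := lα_nonneg s w; positivity)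
    (Φ4_nonneg hs (by simpa using hn) hδ)
    (fun w hw => Φ4'_le hs hδ (by simpa using hw))
  rw [S_loss, S_add, S_add, S_add, S_smul, S_smul, S_smul] at h2
  have h3 := S_dατ hs
  have h4 := S_κ hs
  have h5 := S_τρ hs
  have h6 := S_lG hs
  have h7 : √(S n s.e1 []) * √(S n s.e4 []) ≤ √(2 * h) * √(S n s.e4 []) := by gcongr
  set E := S n s.e4 [] with hE
  set E2 := S n s.e2 [] with hE2
  set W := √E2 * √(S n s.e3 []) with hW
  have i1 : 2 * δ * S n s.lG [] ≤ 2 * δ * 2 := by gcongr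
  have i2 : 2 * (2 * δ) * S n s.lα [] ≤ 2 * (2 * δ) * m := by gcongr
  have i3 : 2 * δ * S n (fun v => ∑ k, |s.dα k v| * ‖s.τ k v‖) []
      ≤ 2 * δ * (√(2 * h) * √E) := by
    apply mul_le_mul_of_nonneg_left (h3.trans h7) (by positivity)
  have i4 : 2 * δ * S n (fun v => ∑ k, ‖s.κ k v‖) [] ≤ 2 * δ * W := by gcongr
  have i5 : √E ^ 2 ≤ (b + 8 * δ + 4 * δ * m + 2 * δ * W)
      + (2 * δ * √(2 * h) + 2 * √(2 * E2)) * √E := by
    rw [Real.sq_sqrt e4n]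
    linarith
  have i6 := quad_bound hs i5
  rw [Real.sq_sqrt e4n] at i6
  have i7 : (2 * δ * √(2 * h) + 2 * √(2 * E2)) ^ 2 ≤ 16 * δ ^ 2 * h + 16 * E2 := by
    have j1 : √(2 * h) ^ 2 = 2 * h := Real.sq_sqrt (by positivity)
    have j2 : √(2 * E2) ^ 2 = 2 * E2 := Real.sq_sqrt (by positivity)
    nlinarith [sq_nonneg (2 * δ * √(2 * h) - 2 * √(2 * E2))]
  linarith

end ESys

/-- **Lemma E, node form.**  Same as `LemmaE`, but `good k v` is a condition at the node `v` only: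
`‖μ_k(v)‖ + ‖τ_k(v)‖ ≤ δ`. -/
theorem lemmaE_node : ∃ C : ℝ, 0 < C ∧ ∀ (K Q : Type) [Fintype K] [Fintype Q] (s : ESys K Q)
    (n : ℕ) (good : K → Node → Prop) [∀ k v, Decidable (good k v)] (h I m δ b : ℝ),
    s.Ok n → 0 ≤ h → 0 ≤ I → 0 ≤ m → 0 ≤ δ → 0 ≤ b →
    S n (fun v => ∑ k, s.dα k v ^ 2 / s.α k v) [] ≤ 2 * h →
    S n (fun v => ∑ q, s.dG q v ^ 2 / s.G q v) [] ≤ I →
    S n (fun v => ∑ k, max (s.α' k v - s.α k v) 0) [] ≤ m →
    (∀ k v, v.length < n → good k v → ‖s.z k v‖ + s.α k v * ‖s.τ k v‖ ≤ δ * s.α k v) →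
    S n (fun v => ∑ k, if good k v then 0 else s.α k v * ‖s.τ k v‖ ^ 2) [] ≤ b →
    (S n s.gain0 [] ≤ C * (δ * h + √((1 + m + h + I) * (1 + m + I + √(I * h))) + √(h * b))) ∧
    (∀ c : Bool, S (n - 1) (s.gain1 c) [] ≤
      C * (δ * h + √((1 + m + h + I) * (1 + m + I + √(I * h))) + √(h * b))) := by
  refine ⟨260, by norm_num, ?_⟩
  intro K Q _ _ s n good _ h I m δ b hs hh hI hm hδ hb h1 h2 h3 hg hbad
  have h1' : S n s.e1 [] ≤ 2 * h := h1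
  have h2' : S n s.eI [] ≤ I := h2
  have h3' : S n s.lα [] ≤ m := h3
  have E2 := ESys.S_e2 hs hI h1' h2' h3'
  have E3' := ESys.S_e3' hs hh hI h1' h2' h3'
  have E3 := ESys.S_e3 hs
  have E4 := ESys.S_e4_2 hs hδ hh hb h1' h3' good hg hbad
  obtain ⟨w1, w2, w3⟩ := final_arith hh hI hm hδ hb (ESys.S_e1_nonneg hs) (ESys.S_e2_nonneg hs)
    (ESys.S_e3_nonneg hs) h1' h2' E2 E3' E3 E4
  have g0 := ESys.S_gain0 hs
  have e1n := ESys.S_e1_nonneg hs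
  have r1 : 0 ≤ √(h * b) := Real.sqrt_nonneg _
  have r2 : 0 ≤ δ * h := by positivity
  constructor
  · have h5 : √(S n s.e1 []) ≤ √(2 * S n s.e1 []) := Real.sqrt_le_sqrt (by linarith)
    have h6 : √(S n s.e1 []) * √(S n s.e4 []) ≤ √(2 * S n s.e1 []) * √(S n s.e4 []) :=
      mul_le_mul_of_nonneg_right h5 (Real.sqrt_nonneg _)
    linarith
  · intro c
    have g1 := ESys.S_gain1 hs c
    linarith

end Vale.Agent.P091.H413
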