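import Vale.Agent.P091.H413.Sys5

/-! Lemma E, departure form (quadratic potential, idea of helper916): `good k v` asks
`‖μ_k‖ ≤ δ` on departure only. -/

namespace Vale.Agent.P091.H413

variable {K Q : Type} [Fintype K] [Fintype Q]

namespace ESys

/-- quadratic potential -/
noncomputable def Φ5 (s : ESys K Q) (v : Node) : ℝ := ∑ k, ‖s.z k v‖ ^ 2 / s.α k v
noncomputable def Φ5' (s : ESys K Q) (v : Node) : ℝ := ∑ k, ‖s.z' k v‖ ^ 2 / s.α' k v

variable {s : ESys K Q} {n : ℕ} {v : Node} {δ : ℝ}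

theorem norm_z_le (hs : s.Ok n) (hv : v.length < n) (k : K) : ‖s.z k v‖ ≤ 2 * s.α k v := by
  unfold z
  refine (norm_sum_le _ _).trans ?_
  have h2 : ∑ q, ‖s.A k q v * s.B k q v‖ ≤ ∑ q, s.α k v * s.G q v := by
    apply Finset.sum_le_sum; intro q _
    rw [norm_mul]
    exact mul_le_mul (hs.A1 k q v hv) (hs.B1 k q v hv) (norm_nonneg _) (hs.α0 k v hv)
  refine h2.trans ?_
  rw [← Finset.mul_sum]
  have := mul_le_mul_of_nonneg_left (hs.Gsum v hv) (hs.α0 k v hv)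
  linarith

theorem norm_z'_le (hs : s.Ok n) (hv : v.length ≤ n) (k : K) : ‖s.z' k v‖ ≤ 2 * s.α' k v := by
  unfold z'
  refine (norm_sum_le _ _).trans ?_
  have h2 : ∑ q, ‖s.A' k q v * s.B' k q v‖ ≤ ∑ q, s.α' k v * s.G' q v := by
    apply Finset.sum_le_sum; intro q _
    rw [norm_mul]
    exact mul_le_mul (hs.A1' k q v hv) (hs.B1' k q v hv) (norm_nonneg _) (hs.α0' k v hv)
  refine h2.trans ?_
  rw [← Finset.mul_sum]
  have := mul_le_mul_of_nonneg_left (hs.Gsum' v hv) (hs.α0' k v hv)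
  linarith

theorem norm_μ_le (hs : s.Ok n) (hv : v.length < n) (k : K) : ‖s.μ k v‖ ≤ 2 := by
  unfold μ
  refine (norm_sum_le _ _).trans ?_
  refine le_trans (Finset.sum_le_sum (fun q _ => ?_)) (hs.Gsum v hv)
  rw [norm_mul]
  have h1 := norm_sig_le (hs.α0 k v hv) (hs.A1 k q v hv)
  have h2 := hs.B1 k q v hv
  have h3 := norm_nonneg (s.B k q v)
  nlinarith

theorem Φ5_nonneg (hs : s.Ok n) (hv : v.length < n) : 0 ≤ s.Φ5 v :=
  Finset.sum_nonneg fun k _ => div_nonneg (sq_nonneg _) (hs.α0 k v hv)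

theorem Φ5'_le (hs : s.Ok n) (hv : v.length ≤ n) : s.Φ5' v ≤ 4 := by
  have h1 : s.Φ5' v ≤ ∑ k, 4 * s.α' k v := by
    apply Finset.sum_le_sum; intro k _
    have h0 := hs.α0' k v hv
    have h2 := norm_z'_le hs hv k
    have h3 := norm_nonneg (s.z' k v)
    apply div_le_of_le_mul₀ h0 (by positivity)
    nlinarith
  rw [← Finset.mul_sum] at h1
  have := hs.αsum' v hv
  linarith

/-- change of the numerator at a modification -/
theorem norm_z'_sub_le (hs : s.Ok n) (hv : v.length < n) (k : K) (h : s.α' k v ≠ 0) :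
    ‖s.z' k v - s.z k v‖ ≤ s.α' k v * s.lG v + 2 * (s.α' k v - s.α k v) := by
  obtain ⟨hA, hα, hB⟩ := (hs.xr k v hv).resolve_left h
  unfold z z'
  rw [← Finset.sum_sub_distrib]
  refine (norm_sum_le _ _).trans ?_
  have h3 : ∑ q, ‖s.A' k q v * s.B' k q v - s.A k q v * s.B k q v‖
      ≤ ∑ q, (s.α' k v * (s.G' q v - s.G q v) + s.G q v * (s.α' k v - s.α k v)) := by
    apply Finset.sum_le_sum; intro q _
    have e : s.A' k q v * s.B' k q v - s.A k q v * s.B k q v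
        = s.A' k q v * (s.B' k q v - s.B k q v) + (s.A' k q v - s.A k q v) * s.B k q v := by
      ring
    rw [e]
    refine (norm_add_le _ _).trans ?_
    rw [norm_mul, norm_mul]
    have a1 := hs.A1' k q v hv.le
    have a2 := hB q
    have a3 := hA q
    have a4 := hs.B1 k q v hv
    have a5 : 0 ≤ s.α' k v := hs.α0' k v hv.le
    have b1 : ‖s.A' k q v‖ * ‖s.B' k q v - s.B k q v‖ ≤ s.α' k v * (s.G' q v - s.G q v) := by
      gcongr
    have b2 : ‖s.A' k q v - s.A k q v‖ * ‖s.B k q v‖ ≤ (s.α' k v - s.α k v) * s.G q v := by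
      apply mul_le_mul a3 a4 (norm_nonneg _) (by linarith)
    linarith
  refine h3.trans ?_
  rw [Finset.sum_add_distrib, ← Finset.mul_sum, ← Finset.sum_mul]
  have h4 : (∑ q, s.G q v) * (s.α' k v - s.α k v) ≤ 2 * (s.α' k v - s.α k v) :=
    mul_le_mul_of_nonneg_right (hs.Gsum v hv) (sub_nonneg.mpr hα)
  have e : ∑ q, (s.G' q v - s.G q v) = s.lG v := rfl
  rw [e]
  linarith

/-- loss of `Φ5` -/
theorem Φ5_loss (hs : s.Ok n) (hv : v.length < n) :
    s.Φ5' v - s.Φ5 v ≤ 4 * s.lG v + 2 * 4 * s.lα v := by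
  have key : ∀ k, ‖s.z' k v‖ ^ 2 / s.α' k v - ‖s.z k v‖ ^ 2 / s.α k v
      ≤ 4 * (s.α' k v * s.lG v + 2 * max (s.α' k v - s.α k v) 0) := by
    intro k
    have hα0 := hs.α0 k v hv
    have hα0' := hs.α0' k v hv.le
    have hlG := lG_nonneg hs hv
    by_cases h : s.α' k v = 0
    · rw [h, div_zero]
      have h1 : 0 ≤ ‖s.z k v‖ ^ 2 / s.α k v := by positivity
      have h2 : 0 ≤ max (0 - s.α k v) 0 := le_max_right _ _
      linarith
    · have hD := norm_z'_sub_le hs hv k h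
      obtain ⟨-, hα, -⟩ := (hs.xr k v hv).resolve_left h
      have hpos : 0 < s.α' k v := lt_of_le_of_ne hα0' (Ne.symm h)
      have hz := norm_z_le hs hv k
      have hz' := norm_z'_le hs hv.le k
      have hm : s.α' k v - s.α k v ≤ max (s.α' k v - s.α k v) 0 := le_max_left _ _
      have hn := norm_nonneg (s.z' k v)
      have hn2 := norm_nonneg (s.z k v)
      have hsub : ‖s.z' k v‖ ≤ ‖s.z k v‖ + ‖s.z' k v - s.z k v‖ := by
        have := norm_add_le (s.z k v) (s.z' k v - s.z k v)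
        rwa [add_sub_cancel] at this
      have h1 : ‖s.z' k v‖ ^ 2 / s.α' k v - ‖s.z k v‖ ^ 2 / s.α k v
          ≤ 4 * ‖s.z' k v - s.z k v‖ := by
        rcases eq_or_lt_of_le hα0 with h0 | h0
        · have hz0 : ‖s.z k v‖ = 0 := le_antisymm (by rw [← h0] at hz; simpa using hz) hn2
          rw [← h0, div_zero, sub_zero]
          rw [hz0, zero_add] at hsub
          rw [div_le_iff₀ hpos]
          nlinarith
        · have h2 : ‖s.z k v‖ ^ 2 / s.α' k v ≤ ‖s.z k v‖ ^ 2 / s.α k v :=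
            div_le_div_of_nonneg_left (by positivity) h0 hα
          have h3 : ‖s.z' k v‖ ^ 2 / s.α' k v - ‖s.z k v‖ ^ 2 / s.α' k v
              ≤ 4 * ‖s.z' k v - s.z k v‖ := by
            rw [← sub_div, div_le_iff₀ hpos]
            have h4 : ‖s.z' k v‖ + ‖s.z k v‖ ≤ 4 * s.α' k v := by linarith
            have h5 : ‖s.z' k v‖ ^ 2 - ‖s.z k v‖ ^ 2
                = (‖s.z' k v‖ - ‖s.z k v‖) * (‖s.z' k v‖ + ‖s.z k v‖) := by ring
            rw [h5]
            have h6 : ‖s.z' k v‖ - ‖s.z k v‖ ≤ ‖s.z' k v - s.z k v‖ := by linarith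
            calc (‖s.z' k v‖ - ‖s.z k v‖) * (‖s.z' k v‖ + ‖s.z k v‖)
                ≤ ‖s.z' k v - s.z k v‖ * (‖s.z' k v‖ + ‖s.z k v‖) :=
                  mul_le_mul_of_nonneg_right h6 (by positivity)
              _ ≤ ‖s.z' k v - s.z k v‖ * (4 * s.α' k v) :=
                  mul_le_mul_of_nonneg_left h4 (norm_nonneg _)
              _ = _ := by ring
          linarith
      linarith
  unfold Φ5' Φ5
  rw [← Finset.sum_sub_distrib]
  refine (Finset.sum_le_sum (fun k _ => key k)).trans ?_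
  rw [← Finset.mul_sum, Finset.sum_add_distrib, ← Finset.sum_mul, ← Finset.mul_sum]
  have h4 : (∑ k, s.α' k v) * s.lG v ≤ 1 * s.lG v :=
    mul_le_mul_of_nonneg_right (hs.αsum' v hv.le) (lG_nonneg hs hv)
  have e : ∑ k, max (s.α' k v - s.α k v) 0 = s.lα v := rfl
  rw [e]
  linarith

/-- node inequality for the quadratic potential -/
theorem e4_node3 (hs : s.Ok n) (hv : v.length < n) (hδ : 0 ≤ δ) (good : K → Node → Prop)
    [∀ k v, Decidable (good k v)]
    (hg : ∀ k, good k v → ‖s.z k v‖ ≤ δ * s.α k v) :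
    s.e4 v ≤ (s.Φ5' (true :: v) + s.Φ5' (false :: v)) / 2 - s.Φ5 v
      + ((2 * δ * (∑ k, |s.dα k v| * ‖s.τ k v‖)
        + 4 * (∑ k, if good k v then 0 else |s.dα k v| * ‖s.τ k v‖))
        + (4 * (∑ k, ‖s.κ k v‖) + 2 * ∑ k, ‖s.τ k v‖ * ‖s.ρ k v‖)) := by
  have key : ∀ k, s.α k v * ‖s.τ k v‖ ^ 2 ≤
      (‖s.z' k (true :: v)‖ ^ 2 / s.α' k (true :: v)
        + ‖s.z' k (false :: v)‖ ^ 2 / s.α' k (false :: v)) / 2 - ‖s.z k v‖ ^ 2 / s.α k v
      + ((2 * δ * (|s.dα k v| * ‖s.τ k v‖)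
        + 4 * (if good k v then 0 else |s.dα k v| * ‖s.τ k v‖))
        + (4 * ‖s.κ k v‖ + 2 * (‖s.τ k v‖ * ‖s.ρ k v‖))) := by
    intro k
    have a0 := a0c hs hv k true
    have a1 := a0c hs hv k false
    have hα := hs.αm k v hv
    have hα0 := hs.α0 k v hv
    have hz0 : s.α' k (true :: v) = 0 → s.z' k (true :: v) = 0 := fun h => by
      have := norm_z'_le hs (lt_len hs hv true) k
      rw [h, mul_zero] at this
      exact norm_le_zero_iff.mp this
    have hz1 : s.α' k (false :: v) = 0 → s.z' k (false :: v) = 0 := fun h => by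
      have := norm_z'_le hs (lt_len hs hv false) k
      rw [h, mul_zero] at this
      exact norm_le_zero_iff.mp this
    have q0 := sq_div_ge a0 (z'_true hs hv k) hz0
    have q1 := sq_div_ge a1 (z'_false hs hv k) hz1
    have p : ‖s.z k v‖ ^ 2 / s.α k v = s.α k v * ‖s.μ k v‖ ^ 2 := by
      rw [z_eq hs hv, norm_mul, Complex.norm_real, Real.norm_of_nonneg hα0]
      rcases eq_or_lt_of_le hα0 with h | h
      · rw [← h]; simp
      · field_simp
    have i0 : ip (s.μ k v + s.τ k v) (s.ρ k v + s.κ k v)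
        + ip (s.μ k v - s.τ k v) (s.κ k v - s.ρ k v)
        = 2 * ip (s.μ k v) (s.κ k v) + 2 * ip (s.τ k v) (s.ρ k v) := by
      unfold ip
      simp only [Complex.add_re, Complex.add_im, Complex.sub_re, Complex.sub_im]; ring
    have n0 : ‖s.μ k v + s.τ k v‖ ^ 2 = ‖s.μ k v‖ ^ 2 + 2 * ip (s.μ k v) (s.τ k v)
        + ‖s.τ k v‖ ^ 2 := by
      simp only [Complex.sq_norm, Complex.normSq_apply, Complex.add_re, Complex.add_im, ip]; ring
    have n1 : ‖s.μ k v - s.τ k v‖ ^ 2 = ‖s.μ k v‖ ^ 2 - 2 * ip (s.μ k v) (s.τ k v)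
        + ‖s.τ k v‖ ^ 2 := by
      simp only [Complex.sq_norm, Complex.normSq_apply, Complex.sub_re, Complex.sub_im, ip]; ring
    rw [n0] at q0
    rw [n1] at q1
    rw [p]
    have b3 := neg_ip_le (s.τ k v) (s.ρ k v)
    have hμ2 := norm_μ_le hs hv k
    have hκ0 := norm_nonneg (s.κ k v)
    have hτ0 := norm_nonneg (s.τ k v)
    have b2 : -(2 * ‖s.κ k v‖) ≤ ip (s.μ k v) (s.κ k v) := by
      have h3 := neg_ip_le (s.μ k v) (s.κ k v)
      have h5 : ‖s.μ k v‖ * ‖s.κ k v‖ ≤ 2 * ‖s.κ k v‖ := by gcongr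
      linarith
    have edα : s.dα k v = (s.α' k (true :: v) - s.α' k (false :: v)) / 2 := rfl
    have b0 : -(‖s.μ k v‖ * (|s.dα k v| * ‖s.τ k v‖)) ≤ s.dα k v * ip (s.μ k v) (s.τ k v) := by
      have h3 := neg_abs_le (s.dα k v * ip (s.μ k v) (s.τ k v))
      rw [abs_mul] at h3
      have h4 := ip_abs (s.μ k v) (s.τ k v)
      have h6 : |s.dα k v| * |ip (s.μ k v) (s.τ k v)| ≤ |s.dα k v| * (‖s.μ k v‖ * ‖s.τ k v‖) := by
        gcongr
      linarith
    have hdτ : 0 ≤ |s.dα k v| * ‖s.τ k v‖ := by positivity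
    have b1 : -(2 * δ * (|s.dα k v| * ‖s.τ k v‖)
        + 4 * (if good k v then 0 else |s.dα k v| * ‖s.τ k v‖))
        ≤ 2 * (s.dα k v * ip (s.μ k v) (s.τ k v)) := by
      by_cases hgk : good k v
      · rw [if_pos hgk]
        rcases eq_or_lt_of_le hα0 with h | h
        · have : |s.dα k v| = 0 :=
            le_antisymm (by rw [h]; exact abs_dα_le hs hv k) (abs_nonneg _)
          have h2 : s.dα k v = 0 := abs_eq_zero.mp this
          rw [this, h2]; simp
        · have g := hg k hgk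
          have hμ : ‖s.μ k v‖ ≤ δ := by
            rw [z_eq hs hv, norm_mul, Complex.norm_real, Real.norm_of_nonneg h.le,
              mul_comm δ] at g
            exact le_of_mul_le_mul_left g h
          have : ‖s.μ k v‖ * (|s.dα k v| * ‖s.τ k v‖) ≤ δ * (|s.dα k v| * ‖s.τ k v‖) := by
            gcongr
          linarith
      · rw [if_neg hgk]
        have : ‖s.μ k v‖ * (|s.dα k v| * ‖s.τ k v‖) ≤ 2 * (|s.dα k v| * ‖s.τ k v‖) := by
          gcongr
        have h2 : 0 ≤ 2 * δ * (|s.dα k v| * ‖s.τ k v‖) := by positivity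
        linarith
    rw [edα] at b1
    rw [hα]
    rw [← edα] at b1
    have e : s.α' k (true :: v) = (s.α' k (true :: v) + s.α' k (false :: v)) / 2 + s.dα k v := by
      rw [edα]; ring
    have e' : s.α' k (false :: v) = (s.α' k (true :: v) + s.α' k (false :: v)) / 2 - s.dα k v := by
      rw [edα]; ring
    have f0 : s.α' k (true :: v) * (‖s.μ k v‖ ^ 2 + 2 * ip (s.μ k v) (s.τ k v) + ‖s.τ k v‖ ^ 2)
        + s.α' k (false :: v) * (‖s.μ k v‖ ^ 2 - 2 * ip (s.μ k v) (s.τ k v) + ‖s.τ k v‖ ^ 2)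
        = 2 * ((s.α' k (true :: v) + s.α' k (false :: v)) / 2) * (‖s.μ k v‖ ^ 2 + ‖s.τ k v‖ ^ 2)
          + 4 * (s.dα k v * ip (s.μ k v) (s.τ k v)) := by
      rw [edα]; ring
    linarith
  unfold e4
  refine (Finset.sum_le_sum (fun k _ => key k)).trans (le_of_eq ?_)
  unfold Φ5 Φ5'
  rw [← Finset.sum_add_distrib, Finset.sum_div, ← Finset.sum_sub_distrib, Finset.mul_sum,
    Finset.mul_sum, Finset.mul_sum, Finset.mul_sum, ← Finset.sum_add_distrib,
    ← Finset.sum_add_distrib, ← Finset.sum_add_distrib, ← Finset.sum_add_distrib]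

/-- bad part of the cross term -/
theorem sum_dατ_bad (hs : s.Ok n) (hv : v.length < n) (good : K → Node → Prop)
    [∀ k v, Decidable (good k v)] :
    (∑ k, if good k v then 0 else |s.dα k v| * ‖s.τ k v‖)
      ≤ √(s.e1 v) * √(∑ k, if good k v then 0 else s.α k v * ‖s.τ k v‖ ^ 2) := by
  have h : ∀ k, (if good k v then 0 else |s.dα k v| * ‖s.τ k v‖)
      ≤ √(s.dα k v ^ 2 / s.α k v) * √(if good k v then 0 else s.α k v * ‖s.τ k v‖ ^ 2) := by
    intro k
    have hα := hs.α0 k v hv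
    by_cases hgk : good k v
    · rw [if_pos hgk, if_pos hgk]; simp
    · rw [if_neg hgk, if_neg hgk]
      apply le_sqrt_mul_sqrt (by positivity)
      rcases eq_or_lt_of_le hα with h | h
      · have : |s.dα k v| = 0 :=
          le_antisymm (by rw [h]; exact abs_dα_le hs hv k) (abs_nonneg _)
        rw [this, ← h]; simp
      · rw [mul_pow, sq_abs]
        apply le_of_eq
        field_simp
  refine (Finset.sum_le_sum (fun k _ => h k)).trans ?_
  exact Real.sum_sqrt_mul_sqrt_le _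
    (fun k => div_nonneg (sq_nonneg _) (hs.α0 k v hv))
    (fun k => by
      by_cases hgk : good k v
      · rw [if_pos hgk]
      · rw [if_neg hgk]; exact mul_nonneg (hs.α0 k v hv) (sq_nonneg _))

/-- **e4**, departure form -/
theorem S_e4_3 (hs : s.Ok n) {h m b : ℝ} (hδ : 0 ≤ δ) (hh : 0 ≤ h)
    (h1 : S n s.e1 [] ≤ 2 * h)
    (hm : S n s.lα [] ≤ m) (good : K → Node → Prop) [∀ k v, Decidable (good k v)]
    (hg : ∀ k v, v.length < n → good k v → ‖s.z k v‖ ≤ δ * s.α k v)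
    (hbad : S n (fun v => ∑ k, if good k v then 0 else s.α k v * ‖s.τ k v‖ ^ 2) [] ≤ b) :
    S n s.e4 [] ≤ 24 + 16 * m + 12 * √(h * b) + 8 * (√(S n s.e2 []) * √(S n s.e3 []))
      + 16 * δ ^ 2 * h + 16 * S n s.e2 [] := by
  have e2n := S_e2_nonneg hs
  have e4n := S_e4_nonneg hs
  rcases Nat.eq_zero_or_pos n with hn | hn
  · subst hn
    have hm0 : 0 ≤ m := by simpa [S] using hm
    have : S 0 s.e4 [] = 0 := rfl
    rw [this]
    positivity
  have h2 := S_tele2 n (f := s.e4) (Φ := s.Φ5) (Φ' := s.Φ5') (c := 4)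
    (g := fun v => ((2 * δ * (∑ k, |s.dα k v| * ‖s.τ k v‖)
        + 4 * (∑ k, if good k v then 0 else |s.dα k v| * ‖s.τ k v‖))
        + (4 * (∑ k, ‖s.κ k v‖) + 2 * ∑ k, ‖s.τ k v‖ * ‖s.ρ k v‖)))
    (ℓ := fun v => 4 * s.lG v + 2 * 4 * s.lα v) (by norm_num) []
    (fun w hw => e4_node3 hs (lt_of_lt hs w hw) hδ good (fun k => hg k w (lt_of_lt hs w hw)))
    (fun w _ hw => Φ5_loss hs (lt_of_lt hs w hw))
    (fun w hw => by
      have := lG_nonneg hs (lt_of_lt hs w hw); have := lα_nonneg s w; positivity)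
    (Φ5_nonneg hs (by simpa using hn))
    (fun w hw => Φ5'_le hs (by simpa using hw))
  rw [S_loss, S_add, S_add, S_add, S_smul, S_smul, S_smul, S_smul] at h2
  have h3 := S_dατ hs
  have h4 := S_κ hs
  have h5 := S_τρ hs
  have h6 := S_lG hs
  have h7 : √(S n s.e1 []) * √(S n s.e4 []) ≤ √(2 * h) * √(S n s.e4 []) := by gcongr
  have h8 := S_cs n (f := fun v => ∑ k, if good k v then 0 else |s.dα k v| * ‖s.τ k v‖)
    (X := s.e1) (Y := fun v => ∑ k, if good k v then 0 else s.α k v * ‖s.τ k v‖ ^ 2) []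
    (fun w hw => e1_nonneg hs (lt_of_lt hs w hw))
    (fun w hw => Finset.sum_nonneg fun k _ => by
      by_cases hgk : good k w
      · rw [if_pos hgk]
      · rw [if_neg hgk]; exact mul_nonneg (hs.α0 k w (lt_of_lt hs w hw)) (sq_nonneg _))
    (fun w hw => Finset.sum_nonneg fun k _ => by
      by_cases hgk : good k w
      · rw [if_pos hgk]
      · rw [if_neg hgk]; positivity)
    (fun w hw => sum_dατ_bad hs (lt_of_lt hs w hw) good)
  have h9 : √(S n s.e1 []) * √(S n (fun v => ∑ k, if good k v then 0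
      else s.α k v * ‖s.τ k v‖ ^ 2) []) ≤ √(2 * h) * √b := by gcongr
  have h10 : √(2 * h) * √b ≤ 3 / 2 * √(h * b) := by
    rw [Real.sqrt_mul (by norm_num), Real.sqrt_mul hh, mul_assoc]
    have : √2 ≤ 3 / 2 := by
      rw [Real.sqrt_le_left (by norm_num)]; norm_num
    gcongr
  set E := S n s.e4 [] with hE
  set E2 := S n s.e2 [] with hE2
  set W := √E2 * √(S n s.e3 []) with hW
  have i3 : 2 * δ * S n (fun v => ∑ k, |s.dα k v| * ‖s.τ k v‖) []
      ≤ 2 * δ * (√(2 * h) * √E) := by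
    apply mul_le_mul_of_nonneg_left (h3.trans h7) (by positivity)
  have i5 : √E ^ 2 ≤ (12 + 8 * m + 6 * √(h * b) + 4 * W)
      + (2 * δ * √(2 * h) + 2 * √(2 * E2)) * √E := by
    rw [Real.sq_sqrt e4n]
    linarith
  have i6 := quad_bound hs i5
  rw [Real.sq_sqrt e4n] at i6
  have i7 : (2 * δ * √(2 * h) + 2 * √(2 * E2)) ^ 2 ≤ 16 * δ ^ 2 * h + 16 * E2 := by
    have j1 : √(2 * h) ^ 2 = 2 * h := Real.sq_sqrt (by positivity)
    have j2 : √(2 * E2) ^ 2 = 2 * E2 := Real.sq_sqrt (by positivity)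
    nlinarith [sq_nonneg (2 * δ * √(2 * h) - 2 * √(2 * E2))]
  linarith

end ESys

/-- final arithmetic, departure form -/
theorem final_arith3 {h I m δ b E2 E3 E4 EI L3 : ℝ} (hh : 0 ≤ h) (hI : 0 ≤ I) (hm : 0 ≤ m)
    (hδ : 0 ≤ δ) (hE2n : 0 ≤ E2) (hE3n : 0 ≤ E3) (hEI : EI ≤ I)
    (hE2 : E2 ≤ 8 + 4 * m + 4 * √(I * h) + 9 * I)
    (hL3 : L3 ≤ 8 + 4 * m + 4 * √(I * h) + 36 * h) (hE3 : E3 ≤ 2 * L3 + 2 * EI)
    (hE4 : E4 ≤ 24 + 16 * m + 12 * √(h * b) + 8 * (√E2 * √E3) + 16 * δ ^ 2 * h + 16 * E2) :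
    let W := √((1 + m + h + I) * (1 + m + I + √(I * h)))
    √E2 * √E3 ≤ 27 * W ∧ √h * √E4 ≤ 4 * (δ * h)
      + 15 * (√h * √(1 + m + √(h * b) + W + (1 + m + I + √(I * h)))) := by
  intro W
  set R := √(I * h) with hR
  have hR0 : 0 ≤ R := Real.sqrt_nonneg _
  have hRR : R ^ 2 = I * h := Real.sq_sqrt (by positivity)
  have hRle : 2 * R ≤ I + h := by
    have h1 : R ≤ (I + h) / 2 := by
      apply le_of_sq_le_sq _ (by positivity)
      rw [hRR]; nlinarith [sq_nonneg (I - h)]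
    linarith
  set X := 1 + m + h + I with hX
  set Y := 1 + m + I + R with hY
  have hX0 : 0 ≤ X := by positivity
  have hY0 : 0 ≤ Y := by positivity
  have hW0 : 0 ≤ W := Real.sqrt_nonneg _
  have hWW : W ^ 2 = X * Y := Real.sq_sqrt (by positivity)
  have hE2Y : E2 ≤ 9 * Y := by linarith
  have hE3X : E3 ≤ 76 * X := by linarith
  have w1 : √E2 * √E3 ≤ 27 * W := by
    rw [← Real.sqrt_mul hE2n]
    apply Real.sqrt_le_iff.mpr ⟨by positivity, ?_⟩
    rw [mul_pow, hWW]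
    have : E2 * E3 ≤ (9 * Y) * (76 * X) := by gcongr
    have h5 : 0 ≤ X * Y := mul_nonneg hX0 hY0
    have h6 : (9 * Y) * (76 * X) = 684 * (X * Y) := by ring
    linarith
  refine ⟨w1, ?_⟩
  set B := √(h * b) with hB
  have hB0 : 0 ≤ B := Real.sqrt_nonneg _
  set T := 1 + m + B + W + Y with hT
  have hT0 : 0 ≤ T := by positivity
  have q1 : E4 ≤ 16 * (δ ^ 2 * h) + 225 * T := by
    rw [hT]; nlinarith
  have q2 : √E4 ≤ 4 * (δ * √h) + 15 * √T := by
    apply Real.sqrt_le_iff.mpr ⟨by positivity, ?_⟩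
    have s1 : √h ^ 2 = h := Real.sq_sqrt hh
    have s2 : √T ^ 2 = T := Real.sq_sqrt hT0
    have s3 : 0 ≤ δ * √h * √T := by positivity
    have e : (4 * (δ * √h) + 15 * √T) ^ 2
        = 16 * (δ ^ 2 * √h ^ 2) + 225 * √T ^ 2 + 120 * (δ * √h * √T) := by ring
    rw [e, s1, s2]
    linarith
  have q3 : √h * √E4 ≤ √h * (4 * (δ * √h) + 15 * √T) :=
    mul_le_mul_of_nonneg_left q2 (Real.sqrt_nonneg _)
  have q4 : √h * (4 * (δ * √h) + 15 * √T) = 4 * (δ * h) + 15 * (√h * √T) := by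
    have s1 : √h * √h = h := Real.mul_self_sqrt hh
    calc √h * (4 * (δ * √h) + 15 * √T) = 4 * (δ * (√h * √h)) + 15 * (√h * √T) := by ring
      _ = _ := by rw [s1]
  linarith

/-- **Lemma E, departure form.** -/
theorem lemmaE_dep :
  ∃ C : ℝ, 0 < C ∧ ∀ (K Q : Type) [Fintype K] [Fintype Q] (s : ESys K Q) (n : ℕ)
    (good : K → Node → Prop) [∀ k v, Decidable (good k v)] (h I m δ b : ℝ),
    s.Ok n → 0 ≤ h → 0 ≤ I → 0 ≤ m → 0 ≤ δ → 0 ≤ b →
    S n (fun v => ∑ k, s.dα k v ^ 2 / s.α k v) [] ≤ 2 * h →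
    S n (fun v => ∑ q, s.dG q v ^ 2 / s.G q v) [] ≤ I →
    S n (fun v => ∑ k, max (s.α' k v - s.α k v) 0) [] ≤ m →
    (∀ k v, v.length < n → good k v → ‖s.z k v‖ ≤ δ * s.α k v) →
    S n (fun v => ∑ k, if good k v then 0 else s.α k v * ‖s.τ k v‖ ^ 2) [] ≤ b →
    ∀ c : Bool, S (n - 1) (s.gain1 c) [] ≤
      C * (δ * h + √((1 + m + h + I) * (1 + m + I + √(I * h)))
        + √h * √(1 + m + √(h * b) + √((1 + m + h + I) * (1 + m + I + √(I * h)))
            + (1 + m + I + √(I * h))) + I + m + 1) := by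
  refine ⟨140, by norm_num, ?_⟩
  intro K Q _ _ s n good _ h I m δ b hs hh hI hm hδ hb h1 h2 h3 hg hbad c
  have h1' : S n s.e1 [] ≤ 2 * h := h1
  have h2' : S n s.eI [] ≤ I := h2
  have h3' : S n s.lα [] ≤ m := h3
  have E2 := ESys.S_e2 hs hI h1' h2' h3'
  have E3' := ESys.S_e3' hs hh hI h1' h2' h3'
  have E3 := ESys.S_e3 hs
  have E4 := ESys.S_e4_3 hs hδ hh h1' h3' good hg hbad
  obtain ⟨w1, w2⟩ := final_arith3 (b := b) hh hI hm hδ (ESys.S_e2_nonneg hs)
    (ESys.S_e3_nonneg hs) h2' E2 E3' E3 E4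
  have e1n := ESys.S_e1_nonneg hs
  have r2 : 0 ≤ δ * h := by positivity
  have g1 := ESys.S_gain1 hs c
  have h5 : √(2 * S n s.e1 []) * √(S n s.e4 []) ≤ 2 * (√h * √(S n s.e4 [])) := by
    have e : √(2 ^ 2 * h) = 2 * √h := by
      rw [Real.sqrt_mul (by norm_num), Real.sqrt_sq (by norm_num)]
    have : √(2 * S n s.e1 []) ≤ 2 * √h := by
      rw [← e]; exact Real.sqrt_le_sqrt (by linarith)
    calc √(2 * S n s.e1 []) * √(S n s.e4 []) ≤ (2 * √h) * √(S n s.e4 []) :=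
          mul_le_mul_of_nonneg_right this (Real.sqrt_nonneg _)
      _ = _ := by ring
  have hW0 : 0 ≤ √((1 + m + h + I) * (1 + m + I + √(I * h))) := Real.sqrt_nonneg _
  have hT0 : 0 ≤ √h * √(1 + m + √(h * b) + √((1 + m + h + I) * (1 + m + I + √(I * h)))
            + (1 + m + I + √(I * h))) := by positivity
  linarith

end Vale.Agent.P091.H413
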