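import Mathlib

/-! Weighted sums over the nodes of a binary tree (nodes = lists of Booleans, the children of `v`
are `true :: v` and `false :: v`). -/

namespace Vale.Agent.P091.H413

/-- nodes of the infinite binary tree -/
abbrev Node := List Bool

/-- `S n f v`: expected sum of `f` over the first `n` nodes of a uniform random path started
at `v`. -/
noncomputable def S : ℕ → (Node → ℝ) → Node → ℝ
  | 0, _, _ => 0
  | n + 1, f, v => f v + (S n f (true :: v) + S n f (false :: v)) / 2

/-- `Lf n f v`: expected value of `f` at the node reached after `n` steps from `v`. -/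
noncomputable def Lf : ℕ → (Node → ℝ) → Node → ℝ
  | 0, f, v => f v
  | n + 1, f, v => (Lf n f (true :: v) + Lf n f (false :: v)) / 2

theorem S_add (n : ℕ) (f g : Node → ℝ) (v : Node) :
    S n (fun w => f w + g w) v = S n f v + S n g v := by
  induction n generalizing v with
  | zero => simp [S]
  | succ n ih => simp only [S, ih]; ring

theorem S_smul (n : ℕ) (c : ℝ) (f : Node → ℝ) (v : Node) :
    S n (fun w => c * f w) v = c * S n f v := by
  induction n generalizing v with
  | zero => simp [S]
  | succ n ih => simp only [S, ih]; ring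

theorem S_mono (n : ℕ) {f g : Node → ℝ} (v : Node)
    (h : ∀ w : Node, w.length < n + v.length → f w ≤ g w) :
    S n f v ≤ S n g v := by
  induction n generalizing v with
  | zero => simp [S]
  | succ n ih =>
    simp only [S]
    have h1 := ih (true :: v) (fun w hw => h w (by simp only [List.length_cons] at hw; omega))
    have h2 := ih (false :: v) (fun w hw => h w (by simp only [List.length_cons] at hw; omega))
    have h3 := h v (by omega)
    linarith

theorem S_nonneg (n : ℕ) {f : Node → ℝ} (v : Node)
    (h : ∀ w : Node, w.length < n + v.length → 0 ≤ f w) : 0 ≤ S n f v := by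
  have h1 := S_mono n (f := fun _ => 0) (g := f) v h
  have h2 : S n (fun _ => (0 : ℝ)) v = 0 := by
    have := S_smul n 0 (fun _ => 0) v
    simpa using this
  linarith

theorem Lf_le (n : ℕ) {f : Node → ℝ} {c : ℝ} (v : Node)
    (h : ∀ w : Node, w.length ≤ n + v.length → f w ≤ c) : Lf n f v ≤ c := by
  induction n generalizing v with
  | zero => exact h v (by omega)
  | succ n ih =>
    simp only [Lf]
    have h1 := ih (true :: v) (fun w hw => h w (by simp only [List.length_cons] at hw; omega))
    have h2 := ih (false :: v) (fun w hw => h w (by simp only [List.length_cons] at hw; omega))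
    linarith

/-- Telescoping of a potential. -/
theorem S_tele (n : ℕ) {f g Φ : Node → ℝ} (v : Node)
    (h : ∀ w : Node, w.length < n + v.length →
      f w ≤ (Φ (true :: w) + Φ (false :: w)) / 2 - Φ w + g w) :
    S n f v ≤ Lf n Φ v - Φ v + S n g v := by
  induction n generalizing v with
  | zero => simp [S, Lf]
  | succ n ih =>
    simp only [S, Lf]
    have h1 := ih (true :: v) (fun w hw => h w (by simp only [List.length_cons] at hw; omega))
    have h2 := ih (false :: v) (fun w hw => h w (by simp only [List.length_cons] at hw; omega))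
    have h3 := h v (by omega)
    linarith

/-- Telescoping, with the usual bounds `0 ≤ Φ ≤ c`. -/
theorem S_tele_le (n : ℕ) {f g Φ : Node → ℝ} {c : ℝ} (v : Node)
    (h : ∀ w : Node, w.length < n + v.length →
      f w ≤ (Φ (true :: w) + Φ (false :: w)) / 2 - Φ w + g w)
    (h0 : 0 ≤ Φ v) (hc : ∀ w : Node, w.length ≤ n + v.length → Φ w ≤ c) :
    S n f v ≤ c + S n g v := by
  have h1 := S_tele n v h
  have h2 := Lf_le n v hc
  linarith

/-- Telescoping with modifications: `Φ'` = value on arrival at a node, `Φ` = value on departure,
`ℓ` = loss by the modification. -/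
theorem S_tele2 (n : ℕ) {f g Φ Φ' ℓ : Node → ℝ} {c : ℝ} (hc0 : 0 ≤ c) (v : Node)
    (h : ∀ w : Node, w.length < n + v.length →
      f w ≤ (Φ' (true :: w) + Φ' (false :: w)) / 2 - Φ w + g w)
    (hl : ∀ w : Node, v.length < w.length → w.length < n + v.length → Φ' w - Φ w ≤ ℓ w)
    (hl0 : ∀ w : Node, w.length < n + v.length → 0 ≤ ℓ w)
    (h0 : 0 ≤ Φ v) (hc : ∀ w : Node, w.length ≤ n + v.length → Φ' w ≤ c) :
    S n f v ≤ c + S n g v + S n ℓ v := by
  have key : ∀ m : ℕ, ∀ v : Node,
      (∀ w : Node, w.length < (m + 1) + v.length →
        f w ≤ (Φ' (true :: w) + Φ' (false :: w)) / 2 - Φ w + g w) →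
      (∀ w : Node, v.length < w.length → w.length < (m + 1) + v.length → Φ' w - Φ w ≤ ℓ w) →
      (∀ w : Node, w.length ≤ (m + 1) + v.length → Φ' w ≤ c) →
      S (m + 1) f v + Φ v ≤ c + S (m + 1) g v + (S (m + 1) ℓ v - ℓ v) := by
    intro m
    induction m with
    | zero =>
      intro v h _ hc
      simp only [S]
      have h1 := h v (by omega)
      have h2 := hc (true :: v) (by simp only [List.length_cons]; omega)
      have h3 := hc (false :: v) (by simp only [List.length_cons]; omega)
      linarith
    | succ m ih =>
      intro v h hl hc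
      have hT := ih (true :: v)
        (fun w hw => h w (by simp only [List.length_cons] at hw; omega))
        (fun w hw hw2 => hl w (by simp only [List.length_cons] at hw; omega)
          (by simp only [List.length_cons] at hw2; omega))
        (fun w hw => hc w (by simp only [List.length_cons] at hw; omega))
      have hF := ih (false :: v)
        (fun w hw => h w (by simp only [List.length_cons] at hw; omega))
        (fun w hw hw2 => hl w (by simp only [List.length_cons] at hw; omega)
          (by simp only [List.length_cons] at hw2; omega))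
        (fun w hw => hc w (by simp only [List.length_cons] at hw; omega))
      have h1 := h v (by omega)
      have l1 := hl (true :: v) (by simp only [List.length_cons]; omega)
        (by simp only [List.length_cons]; omega)
      have l2 := hl (false :: v) (by simp only [List.length_cons]; omega)
        (by simp only [List.length_cons]; omega)
      have e1 : S (m + 1 + 1) f v
          = f v + (S (m + 1) f (true :: v) + S (m + 1) f (false :: v)) / 2 := rfl
      have e2 : S (m + 1 + 1) g v
          = g v + (S (m + 1) g (true :: v) + S (m + 1) g (false :: v)) / 2 := rfl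
      have e3 : S (m + 1 + 1) ℓ v
          = ℓ v + (S (m + 1) ℓ (true :: v) + S (m + 1) ℓ (false :: v)) / 2 := rfl
      linarith
  rcases n with _ | m
  · simp only [S]; linarith
  · have h1 := key m v h hl hc
    have h2 := hl0 v (by omega)
    linarith

/-- Cauchy-Schwarz for the functional `S n · v`. -/
theorem S_cs (n : ℕ) {f X Y : Node → ℝ} (v : Node)
    (hX : ∀ w : Node, w.length < n + v.length → 0 ≤ X w)
    (hY : ∀ w : Node, w.length < n + v.length → 0 ≤ Y w)
    (hf : ∀ w : Node, w.length < n + v.length → 0 ≤ f w)
    (h : ∀ w : Node, w.length < n + v.length → f w ≤ √(X w) * √(Y w)) :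
    S n f v ≤ √(S n X v) * √(S n Y v) := by
  have hSf := S_nonneg n v hf
  have hSX := S_nonneg n v hX
  have hSY := S_nonneg n v hY
  have key : ∀ x : ℝ, 0 ≤ S n X v * (x * x) + (-2 * S n f v) * x + S n Y v := by
    intro x
    have h1 : S n (fun w => (x * x) * X w + ((-2 * x) * f w + Y w)) v
        = (x * x) * S n X v + ((-2 * x) * S n f v + S n Y v) := by
      rw [S_add, S_smul, S_add, S_smul]
    have h2 : 0 ≤ S n (fun w => (x * x) * X w + ((-2 * x) * f w + Y w)) v := by
      apply S_nonneg
      intro w hw
      have e1 : √(X w) * √(X w) = X w := Real.mul_self_sqrt (hX w hw)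
      have e2 : √(Y w) * √(Y w) = Y w := Real.mul_self_sqrt (hY w hw)
      rcases le_or_gt 0 x with hx | hx
      · have h3 : x * f w ≤ x * (√(X w) * √(Y w)) := mul_le_mul_of_nonneg_left (h w hw) hx
        nlinarith [sq_nonneg (x * √(X w) - √(Y w))]
      · have h3 : 0 ≤ (-x) * f w := mul_nonneg (by linarith) (hf w hw)
        nlinarith [mul_nonneg (mul_self_nonneg x) (hX w hw), hY w hw]
    rw [h1] at h2
    linarith
  have hd := discrim_le_zero key
  unfold discrim at hd
  rw [← Real.sqrt_mul hSX]
  apply Real.le_sqrt_of_sq_le
  nlinarith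

theorem S_child_aux (n : ℕ) {F : Node → ℝ} (v : Node)
    (h : ∀ w : Node, w.length < n + 1 + v.length → 0 ≤ F w) (b : Bool) :
    S n (fun w => F (b :: w)) v ≤ S n F (true :: v) + S n F (false :: v) := by
  induction n generalizing v with
  | zero => simp [S]
  | succ n ih =>
    have h1 := ih (true :: v) (fun w hw => h w (by simp only [List.length_cons] at hw; omega))
    have h2 := ih (false :: v) (fun w hw => h w (by simp only [List.length_cons] at hw; omega))
    have h3 := h (true :: v) (by simp only [List.length_cons]; omega)
    have h4 := h (false :: v) (by simp only [List.length_cons]; omega)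
    simp only [S]
    cases b <;> linarith

/-- One-level shift: sums of `F` at the children. -/
theorem S_child_le (n : ℕ) {F : Node → ℝ} (v : Node)
    (h : ∀ w : Node, w.length < n + 1 + v.length → 0 ≤ F w) (b : Bool) :
    S n (fun w => F (b :: w)) v ≤ 2 * S (n + 1) F v := by
  have h1 := S_child_aux n v h b
  have h2 := h v (by omega)
  have e2 : S (n + 1) F v = F v + (S n F (true :: v) + S n F (false :: v)) / 2 := rfl
  linarith

/-- Weighted Cauchy-Schwarz for finite sums, `w i = 0` only where `a i = 0`. -/
theorem sum_cs {ι : Type*} (s : Finset ι) (a b w : ι → ℝ)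
    (hw : ∀ i ∈ s, 0 ≤ w i) (h0 : ∀ i ∈ s, w i = 0 → a i = 0) :
    ∑ i ∈ s, a i * b i ≤ √(∑ i ∈ s, a i ^ 2 / w i) * √(∑ i ∈ s, w i * b i ^ 2) := by
  have h1 : ∑ i ∈ s, a i * b i ≤ ∑ i ∈ s, (a i / √(w i)) * (√(w i) * b i) := by
    apply Finset.sum_le_sum
    intro i hi
    rcases eq_or_lt_of_le (hw i hi) with h | h
    · rw [h0 i hi h.symm]; simp
    · have : √(w i) ≠ 0 := (Real.sqrt_pos.mpr h).ne'
      apply le_of_eq
      field_simp
  refine h1.trans ?_
  refine (Real.sum_mul_le_sqrt_mul_sqrt s _ _).trans ?_
  apply mul_le_mul _ _ (Real.sqrt_nonneg _) (Real.sqrt_nonneg _)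
  · apply Real.sqrt_le_sqrt
    apply Finset.sum_le_sum
    intro i hi
    rw [div_pow, Real.sq_sqrt (hw i hi)]
  · apply Real.sqrt_le_sqrt
    apply Finset.sum_le_sum
    intro i hi
    rw [mul_pow, Real.sq_sqrt (hw i hi)]

end Vale.Agent.P091.H413
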